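import Mathlib

/-! The belief propagation function and its Lipschitz property. -/

set_option autoImplicit false

namespace Vale.Agent.P161.Tree

open Real

/-- `bp θ h = artanh (θ tanh h)` -/
noncomputable def bp (θ h : ℝ) : ℝ :=
  (1 / 2) * (log ((1 + θ) * exp h + (1 - θ) * exp (-h)) -
    log ((1 - θ) * exp h + (1 + θ) * exp (-h)))

variable {θ : ℝ}

lemma bp_pos1 (h0 : 0 ≤ θ) (h1 : θ ≤ 1) (h : ℝ) : 0 < (1 + θ) * exp h + (1 - θ) * exp (-h) := by
  have := exp_pos h
  have := exp_pos (-h)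
  have h2 : 0 ≤ (1 - θ) * exp (-h) := by nlinarith
  have h3 : 0 < (1 + θ) * exp h := by nlinarith
  linarith

lemma bp_pos2 (h0 : 0 ≤ θ) (h1 : θ ≤ 1) (h : ℝ) : 0 < (1 - θ) * exp h + (1 + θ) * exp (-h) := by
  have := exp_pos h
  have := exp_pos (-h)
  have h2 : 0 ≤ (1 - θ) * exp h := by nlinarith
  have h3 : 0 < (1 + θ) * exp (-h) := by nlinarith
  linarith

lemma hasDerivAt_bp (h0 : 0 ≤ θ) (h1 : θ ≤ 1) (h : ℝ) :
    HasDerivAt (bp θ) (4 * θ / (((1 + θ) * exp h + (1 - θ) * exp (-h)) *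
      ((1 - θ) * exp h + (1 + θ) * exp (-h)))) h := by
  have p1 := bp_pos1 h0 h1 h
  have p2 := bp_pos2 h0 h1 h
  have e1 : HasDerivAt (fun x => exp (-x)) (-exp (-h)) h := by
    simpa using (hasDerivAt_neg h).exp
  have d1 : HasDerivAt (fun x => (1 + θ) * exp x + (1 - θ) * exp (-x))
      ((1 + θ) * exp h + (1 - θ) * (-exp (-h))) h :=
    ((hasDerivAt_exp h).const_mul _).add (e1.const_mul _)
  have d2 : HasDerivAt (fun x => (1 - θ) * exp x + (1 + θ) * exp (-x))
      ((1 - θ) * exp h + (1 + θ) * (-exp (-h))) h :=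
    ((hasDerivAt_exp h).const_mul _).add (e1.const_mul _)
  have d3 : HasDerivAt (bp θ) ((1 / 2 : ℝ) *
      (((1 + θ) * exp h + (1 - θ) * (-exp (-h))) / ((1 + θ) * exp h + (1 - θ) * exp (-h)) -
        ((1 - θ) * exp h + (1 + θ) * (-exp (-h))) / ((1 - θ) * exp h + (1 + θ) * exp (-h)))) h :=
    ((d1.log p1.ne').sub (d2.log p2.ne')).const_mul (1 / 2 : ℝ)
  have hee : exp h * exp (-h) = 1 := by rw [← exp_add]; simp
  have e : (1 / 2 : ℝ) *
      (((1 + θ) * exp h + (1 - θ) * (-exp (-h))) / ((1 + θ) * exp h + (1 - θ) * exp (-h)) -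
        ((1 - θ) * exp h + (1 + θ) * (-exp (-h))) / ((1 - θ) * exp h + (1 + θ) * exp (-h))) =
      4 * θ / (((1 + θ) * exp h + (1 - θ) * exp (-h)) *
      ((1 - θ) * exp h + (1 + θ) * exp (-h))) := by
    rw [div_sub_div _ _ p1.ne' p2.ne', ← mul_div_assoc]
    congr 1
    linear_combination (4 * θ) * hee
  rw [e] at d3
  exact d3

lemma bp_lipschitz (h0 : 0 ≤ θ) (h1 : θ ≤ 1) (x y : ℝ) : |bp θ x - bp θ y| ≤ θ * |x - y| := by
  have key : ∀ h : ℝ, ‖4 * θ / (((1 + θ) * exp h + (1 - θ) * exp (-h)) *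
      ((1 - θ) * exp h + (1 + θ) * exp (-h)))‖ ≤ θ := by
    intro h
    have p1 := bp_pos1 h0 h1 h
    have p2 := bp_pos2 h0 h1 h
    have hee : exp h * exp (-h) = 1 := by rw [← exp_add]; simp
    have hden : 4 ≤ ((1 + θ) * exp h + (1 - θ) * exp (-h)) *
        ((1 - θ) * exp h + (1 + θ) * exp (-h)) := by
      have : ((1 + θ) * exp h + (1 - θ) * exp (-h)) * ((1 - θ) * exp h + (1 + θ) * exp (-h)) =
          (1 - θ) * (1 + θ) * (exp h - exp (-h)) ^ 2 + 4 * (exp h * exp (-h)) := by ring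
      rw [this, hee]
      have h3 : 0 ≤ (1 - θ) * (1 + θ) := mul_nonneg (by linarith) (by linarith)
      nlinarith [mul_nonneg h3 (sq_nonneg (exp h - exp (-h)))]
    rw [Real.norm_of_nonneg (by positivity)]
    rw [div_le_iff₀ (by positivity)]
    nlinarith
  have := Convex.norm_image_sub_le_of_norm_hasDerivWithin_le (f := bp θ) (C := θ)
    (s := Set.univ) (fun h _ => (hasDerivAt_bp h0 h1 h).hasDerivWithinAt) (fun h _ => key h)
    convex_univ (Set.mem_univ y) (Set.mem_univ x)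
  simpa [Real.norm_eq_abs] using this

/-- the defining property: summing out a leaf with field `h` gives the field `bp θ h` -/
lemma bp_spec (h0 : 0 ≤ θ) (h1 : θ ≤ 1) (h : ℝ) :
    ∃ c : ℝ, 0 < c ∧ (1 + θ) * exp h + (1 - θ) * exp (-h) = c * exp (bp θ h) ∧
      (1 - θ) * exp h + (1 + θ) * exp (-h) = c * exp (-bp θ h) := by
  have p1 := bp_pos1 h0 h1 h
  have p2 := bp_pos2 h0 h1 h
  set A := (1 + θ) * exp h + (1 - θ) * exp (-h)
  set B := (1 - θ) * exp h + (1 + θ) * exp (-h)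
  refine ⟨exp ((log A + log B) / 2), exp_pos _, ?_, ?_⟩
  · rw [← exp_add]
    have : (log A + log B) / 2 + bp θ h = log A := by
      unfold bp; ring
    rw [this, exp_log p1]
  · rw [← exp_add]
    have : (log A + log B) / 2 + -bp θ h = log B := by
      unfold bp; ring
    rw [this, exp_log p2]

lemma tanh_lipschitz (x y : ℝ) : |tanh x - tanh y| ≤ |x - y| := by
  have key : ∀ h : ℝ, ‖1 / cosh h ^ 2‖ ≤ 1 := by
    intro h
    have := one_le_cosh h
    rw [Real.norm_of_nonneg (by positivity), div_le_one (by positivity)]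
    nlinarith
  have hd : ∀ h : ℝ, HasDerivAt tanh (1 / cosh h ^ 2) h := by
    intro h
    have h1 := (hasDerivAt_sinh h).div (hasDerivAt_cosh h) (cosh_pos h).ne'
    have h3 : tanh = sinh / cosh := by
      funext x; rw [tanh_eq_sinh_div_cosh]; rfl
    rw [h3]
    have h4 : cosh h * cosh h - sinh h * sinh h = 1 := by
      have := cosh_sq h
      nlinarith
    rw [h4] at h1
    exact h1
  have := Convex.norm_image_sub_le_of_norm_hasDerivWithin_le (f := tanh) (C := 1)
    (s := Set.univ) (fun h _ => (hd h).hasDerivWithinAt) (fun h _ => key h)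
    convex_univ (Set.mem_univ y) (Set.mem_univ x)
  simpa [Real.norm_eq_abs] using this

end Vale.Agent.P161.Tree
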