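import Vale.Agent.P161.Moments

/-! `L¹` Cauchy property of the reconstructed estimators along growing volumes. -/

open MeasureTheory Set Filter
open scoped Topology

namespace Vale.Agent.P161

variable {V : Type*}

lemma l1_of_l2 {Ω : Type*} [MeasurableSpace Ω] {P : Measure Ω} [IsProbabilityMeasure P]
    {h : Ω → ℝ} (hm : Measurable h) {C : ℝ} (hC : ∀ g, |h g| ≤ C) {δ : ℝ} (hδ : 0 < δ)
    (h2 : ∫ x, h x ^ 2 ∂P ≤ δ ^ 2) : ∫ x, |h x| ∂P ≤ δ := by
  have i1 : Integrable (fun x => |h x|) P :=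
    integrable_of_bdd hm.abs (fun g => by rw [abs_abs]; exact hC g)
  have i2 : Integrable (fun x => h x ^ 2) P :=
    integrable_of_bdd (C := C ^ 2) (hm.pow_const 2) (fun g => by
      rw [abs_pow]; exact pow_le_pow_left₀ (abs_nonneg _) (hC g) 2)
  have hp : ∀ x, |h x| ≤ δ / 2 + 1 / (2 * δ) * h x ^ 2 := by
    intro x
    have h2 : 0 ≤ (|h x| - δ) ^ 2 := sq_nonneg _
    have h3 : |h x| ^ 2 = h x ^ 2 := sq_abs _
    have h4 : δ / 2 + 1 / (2 * δ) * h x ^ 2 - |h x| = (|h x| - δ) ^ 2 / (2 * δ) := by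
      rw [← h3]; field_simp; ring
    have h5 : 0 ≤ (|h x| - δ) ^ 2 / (2 * δ) := by positivity
    linarith
  calc ∫ x, |h x| ∂P ≤ ∫ x, (δ / 2 + 1 / (2 * δ) * h x ^ 2) ∂P :=
        integral_mono i1 ((integrable_const _).add (i2.const_mul _)) hp
    _ = δ / 2 + 1 / (2 * δ) * ∫ x, h x ^ 2 ∂P := by
        rw [integral_add (integrable_const _) (i2.const_mul _), integral_const_mul]; simp
    _ ≤ δ / 2 + 1 / (2 * δ) * δ ^ 2 := by
        have : 1 / (2 * δ) * ∫ x, h x ^ 2 ∂P ≤ 1 / (2 * δ) * δ ^ 2 :=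
          mul_le_mul_of_nonneg_left h2 (by positivity)
        linarith
    _ = δ := by field_simp; ring

variable [Countable V] [DecidableEq V]

lemma total_of_inj {t : V → unitInterval} (ht : Function.Injective t) (B : Finset V) (N : ℕ) :
    ∀ e ∈ B ×ˢ Finset.range N, ∀ f ∈ B ×ˢ Finset.range N, e ≠ f → prec t e f ∨ prec t f e := by
  rintro ⟨v, j⟩ _ ⟨w, k⟩ _ hne
  rcases lt_trichotomy j k with h | h | h
  · exact Or.inl (Or.inl h)
  · subst h
    have hvw : v ≠ w := fun h => hne (by rw [h])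
    rcases lt_or_gt_of_ne (fun h => hvw (ht h) : t v ≠ t w) with h | h
    · exact Or.inl (Or.inr ⟨rfl, h⟩)
    · exact Or.inr (Or.inr ⟨rfl, h⟩)
  · exact Or.inr (Or.inl h)

lemma ae_inj : ∀ᵐ t ∂(iidUniform V), Function.Injective t := by
  have h1 : ∀ v w : V, v ≠ w → ∀ᵐ t ∂(iidUniform V), t v ≠ t w := by
    intro v w hvw
    have hms : MeasurableSet {t : V → unitInterval | t v = t w} :=
      measurableSet_eq_fun (measurable_pi_apply v) (measurable_pi_apply w)
    rw [ae_iff]
    have : {t : V → unitInterval | ¬ t v ≠ t w} = {t : V → unitInterval | t v = t w} := by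
      ext t; simp
    rw [this, ← lintegral_indicator_one hms,
      lintegral_resample v (measurable_one.indicator hms)]
    have h2 : ∀ t : V → unitInterval, ∫⁻ r, ({t : V → unitInterval | t v = t w}.indicator
        (1 : (V → unitInterval) → ENNReal)) (Function.update t v r)
        ∂(volume : Measure unitInterval) = 0 := by
      intro t
      have h3 : ∀ r, ({t : V → unitInterval | t v = t w}.indicator
        (1 : (V → unitInterval) → ENNReal)) (Function.update t v r) =
        ({t w} : Set unitInterval).indicator (1 : unitInterval → ENNReal) r := by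
        intro r
        by_cases hr : r = t w
        · rw [indicator_of_mem, indicator_of_mem (by simpa using hr)]
          · rfl
          · show Function.update t v r v = Function.update t v r w
            rw [Function.update_self, Function.update_of_ne hvw.symm]; exact hr
        · rw [indicator_of_notMem, indicator_of_notMem (by simpa using hr)]
          show ¬ (Function.update t v r v = Function.update t v r w)
          rw [Function.update_self, Function.update_of_ne hvw.symm]; exact hr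
      simp_rw [h3]
      rw [lintegral_indicator_one (measurableSet_singleton _)]
      exact measure_singleton _
    simp [h2]
  have h2 : ∀ᵐ t ∂(iidUniform V), ∀ v w : V, v ≠ w → t v ≠ t w := by
    rw [ae_all_iff]; intro v
    rw [ae_all_iff]; intro w
    by_cases hvw : v = w
    · filter_upwards with t h; exact absurd hvw h
    · filter_upwards [h1 v w hvw] with t ht _; exact ht
  filter_upwards [h2] with t ht v w hvw
  by_contra h
  exact ht v w h hvw

section

variable {μ : Measure (V → Bool)} [IsProbabilityMeasure μ] {ε : ℝ} {κ ρ : V → V → ℝ} {M : ℝ}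

lemma measurable_FF (μ : Measure (V → Bool)) [IsProbabilityMeasure μ] (ε : ℝ) (B : Finset V)
    (N : ℕ) (v : V) :
    Measurable (fun p : (V → unitInterval) × (V × ℕ → unitInterval) => FF μ ε B N v p.1 p.2) := by
  unfold FF
  exact (measurable_hat ε N v).comp (measurable_sol μ ε _)

lemma measurable_FF_right (μ : Measure (V → Bool)) [IsProbabilityMeasure μ] (ε : ℝ)
    (B : Finset V) (N : ℕ) (v : V) (t : V → unitInterval) : Measurable (FF μ ε B N v t) := by
  have h := (measurable_FF μ ε B N v).comp (measurable_prodMk_left (x := t))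
  exact h

lemma measurable_innov_right (μ : Measure (V → Bool)) [IsProbabilityMeasure μ] (ε : ℝ)
    (S : Finset (V × ℕ)) (t : V → unitInterval) : Measurable (innov μ ε t S) := by
  have h := (measurable_innov μ ε S).comp (measurable_prodMk_left (x := t))
  have e : innov μ ε t S = (fun p : (V → unitInterval) × (V × ℕ → unitInterval) =>
    innov μ ε p.1 S p.2) ∘ Prod.mk t := rfl
  rw [e]; exact h

/-- transfer of integrals to the observation space -/
lemma integral_transfer (hε : |ε| ≤ 1 / 2) {t : V → unitInterval} (ht : Function.Injective t)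
    (B : Finset V) (N : ℕ) {φ : (V × ℕ → unitInterval) → ℝ} (hφ : Measurable φ) :
    ∫ g, φ g ∂(iidUniform (V × ℕ)) =
      ∫ u, φ (innov μ ε t (B ×ˢ Finset.range N) u) ∂(law μ ε (B ×ˢ Finset.range N)) := by
  rw [← map_innov μ hε t _ (total_of_inj ht B N),
    integral_map (measurable_innov_right μ ε _ t).aemeasurable hφ.aestronglyMeasurable]

lemma aa_mono (hε : |ε| ≤ 1 / 2) {Q Q' : Finset (V × ℕ)} (hQ : Q ⊆ Q') (v : V) :
    aa μ ε Q v ≤ aa μ ε Q' v := by
  have h := martingale μ hε hQ (Finset.Subset.refl Q') v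
  have h2 : 0 ≤ ∫ u, (mg μ ε Q' v u - mg μ ε Q v u) ^ 2 ∂(law μ ε Q') :=
    integral_nonneg fun u => sq_nonneg _
  linarith

lemma past_mono {t : V → unitInterval} {S S' : Finset (V × ℕ)} (h : S ⊆ S') (e : V × ℕ) :
    past t S e ⊆ past t S' e := fun _ hf =>
  mem_past.2 ⟨h (mem_past.1 hf).1, (mem_past.1 hf).2⟩

/-- comparison of two volumes -/
lemma compare (h : Good μ ε κ ρ M) {t : V → unitInterval} (ht : Function.Injective t)
    {B0 B A : Finset V} (hB : B0 ⊆ B) {N : ℕ} (hN : 0 < N) {v : V} (hv : v ∈ B0)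
    (hA : A ⊆ B0) {δ : ℝ} (hδ : 0 < δ)
    (h1 : ∑ e ∈ (B0 \ A) ×ˢ Finset.range N, (12 * 4 ^ N / (ε * N) * ρ v e.1) ^ 2 ≤ δ ^ 2)
    {η : ℝ} (hη : 0 < η)
    (h2 : ∀ e ∈ A ×ˢ Finset.range N,
      aa μ ε (past t (B ×ˢ Finset.range N) e) e.1 -
        aa μ ε (past t (B0 ×ˢ Finset.range N) e) e.1 ≤ η ^ 2)
    (h3 : ∑ e ∈ A ×ˢ Finset.range N, (12 * 4 ^ N / (ε * N) * ρ v e.1) * η ≤ δ) :
    ∫ g, |FF μ ε B N v t g - FF μ ε B0 N v t g| ∂(iidUniform (V × ℕ)) ≤ 3 * δ := by
  have hε := h.abs_eps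
  have hN' : (0:ℝ) < N := by exact_mod_cast hN
  set S := B ×ˢ Finset.range N with hS
  set S0 := B0 ×ˢ Finset.range N with hS0
  set Q := (B0 \ A) ×ˢ Finset.range N with hQ
  set L : V × ℕ → ℝ := fun e => 12 * 4 ^ N / (ε * N) * ρ v e.1 with hL
  have hL0 : ∀ e, 0 ≤ L e := fun e => mul_nonneg
    (div_nonneg (by positivity) (mul_nonneg h.eps_pos.le hN'.le)) (h.ρ_nonneg _ _)
  have hSS : S0 ⊆ S := Finset.product_subset_product_left hB
  set f := FF μ ε B0 N v t with hf
  have hfm : Measurable f := measurable_FF_right μ ε B0 N v t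
  have hflip : LipVec S0 L f := FF_lip h B0 hN hv t
  obtain ⟨f', hf'm, hf'lip, -, hf'2, -⟩ := bdd_diff hL0 hfm hflip Q
  have hSQ : S0 \ Q = A ×ˢ Finset.range N := by
    ext ⟨w, j⟩
    simp only [hS0, hQ, Finset.mem_sdiff, Finset.mem_product, Finset.mem_range]
    constructor
    · rintro ⟨⟨a, b⟩, c⟩
      refine ⟨?_, b⟩
      by_contra hw
      exact c ⟨⟨a, hw⟩, b⟩
    · rintro ⟨a, b⟩
      exact ⟨⟨hA a, b⟩, fun c => c.1.2 a⟩
  rw [hSQ] at hf'lip
  obtain ⟨C, hC⟩ := hflip.bounded hL0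
  obtain ⟨C', hC'⟩ := hf'lip.bounded hL0
  have hd : ∀ g, |f g - f' g| ≤ C + C' := fun g =>
    (abs_sub _ _).trans (add_le_add (hC g) (hC' g))
  -- L¹ distance of f and f'
  have hff' : ∫ g, |f g - f' g| ∂(iidUniform (V × ℕ)) ≤ δ :=
    l1_of_l2 (hfm.sub hf'm) hd hδ (hf'2.trans h1)
  have mS := measurable_innov_right μ ε S t
  have mS0 := measurable_innov_right μ ε S0 t
  have hprob := law_prob μ hε S
  have hprob0 := law_prob μ hε S0
  -- rewrite
  have hFB : Measurable (fun g => |FF μ ε B N v t g - f g|) :=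
    ((measurable_FF_right μ ε B N v t).sub hfm).abs
  rw [integral_transfer (μ := μ) hε ht B N hFB]
  have e1 : ∀ u, FF μ ε B N v t (innov μ ε t S u) = f (innov μ ε t S0 u) := by
    intro u
    rw [hf, FF_innov h B le_rfl (hB hv), FF_innov h B0 le_rfl hv]
  show ∫ u, |FF μ ε B N v t (innov μ ε t S u) - f (innov μ ε t S u)| ∂(law μ ε S) ≤ 3 * δ
  have e2 : ∀ u, |FF μ ε B N v t (innov μ ε t S u) - f (innov μ ε t S u)| =
      |f (innov μ ε t S0 u) - f (innov μ ε t S u)| := fun u => by rw [e1]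
  rw [integral_congr_ae (Filter.Eventually.of_forall e2)]
  have p1 : ∫ u, |f (innov μ ε t S0 u) - f' (innov μ ε t S0 u)| ∂(law μ ε S) ≤ δ := by
    have hm : Measurable (fun u => |f (innov μ ε t S0 u) - f' (innov μ ε t S0 u)|) :=
      ((hfm.comp mS0).sub (hf'm.comp mS0)).abs
    have hi : IndepOf (S \ S0) (fun u => |f (innov μ ε t S0 u) - f' (innov μ ε t S0 u)|) := by
      intro g g' hg
      have hinn : ∀ e ∈ S0, innov μ ε t S0 g e = innov μ ε t S0 g' e := by
        intro e he
        unfold innov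
        rw [if_pos he, if_pos he]
        have h5 : mm μ ε t S0 e g = mm μ ε t S0 e g' := mm_congr μ fun x hx =>
          hg x (fun hx' => (Finset.mem_sdiff.1 hx').2 (past_subset t S0 e hx))
        rw [h5, hg e (fun hx' => (Finset.mem_sdiff.1 hx').2 he)]
      have k1 : f (innov μ ε t S0 g) = f (innov μ ε t S0 g') := by
        have := hflip (innov μ ε t S0 g) (innov μ ε t S0 g')
        have hz : ∑ e ∈ S0, L e * |(innov μ ε t S0 g e : ℝ) - innov μ ε t S0 g' e| = 0 :=
          Finset.sum_eq_zero fun e he => by rw [hinn e he]; simp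
        rw [hz] at this
        have := abs_nonpos_iff.1 this; linarith
      have k2 : f' (innov μ ε t S0 g) = f' (innov μ ε t S0 g') := by
        have := hf'lip (innov μ ε t S0 g) (innov μ ε t S0 g')
        have hz : ∑ e ∈ A ×ˢ Finset.range N,
            L e * |(innov μ ε t S0 g e : ℝ) - innov μ ε t S0 g' e| = 0 :=
          Finset.sum_eq_zero fun e he => by
            rw [hinn e (Finset.product_subset_product_left hA he)]; simp
        rw [hz] at this
        have := abs_nonpos_iff.1 this; linarith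
      simp only [k1, k2]
    rw [integral_law_mono μ hε hSS hm hi,
      ← integral_transfer (μ := μ) hε ht B0 N (φ := fun g => |f g - f' g|) (hfm.sub hf'm).abs]
    exact hff'
  have p2 : ∫ u, |f (innov μ ε t S u) - f' (innov μ ε t S u)| ∂(law μ ε S) ≤ δ := by
    rw [← integral_transfer (μ := μ) hε ht B N (φ := fun g => |f g - f' g|) (hfm.sub hf'm).abs]
    exact hff'
  have p3 : ∫ u, |f' (innov μ ε t S0 u) - f' (innov μ ε t S u)| ∂(law μ ε S) ≤ δ := by
    have hmd : ∀ e, Measurable (fun u => |(innov μ ε t S0 u e : ℝ) - innov μ ε t S u e|) := by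
      intro e
      have m1 : Measurable (fun u => innov μ ε t S0 u e) := (measurable_pi_apply e).comp mS0
      have m2 : Measurable (fun u => innov μ ε t S u e) := (measurable_pi_apply e).comp mS
      exact (m1.subtype_val.sub m2.subtype_val).abs
    have hie : ∀ e, Integrable (fun u => |(innov μ ε t S0 u e : ℝ) - innov μ ε t S u e|)
        (law μ ε S) := fun e => integrable_of_bdd (C := 1) (hmd e) fun u => by
          rw [abs_abs]; exact coe_abs_sub_le_one _ _
    have hone : ∀ e ∈ A ×ˢ Finset.range N,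
        ∫ u, |(innov μ ε t S0 u e : ℝ) - innov μ ε t S u e| ∂(law μ ε S) ≤ η := by
      intro e he
      have he0 : e ∈ S0 := Finset.product_subset_product_left hA he
      have heS : e ∈ S := hSS he0
      set P0 := past t S0 e
      set P1 := past t S e
      have hP01 : P0 ⊆ P1 := past_mono hSS e
      have hP1S : P1 ⊆ S := past_subset t S e
      have hpt : ∀ u, |(innov μ ε t S0 u e : ℝ) - innov μ ε t S u e| ≤
          |mg μ ε P1 e.1 u - mg μ ε P0 e.1 u| := by
        intro u
        unfold innov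
        rw [if_pos he0, if_pos heS]
        refine (kap_lip (abs_eps_mm μ hε t S0 e u) (abs_eps_mm μ hε t S e u) (u e)).trans ?_
        rw [← mul_sub, abs_mul]
        unfold mm
        calc |ε| * |mg μ ε P0 e.1 u - mg μ ε P1 e.1 u|
            ≤ 1 * |mg μ ε P0 e.1 u - mg μ ε P1 e.1 u| :=
              mul_le_mul_of_nonneg_right (hε.trans (by norm_num)) (abs_nonneg _)
          _ = |mg μ ε P1 e.1 u - mg μ ε P0 e.1 u| := by rw [one_mul, abs_sub_comm]
      have hmg : Measurable (fun u => mg μ ε P1 e.1 u - mg μ ε P0 e.1 u) :=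
        (measurable_mg μ P1 e.1).sub (measurable_mg μ P0 e.1)
      have hmgb : ∀ u, |mg μ ε P1 e.1 u - mg μ ε P0 e.1 u| ≤ 1 + 1 := fun u =>
        (abs_sub _ _).trans (add_le_add (mg_le μ hε _ _ u) (mg_le μ hε _ _ u))
      have hl2 : ∫ u, (mg μ ε P1 e.1 u - mg μ ε P0 e.1 u) ^ 2 ∂(law μ ε S) ≤ η ^ 2 := by
        rw [martingale μ hε hP01 hP1S]
        exact h2 e he
      calc ∫ u, |(innov μ ε t S0 u e : ℝ) - innov μ ε t S u e| ∂(law μ ε S)
          ≤ ∫ u, |mg μ ε P1 e.1 u - mg μ ε P0 e.1 u| ∂(law μ ε S) :=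
            integral_mono (hie e) (integrable_of_bdd hmg.abs fun u => by
              rw [abs_abs]; exact hmgb u) hpt
        _ ≤ η := l1_of_l2 hmg hmgb hη hl2
    have hmf : Measurable (fun u => |f' (innov μ ε t S0 u) - f' (innov μ ε t S u)|) :=
      ((hf'm.comp mS0).sub (hf'm.comp mS)).abs
    calc ∫ u, |f' (innov μ ε t S0 u) - f' (innov μ ε t S u)| ∂(law μ ε S)
        ≤ ∫ u, ∑ e ∈ A ×ˢ Finset.range N,
            L e * |(innov μ ε t S0 u e : ℝ) - innov μ ε t S u e| ∂(law μ ε S) := by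
          refine integral_mono (integrable_of_bdd (C := C' + C') hmf fun u => ?_)
            (integrable_finsetSum _ fun e _ => (hie e).const_mul _) fun u => hf'lip _ _
          rw [abs_abs]
          exact (abs_sub _ _).trans (add_le_add (hC' _) (hC' _))
      _ = ∑ e ∈ A ×ˢ Finset.range N,
            L e * ∫ u, |(innov μ ε t S0 u e : ℝ) - innov μ ε t S u e| ∂(law μ ε S) := by
          rw [integral_finsetSum _ fun e _ => (hie e).const_mul _]
          refine Finset.sum_congr rfl fun e _ => integral_const_mul _ _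
      _ ≤ ∑ e ∈ A ×ˢ Finset.range N, L e * η :=
          Finset.sum_le_sum fun e he => mul_le_mul_of_nonneg_left (hone e he) (hL0 e)
      _ ≤ δ := h3
  have hb : ∀ g, |f g| ≤ C := hC
  have j1 : Integrable (fun u => |f (innov μ ε t S0 u) - f' (innov μ ε t S0 u)|)
      (law μ ε S) := integrable_of_bdd ((hfm.comp mS0).sub (hf'm.comp mS0)).abs fun u => by
        rw [abs_abs]; exact hd _
  have j2 : Integrable (fun u => |f (innov μ ε t S u) - f' (innov μ ε t S u)|)
      (law μ ε S) := integrable_of_bdd ((hfm.comp mS).sub (hf'm.comp mS)).abs fun u => by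
        rw [abs_abs]; exact hd _
  have j3 : Integrable (fun u => |f' (innov μ ε t S0 u) - f' (innov μ ε t S u)|)
      (law μ ε S) := integrable_of_bdd (C := C' + C')
        ((hf'm.comp mS0).sub (hf'm.comp mS)).abs fun u => by
        rw [abs_abs]; exact (abs_sub _ _).trans (add_le_add (hC' _) (hC' _))
  have j4 : Integrable (fun u => |f (innov μ ε t S0 u) - f (innov μ ε t S u)|)
      (law μ ε S) := integrable_of_bdd (C := C + C)
        ((hfm.comp mS0).sub (hfm.comp mS)).abs fun u => by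
        rw [abs_abs]; exact (abs_sub _ _).trans (add_le_add (hC _) (hC _))
  calc ∫ u, |f (innov μ ε t S0 u) - f (innov μ ε t S u)| ∂(law μ ε S)
      ≤ ∫ u, (|f (innov μ ε t S0 u) - f' (innov μ ε t S0 u)| +
          (|f' (innov μ ε t S0 u) - f' (innov μ ε t S u)| +
          |f (innov μ ε t S u) - f' (innov μ ε t S u)|)) ∂(law μ ε S) := by
        refine integral_mono j4 (j1.add (j3.add j2)) fun u => ?_
        simp only
        have : f (innov μ ε t S0 u) - f (innov μ ε t S u) =
          (f (innov μ ε t S0 u) - f' (innov μ ε t S0 u)) +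
          ((f' (innov μ ε t S0 u) - f' (innov μ ε t S u)) -
          (f (innov μ ε t S u) - f' (innov μ ε t S u))) := by ring
        rw [this]
        exact (abs_add_le _ _).trans (add_le_add le_rfl (abs_sub _ _))
    _ = ∫ u, |f (innov μ ε t S0 u) - f' (innov μ ε t S0 u)| ∂(law μ ε S) +
          (∫ u, |f' (innov μ ε t S0 u) - f' (innov μ ε t S u)| ∂(law μ ε S) +
          ∫ u, |f (innov μ ε t S u) - f' (innov μ ε t S u)| ∂(law μ ε S)) := by
        have k1 : ∫ u, (|f (innov μ ε t S0 u) - f' (innov μ ε t S0 u)| +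
          (|f' (innov μ ε t S0 u) - f' (innov μ ε t S u)| +
          |f (innov μ ε t S u) - f' (innov μ ε t S u)|)) ∂(law μ ε S) =
          ∫ u, |f (innov μ ε t S0 u) - f' (innov μ ε t S0 u)| ∂(law μ ε S) +
          ∫ u, (|f' (innov μ ε t S0 u) - f' (innov μ ε t S u)| +
          |f (innov μ ε t S u) - f' (innov μ ε t S u)|) ∂(law μ ε S) :=
          integral_add j1 (j3.add j2)
        rw [k1, integral_add j3 j2]
    _ ≤ 3 * δ := by linarith

/-- for fixed labels, the reconstructed estimators are Cauchy along volumes -/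
lemma cauchy_volume (h : Good μ ε κ ρ M) {t : V → unitInterval} (ht : Function.Injective t)
    {N : ℕ} (hN : 0 < N) (v : V) {δ : ℝ} (hδ : 0 < δ) :
    ∃ B0 : Finset V, v ∈ B0 ∧ ∀ B, B0 ⊆ B →
      ∫ g, |FF μ ε B N v t g - FF μ ε B0 N v t g| ∂(iidUniform (V × ℕ)) ≤ 3 * δ := by
  have hε := h.abs_eps
  have hN' : (0:ℝ) < N := by exact_mod_cast hN
  set c : ℝ := 12 * 4 ^ N / (ε * N) with hc
  have hc0 : 0 < c := div_pos (by positivity) (mul_pos h.eps_pos hN')
  -- choice of A
  obtain ⟨A, hA⟩ : ∃ A : Finset V, ∀ D : Finset V, Disjoint D A →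
      ∑ w ∈ D, ρ v w ^ 2 < δ ^ 2 / (c ^ 2 * N) := by
    have h1 := (h.summ v).vanishing (Iio_mem_nhds
      (show (0:ℝ) < δ ^ 2 / (c ^ 2 * N) by positivity))
    obtain ⟨A, hA⟩ := h1
    exact ⟨A, fun D hD => hA D hD⟩
  -- choice of η
  set K : ℝ := ∑ e ∈ A ×ˢ Finset.range N, (c * ρ v e.1) with hK
  have hK0 : 0 ≤ K := Finset.sum_nonneg fun e _ => mul_nonneg hc0.le (h.ρ_nonneg _ _)
  set η : ℝ := δ / (K + 1) with hη
  have hη0 : 0 < η := by positivity
  have hKη : K * η ≤ δ := by
    rw [hη, mul_div_assoc']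
    rw [div_le_iff₀ (by linarith)]
    nlinarith
  -- choice of volumes
  have hsup : ∀ e : V × ℕ, ∃ Be : Finset V, ∀ B, Be ⊆ B →
      aa μ ε (past t (B ×ˢ Finset.range N) e) e.1 -
        aa μ ε (past t (Be ×ˢ Finset.range N) e) e.1 ≤ η ^ 2 := by
    intro e
    set F : Finset V → ℝ := fun B => aa μ ε (past t (B ×ˢ Finset.range N) e) e.1 with hF
    have hbdd : BddAbove (range F) := ⟨1, by rintro _ ⟨B, rfl⟩; exact aa_le_one μ hε _ _⟩
    obtain ⟨Be, hBe⟩ := exists_lt_of_lt_ciSup
      (show (⨆ B, F B) - η ^ 2 < ⨆ B, F B by linarith [pow_pos hη0 2])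
    refine ⟨Be, fun B _ => ?_⟩
    have : F B ≤ ⨆ B, F B := le_ciSup hbdd B
    show F B - F Be ≤ η ^ 2
    linarith
  choose Be hBe using hsup
  set B0 : Finset V := insert v (A ∪ (A ×ˢ Finset.range N).biUnion Be) with hB0
  have hAB0 : A ⊆ B0 := fun w hw => Finset.mem_insert_of_mem (Finset.mem_union_left _ hw)
  have hBeB0 : ∀ e ∈ A ×ˢ Finset.range N, Be e ⊆ B0 := fun e he w hw =>
    Finset.mem_insert_of_mem (Finset.mem_union_right _ (Finset.mem_biUnion.2 ⟨e, he, hw⟩))
  refine ⟨B0, Finset.mem_insert_self _ _, fun B hB => ?_⟩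
  refine compare h ht hB hN (Finset.mem_insert_self _ _) hAB0 hδ ?_ hη0 ?_ ?_
  · rw [Finset.sum_product]
    simp only [Finset.sum_const, Finset.card_range, nsmul_eq_mul]
    have h1 := hA (B0 \ A) Finset.sdiff_disjoint
    have h2 : ∑ x ∈ B0 \ A, (N:ℝ) * (12 * 4 ^ N / (ε * N) * ρ v x) ^ 2 =
        c ^ 2 * N * ∑ x ∈ B0 \ A, ρ v x ^ 2 := by
      rw [Finset.mul_sum]
      refine Finset.sum_congr rfl fun x _ => ?_
      rw [← hc]; ring
    rw [h2]
    calc c ^ 2 * N * ∑ x ∈ B0 \ A, ρ v x ^ 2 ≤ c ^ 2 * N * (δ ^ 2 / (c ^ 2 * N)) :=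
          mul_le_mul_of_nonneg_left h1.le (by positivity)
      _ = δ ^ 2 := by field_simp
  · intro e he
    have h1 := hBe e B ((hBeB0 e he).trans hB)
    have h2 : aa μ ε (past t (Be e ×ˢ Finset.range N) e) e.1 ≤
        aa μ ε (past t (B0 ×ˢ Finset.range N) e) e.1 :=
      aa_mono hε (past_mono (Finset.product_subset_product_left (hBeB0 e he)) e) e.1
    linarith
  · rw [← Finset.sum_mul]
    exact hKη

/-- comparison of two numbers of rounds -/
lemma compare_rounds (h : Good μ ε κ ρ M) {t : V → unitInterval} (ht : Function.Injective t)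
    {B : Finset V} {v : V} (hv : v ∈ B) {N N' : ℕ} (hN : 0 < N) (hNN : N ≤ N') {δ : ℝ}
    (hδ : 0 < δ) (hNδ : 3 / (ε ^ 2 * N) ≤ δ ^ 2) :
    ∫ g, |FF μ ε B N v t g - FF μ ε B N' v t g| ∂(iidUniform (V × ℕ)) ≤ 2 * δ := by
  have hε := h.abs_eps
  have hN' : (0:ℝ) < N := by exact_mod_cast hN
  have hNN' : (N:ℝ) ≤ N' := by exact_mod_cast hNN
  have hm : Measurable (fun g => |FF μ ε B N v t g - FF μ ε B N' v t g|) :=
    ((measurable_FF_right μ ε B N v t).sub (measurable_FF_right μ ε B N' v t)).abs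
  rw [integral_transfer (μ := μ) hε ht B N' hm]
  have e1 : ∀ u, FF μ ε B N v t (innov μ ε t (B ×ˢ Finset.range N') u) = hat ε N v u :=
    fun u => FF_innov h B hNN hv t u
  have e2 : ∀ u, FF μ ε B N' v t (innov μ ε t (B ×ˢ Finset.range N') u) = hat ε N' v u :=
    fun u => FF_innov h B le_rfl hv t u
  simp_rw [e1, e2]
  have hNδ' : 3 / (ε ^ 2 * N') ≤ δ ^ 2 := by
    refine le_trans ?_ hNδ
    have := h.eps_pos
    gcongr
  exact law_hat_hat μ h.eps_pos h.eps_le hN (lt_of_lt_of_le hN hNN)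
    (fun j hj => Finset.mem_product.2 ⟨hv, Finset.mem_range.2 (by omega)⟩)
    (fun j hj => Finset.mem_product.2 ⟨hv, Finset.mem_range.2 hj⟩) hδ hNδ hNδ'

end

end Vale.Agent.P161
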