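import Vale.Agent.P161.Resample

/-! The one-dimensional channel: densities `1 + c (2u-1)` on `[0,1]`, distribution function
`kap c u = u - c u (1-u)` and its inverse `tinv c`. -/

open MeasureTheory Set

namespace Vale.Agent.P161

/-- distribution function of the density `1 + c (2u-1)` on `[0,1]` -/
noncomputable def kap (c : ℝ) (u : unitInterval) : unitInterval :=
  projIcc 0 1 zero_le_one ((u : ℝ) - c * u * (1 - u))

/-- inverse distribution function -/
noncomputable def tinv (c : ℝ) (g : unitInterval) : unitInterval :=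
  projIcc 0 1 zero_le_one (2 * g / ((1 - c) + √((1 - c) ^ 2 + 4 * c * g)))

lemma coe_kap {c : ℝ} (hc : |c| ≤ 1 / 2) (u : unitInterval) :
    (kap c u : ℝ) = u - c * u * (1 - u) := by
  have h0 := u.2.1
  have h1 := u.2.2
  have hc' := abs_le.1 hc
  unfold kap
  rw [projIcc_of_mem]
  constructor <;> nlinarith [mul_nonneg h0 (sub_nonneg.2 h1)]

lemma tinv_aux {c : ℝ} (hc : |c| ≤ 1 / 2) (g : unitInterval) :
    (tinv c g : ℝ) = 2 * g / ((1 - c) + √((1 - c) ^ 2 + 4 * c * g)) ∧
    (tinv c g : ℝ) - c * tinv c g * (1 - tinv c g) = g := by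
  have h0 := g.2.1
  have h1 := g.2.2
  have hc' := abs_le.1 hc
  have hD : 0 ≤ (1 - c) ^ 2 + 4 * c * g := by nlinarith [sq_nonneg (1 + c), sq_nonneg (1 - c)]
  set r := √((1 - c) ^ 2 + 4 * c * g) with hr
  have hr0 : 0 ≤ r := Real.sqrt_nonneg _
  have hr2 : r ^ 2 = (1 - c) ^ 2 + 4 * c * g := Real.sq_sqrt hD
  have hpos : 0 < (1 - c) + r := by linarith
  set q := 2 * (g : ℝ) / ((1 - c) + r) with hq
  have hq1 : q * ((1 - c) + r) = 2 * g := by rw [hq]; field_simp
  have hq0 : 0 ≤ q := by positivity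
  have heq : q - c * q * (1 - q) = g := by
    have : ((1 - c) + r) ^ 2 * (q - c * q * (1 - q) - g) = 0 := by
      have e1 : ((1 - c) + r) ^ 2 * (q - c * q * (1 - q) - g) =
        (q * ((1 - c) + r)) * ((1 - c) + r) * (1 - c) + c * (q * ((1 - c) + r)) ^ 2
          - g * ((1 - c) + r) ^ 2 := by ring
      rw [e1, hq1]
      have : 2 * (g:ℝ) * ((1 - c) + r) * (1 - c) + c * (2 * g) ^ 2 - g * ((1 - c) + r) ^ 2
        = g * ((1 - c) ^ 2 + 4 * c * g - r ^ 2) := by ring
      rw [this, hr2]; ring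
    have h2 : ((1 - c) + r) ^ 2 ≠ 0 := by positivity
    have := (mul_eq_zero.1 this).resolve_left h2
    linarith
  have hq1' : q ≤ 1 := by
    by_contra hcon
    push Not at hcon
    nlinarith [mul_nonneg hq0 (le_of_lt (sub_pos.2 hcon)), hc'.1, hc'.2]
  have e2 : (tinv c g : ℝ) = q := by
    unfold tinv
    rw [projIcc_of_mem _ ⟨hq0, hq1'⟩]
  exact ⟨e2, by rw [e2]; exact heq⟩

lemma kap_tinv {c : ℝ} (hc : |c| ≤ 1 / 2) (g : unitInterval) : kap c (tinv c g) = g := by
  apply Subtype.ext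
  rw [coe_kap hc]
  exact (tinv_aux hc g).2

/-- stability of the inverse -/
lemma kap_stab {c c' : ℝ} (hc : |c| ≤ 1 / 2) (hc' : |c'| ≤ 1 / 2) (u u' : unitInterval) :
    |(u : ℝ) - u'| ≤ 2 * |(kap c u : ℝ) - kap c' u'| + |c - c'| / 2 := by
  rw [coe_kap hc, coe_kap hc']
  have h0 := u.2.1
  have h1 := u.2.2
  have h0' := u'.2.1
  have h1' := u'.2.2
  have a1 := abs_le.1 hc
  have e : ((u : ℝ) - u') * (1 - c * (1 - u - u')) =
    ((u : ℝ) - c * u * (1 - u) - (u' - c' * u' * (1 - u'))) + (c - c') * (u' * (1 - u')) := by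
    ring
  have hb : |(1 : ℝ) - c * (1 - u - u')| ≥ 1 / 2 := by
    have hm : |c * (1 - (u:ℝ) - u')| ≤ 1 / 2 := by
      rw [abs_mul]
      have : |1 - (u:ℝ) - u'| ≤ 1 := by rw [abs_le]; constructor <;> linarith
      calc |c| * |1 - (u:ℝ) - u'| ≤ 1 / 2 * 1 :=
            mul_le_mul hc this (abs_nonneg _) (by norm_num)
        _ = 1 / 2 := by norm_num
    have := abs_le.1 hm
    rw [ge_iff_le, le_abs]; left; linarith
  have hq : |(c - c') * ((u':ℝ) * (1 - u'))| ≤ |c - c'| / 4 := by
    rw [abs_mul]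
    have : |(u':ℝ) * (1 - u')| ≤ 1 / 4 := by
      rw [abs_le]; constructor <;> nlinarith [sq_nonneg ((u':ℝ) - 1 / 2)]
    calc |c - c'| * |(u':ℝ) * (1 - u')| ≤ |c - c'| * (1 / 4) :=
          mul_le_mul_of_nonneg_left this (abs_nonneg _)
      _ = _ := by ring
  have h3 : |(u : ℝ) - u'| * (1 / 2) ≤
      |(u : ℝ) - c * u * (1 - u) - (u' - c' * u' * (1 - u'))| + |c - c'| / 4 := by
    calc |(u : ℝ) - u'| * (1 / 2) ≤ |(u : ℝ) - u'| * |1 - c * (1 - u - u')| :=
          mul_le_mul_of_nonneg_left hb (abs_nonneg _)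
      _ = |((u : ℝ) - u') * (1 - c * (1 - u - u'))| := (abs_mul _ _).symm
      _ ≤ _ := by
          rw [e]
          exact (abs_add_le _ _).trans (by linarith)
  linarith

lemma kap_lip {c c' : ℝ} (hc : |c| ≤ 1 / 2) (hc' : |c'| ≤ 1 / 2) (u : unitInterval) :
    |(kap c u : ℝ) - kap c' u| ≤ |c - c'| := by
  rw [coe_kap hc, coe_kap hc']
  have e : (u : ℝ) - c * u * (1 - u) - (u - c' * u * (1 - u)) = -((c - c') * (u * (1 - u))) := by
    ring
  rw [e, abs_neg, abs_mul]
  have h0 := u.2.1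
  have h1 := u.2.2
  have : |(u:ℝ) * (1 - u)| ≤ 1 := by
    rw [abs_le]; constructor <;> nlinarith
  calc |c - c'| * |(u:ℝ) * (1 - u)| ≤ |c - c'| * 1 := mul_le_mul_of_nonneg_left this (abs_nonneg _)
    _ = _ := mul_one _

lemma kap_injective {c : ℝ} (hc : |c| ≤ 1 / 2) : Function.Injective (kap c) := by
  intro u u' h
  have := kap_stab hc hc u u'
  rw [h] at this
  simp only [sub_self, abs_zero, mul_zero, zero_div, add_zero] at this
  apply Subtype.ext
  have := abs_nonpos_iff.1 this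
  linarith

lemma tinv_kap {c : ℝ} (hc : |c| ≤ 1 / 2) (u : unitInterval) : tinv c (kap c u) = u :=
  kap_injective hc (kap_tinv hc _)

lemma kap_le_iff {c : ℝ} (hc : |c| ≤ 1 / 2) (u x : unitInterval) :
    kap c u ≤ x ↔ u ≤ tinv c x := by
  have key : ∀ a b : unitInterval, (kap c a : ℝ) - kap c b = ((a:ℝ) - b) * (1 - c * (1 - a - b)) := by
    intro a b
    rw [coe_kap hc, coe_kap hc]; ring
  have hpos : ∀ a b : unitInterval, 0 < (1 - c * (1 - (a:ℝ) - b)) := by
    intro a b
    have a1 := abs_le.1 hc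
    have h0 := a.2.1
    have h1 := a.2.2
    have h0' := b.2.1
    have h1' := b.2.2
    have hm : |c * (1 - (a:ℝ) - b)| ≤ 1 / 2 := by
      rw [abs_mul]
      have : |1 - (a:ℝ) - b| ≤ 1 := by rw [abs_le]; constructor <;> linarith
      calc |c| * |1 - (a:ℝ) - b| ≤ 1 / 2 * 1 :=
            mul_le_mul hc this (abs_nonneg _) (by norm_num)
        _ = 1 / 2 := by norm_num
    linarith [(abs_le.1 hm).2]
  have hx : x = kap c (tinv c x) := (kap_tinv hc x).symm
  constructor
  · intro h
    rw [hx] at h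
    have h' : (kap c u : ℝ) - kap c (tinv c x) ≤ 0 := by
      have : (kap c u : ℝ) ≤ kap c (tinv c x) := h
      linarith
    rw [key] at h'
    have := hpos u (tinv c x)
    have h2 : (u:ℝ) - tinv c x ≤ 0 := by
      by_contra hcon
      push Not at hcon
      nlinarith [mul_pos hcon this]
    exact Subtype.coe_le_coe.1 (by linarith)
  · intro h
    rw [hx]
    have h' : (u:ℝ) ≤ tinv c x := h
    have : (kap c u : ℝ) - kap c (tinv c x) ≤ 0 := by
      rw [key]
      exact mul_nonpos_of_nonpos_of_nonneg (by linarith) (hpos _ _).le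
    have h3 : (kap c u : ℝ) ≤ kap c (tinv c x) := by linarith
    exact h3

lemma measurable_kap2 : Measurable (fun p : ℝ × unitInterval => kap p.1 p.2) := by
  unfold kap
  have h : Measurable (projIcc (0:ℝ) 1 zero_le_one) := continuous_projIcc.measurable
  refine h.comp ?_
  fun_prop

lemma measurable_tinv2 : Measurable (fun p : ℝ × unitInterval => tinv p.1 p.2) := by
  unfold tinv
  have h : Measurable (projIcc (0:ℝ) 1 zero_le_one) := continuous_projIcc.measurable
  refine h.comp ?_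
  fun_prop

lemma integral_unitInterval (f : ℝ → ℝ) :
    ∫ r : unitInterval, f r ∂(volume : Measure unitInterval) = ∫ x in (0:ℝ)..1, f x := by
  rw [intervalIntegral.integral_of_le zero_le_one, ← integral_Icc_eq_integral_Ioc]
  exact integral_subtype_comap measurableSet_Icc f

lemma hd1 (c x : ℝ) : HasDerivAt (fun x : ℝ => x + c * (x ^ 2 - x)) (1 + c * (2 * x - 1)) x := by
  have := (hasDerivAt_id' x).add (((hasDerivAt_pow 2 x).sub (hasDerivAt_id' x)).const_mul c)
  have e : (1 + c * (2 * x - 1)) = 1 + c * (((2:ℕ):ℝ) * x ^ (2 - 1) - 1) := by norm_num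
  rw [e]; exact this

lemma hd2 (c x : ℝ) : HasDerivAt (fun x : ℝ => (x ^ 2 - x) + c * ((2 * x - 1) ^ 3 / 6))
      ((1 + c * (2 * x - 1)) * (2 * x - 1)) x := by
  have := ((hasDerivAt_pow 2 x).sub (hasDerivAt_id' x)).add
      ((((((hasDerivAt_id' x).const_mul 2).sub_const 1).pow 3).div_const 6).const_mul c)
  have e : ((1 + c * (2 * x - 1)) * (2 * x - 1)) = (((2:ℕ):ℝ) * x ^ (2 - 1) - 1) +
    c * (((3:ℕ):ℝ) * (2 * x - 1) ^ (3 - 1) * (2 * 1) / 6) := by norm_num; ring
  rw [e]; exact this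

lemma hd3 (c x : ℝ) : HasDerivAt (fun x : ℝ => (2 * x - 1) ^ 3 / 6 + c * ((2 * x - 1) ^ 4 / 8))
      ((1 + c * (2 * x - 1)) * (2 * x - 1) ^ 2) x := by
  have := (((((hasDerivAt_id' x).const_mul 2).sub_const 1).pow 3).div_const 6).add
      ((((((hasDerivAt_id' x).const_mul 2).sub_const 1).pow 4).div_const 8).const_mul c)
  have e : ((1 + c * (2 * x - 1)) * (2 * x - 1) ^ 2) =
    (((3:ℕ):ℝ) * (2 * x - 1) ^ (3 - 1) * (2 * 1) / 6) +
    c * (((4:ℕ):ℝ) * (2 * x - 1) ^ (4 - 1) * (2 * 1) / 8) := by norm_num; ring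
  rw [e]; exact this

lemma integral_chan (c : ℝ) :
    ∫ r : unitInterval, (1 + c * (2 * (r:ℝ) - 1)) ∂(volume : Measure unitInterval) = 1 := by
  rw [integral_unitInterval (fun x => 1 + c * (2 * x - 1))]
  have h : ∀ x ∈ uIcc (0:ℝ) 1, HasDerivAt (fun x : ℝ => x + c * (x ^ 2 - x))
      (1 + c * (2 * x - 1)) x := fun x _ => hd1 c x
  rw [intervalIntegral.integral_eq_sub_of_hasDerivAt h (by
    apply Continuous.intervalIntegrable; fun_prop)]
  ring

lemma integral_chan1 (c : ℝ) :
    ∫ r : unitInterval, (1 + c * (2 * (r:ℝ) - 1)) * (2 * (r:ℝ) - 1)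
      ∂(volume : Measure unitInterval) = c / 3 := by
  rw [integral_unitInterval (fun x => (1 + c * (2 * x - 1)) * (2 * x - 1))]
  have h : ∀ x ∈ uIcc (0:ℝ) 1, HasDerivAt (fun x : ℝ => (x ^ 2 - x) + c * ((2 * x - 1) ^ 3 / 6))
      ((1 + c * (2 * x - 1)) * (2 * x - 1)) x := fun x _ => hd2 c x
  rw [intervalIntegral.integral_eq_sub_of_hasDerivAt h (by
    apply Continuous.intervalIntegrable; fun_prop)]
  ring

lemma integral_chan2 (c : ℝ) :
    ∫ r : unitInterval, (1 + c * (2 * (r:ℝ) - 1)) * (2 * (r:ℝ) - 1) ^ 2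
      ∂(volume : Measure unitInterval) = 1 / 3 := by
  rw [integral_unitInterval (fun x => (1 + c * (2 * x - 1)) * (2 * x - 1) ^ 2)]
  have h : ∀ x ∈ uIcc (0:ℝ) 1, HasDerivAt
      (fun x : ℝ => (2 * x - 1) ^ 3 / 6 + c * ((2 * x - 1) ^ 4 / 8))
      ((1 + c * (2 * x - 1)) * (2 * x - 1) ^ 2) x := fun x _ => hd3 c x
  rw [intervalIntegral.integral_eq_sub_of_hasDerivAt h (by
    apply Continuous.intervalIntegrable; fun_prop)]
  ring

lemma chan_nonneg {c : ℝ} (hc : |c| ≤ 1 / 2) (r : unitInterval) : 0 ≤ 1 + c * (2 * (r:ℝ) - 1) := by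
  have h0 := r.2.1
  have h1 := r.2.2
  have hm : |c * (2 * (r:ℝ) - 1)| ≤ 1 / 2 := by
    rw [abs_mul]
    have : |2 * (r:ℝ) - 1| ≤ 1 := by rw [abs_le]; constructor <;> linarith
    calc |c| * |2 * (r:ℝ) - 1| ≤ 1 / 2 * 1 :=
          mul_le_mul hc this (abs_nonneg _) (by norm_num)
      _ = 1 / 2 := by norm_num
  linarith [(abs_le.1 hm).1]

lemma lintegral_chan {c : ℝ} (hc : |c| ≤ 1 / 2) :
    ∫⁻ r : unitInterval, ENNReal.ofReal (1 + c * (2 * (r:ℝ) - 1))
      ∂(volume : Measure unitInterval) = 1 := by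
  rw [← ofReal_integral_eq_lintegral_ofReal, integral_chan, ENNReal.ofReal_one]
  · refine integrable_of_bdd (C := 1 + |c|) (by fun_prop) fun r => ?_
    have h0 := r.2.1
    have h1 := r.2.2
    have : |2 * (r:ℝ) - 1| ≤ 1 := by rw [abs_le]; constructor <;> linarith
    calc |1 + c * (2 * (r:ℝ) - 1)| ≤ |1| + |c * (2 * (r:ℝ) - 1)| := abs_add_le _ _
      _ ≤ 1 + |c| := by
          rw [abs_one, abs_mul]
          have := mul_le_mul_of_nonneg_left this (abs_nonneg c)
          linarith
  · exact Filter.Eventually.of_forall fun r => chan_nonneg hc r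

/-- change of variables -/
lemma lintegral_kap {c : ℝ} (hc : |c| ≤ 1 / 2) {f : unitInterval → ENNReal} (hf : Measurable f) :
    ∫⁻ r, f (kap c r) * ENNReal.ofReal (1 + c * (2 * (r:ℝ) - 1))
      ∂(volume : Measure unitInterval) = ∫⁻ r, f r ∂(volume : Measure unitInterval) := by
  have hk : Measurable (kap c) := measurable_kap2.comp measurable_prodMk_left
  have hd : Measurable (fun r : unitInterval => ENNReal.ofReal (1 + c * (2 * (r:ℝ) - 1))) := by
    fun_prop
  have hmap : ((volume : Measure unitInterval).withDensity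
      (fun r : unitInterval => ENNReal.ofReal (1 + c * (2 * (r:ℝ) - 1)))).map (kap c) = volume := by
    have : IsFiniteMeasure (((volume : Measure unitInterval).withDensity
        (fun r : unitInterval => ENNReal.ofReal (1 + c * (2 * (r:ℝ) - 1)))).map (kap c)) := by
      constructor
      rw [Measure.map_apply hk MeasurableSet.univ, preimage_univ, withDensity_apply _ MeasurableSet.univ,
        Measure.restrict_univ, lintegral_chan hc]
      exact ENNReal.one_lt_top
    refine Measure.ext_of_Iic _ _ fun x => ?_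
    rw [Measure.map_apply hk measurableSet_Iic, withDensity_apply _ (hk measurableSet_Iic),
      unitInterval.volume_Iic]
    have hset : kap c ⁻¹' Iic x = Iic (tinv c x) := by
      ext u; exact kap_le_iff hc u x
    rw [hset, ← ofReal_integral_eq_lintegral_ofReal]
    · congr 1
      have h1 : ∫ r : unitInterval in Iic (tinv c x), (1 + c * (2 * (r:ℝ) - 1))
            ∂(volume : Measure unitInterval) =
          ∫ y in (0:ℝ)..(tinv c x), (1 + c * (2 * y - 1)) := by
        rw [intervalIntegral.integral_of_le (tinv c x).2.1, ← integral_Icc_eq_integral_Ioc]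
        have h2 := integral_subtype_comap (μ := (volume : Measure ℝ)) measurableSet_Icc
          (fun y : ℝ => (Icc (0:ℝ) (tinv c x)).indicator (fun y => 1 + c * (2 * y - 1)) y)
          (s := Icc (0:ℝ) 1)
        rw [setIntegral_indicator measurableSet_Icc] at h2
        have h3 : Icc (0:ℝ) 1 ∩ Icc 0 (tinv c x) = Icc 0 (tinv c x : ℝ) := by
          ext y; simp only [mem_inter_iff, mem_Icc]
          constructor
          · rintro ⟨_, h⟩; exact h
          · rintro ⟨h, h'⟩; exact ⟨⟨h, h'.trans (tinv c x).2.2⟩, h, h'⟩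
        rw [h3] at h2
        rw [← h2, ← integral_indicator measurableSet_Iic]
        refine integral_congr_ae (Filter.Eventually.of_forall fun r => ?_)
        simp only [indicator, mem_Iic, mem_Icc]
        by_cases hr : r ≤ tinv c x
        · rw [if_pos hr, if_pos ⟨r.2.1, hr⟩]
        · rw [if_neg hr, if_neg (fun h => hr h.2)]
      rw [h1]
      have h : ∀ y ∈ uIcc (0:ℝ) (tinv c x), HasDerivAt (fun x : ℝ => x + c * (x ^ 2 - x))
          (1 + c * (2 * y - 1)) y := fun y _ => hd1 c y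
      rw [intervalIntegral.integral_eq_sub_of_hasDerivAt h (by
        apply Continuous.intervalIntegrable; fun_prop)]
      have := (tinv_aux hc x).2
      linarith
    · refine Integrable.integrableOn (integrable_of_bdd (C := 1 + |c|) (by fun_prop) fun r => ?_)
      have h0 := r.2.1
      have h1 := r.2.2
      have : |2 * (r:ℝ) - 1| ≤ 1 := by rw [abs_le]; constructor <;> linarith
      calc |1 + c * (2 * (r:ℝ) - 1)| ≤ |1| + |c * (2 * (r:ℝ) - 1)| := abs_add_le _ _
        _ ≤ 1 + |c| := by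
            rw [abs_one, abs_mul]
            have := mul_le_mul_of_nonneg_left this (abs_nonneg c)
            linarith
    · exact Filter.Eventually.of_forall fun r => chan_nonneg hc r
  conv_rhs => rw [← hmap]
  rw [lintegral_map hf hk]
  have := lintegral_withDensity_eq_lintegral_mul (volume : Measure unitInterval) hd
    (g := fun a => f (kap c a)) (hf.comp hk)
  rw [this]
  refine lintegral_congr fun r => ?_
  simp only [Pi.mul_apply]
  rw [mul_comm]

end Vale.Agent.P161
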