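import Mathlib

open MeasureTheory

namespace Vale.Agent.P161

/-- The spin value `1` or `-1` of a Boolean. -/
def spin (b : Bool) : ℝ := if b then 1 else -1

open Classical in
/-- The finite set of edges of `G` with both endpoints in the finite set `D`. -/
noncomputable def edgesIn {V : Type*} (G : SimpleGraph V) (D : Finset V) : Finset (Sym2 V) :=
  D.sym2.filter (fun e => e ∈ G.edgeSet)

/-- The factor `(1 + θ η_u η_v) / 2` attached to the unordered pair `{u, v}`. -/
noncomputable def edgeWeight {V : Type*} (θ : ℝ) (η : V → Bool) (e : Sym2 V) : ℝ :=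
  Sym2.lift ⟨fun u v => (1 + θ * spin (η u) * spin (η v)) / 2, fun u v => by ring⟩ e

/-- `μ` is the free zero-field Ising measure on the graph `G` at inverse temperature `β`: it is a
probability measure on `{-1,1}^V` such that for every finite set `D` of vertices spanning a
connected subgraph the probability of a configuration `η` on `D` is
`(1/2) ∏_{edges {u,v} in D} (1 + θ η_u η_v)/2` with `θ = tanh β`. -/
structure IsFreeIsing {V : Type*} (G : SimpleGraph V) (β : ℝ) (μ : Measure (V → Bool)) :
    Prop where
  prob : IsProbabilityMeasure μ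
  cylinder : ∀ D : Finset V, (G.induce (D : Set V)).Connected → ∀ η : V → Bool,
    μ {σ | ∀ v ∈ D, σ v = η v} =
      ENNReal.ofReal ((1 / 2) * ∏ e ∈ edgesIn G D, edgeWeight (Real.tanh β) η e)

/-- The law of a family of i.i.d. uniform `[0,1]` random variables indexed by `V`. -/
noncomputable def iidUniform (V : Type*) : Measure (V → unitInterval) :=
  Measure.infinitePi (fun _ : V => (volume : Measure unitInterval))

/-- `ν` is a factor of i.i.d. for the automorphism group of `G`: it is the law of `Φ(U)`, where `U`
is i.i.d. uniform on `[0,1]` and `Φ` is measurable with `Φ(gU) = g Φ(U)` almost surely for each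
automorphism `g` of `G`, `(g x)_v = x_{g⁻¹ v}`. -/
def IsFactorOfIID {V : Type*} (G : SimpleGraph V) (ν : Measure (V → Bool)) : Prop :=
  ∃ Φ : (V → unitInterval) → (V → Bool), Measurable Φ ∧ (iidUniform V).map Φ = ν ∧
    ∀ g : G ≃g G, ∀ᵐ U ∂(iidUniform V), Φ (fun v => U (g.symm v)) = fun v => Φ U (g.symm v)

end Vale.Agent.P161
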