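import Vale.Agent.P161.Channel

/-! The law of the weak observations and its consistency properties. -/

open MeasureTheory Set

namespace Vale.Agent.P161

variable {V : Type*}

/-- product weight -/
noncomputable def pw {E : Type*} (c : E → ℝ) (Q : Finset E) (u : E → unitInterval) : ℝ :=
  ∏ f ∈ Q, (1 + c f * (2 * (u f : ℝ) - 1))

section pw

variable {E : Type*}

lemma abs_y_le (r : unitInterval) : |2 * (r:ℝ) - 1| ≤ 1 := by
  have h0 := r.2.1
  have h1 := r.2.2
  rw [abs_le]; constructor <;> linarith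

lemma measurable_pw (c : E → ℝ) (Q : Finset E) : Measurable (pw c Q) := by
  unfold pw
  refine Finset.measurable_fun_prod _ fun f _ => ?_
  have : Measurable (fun u : E → unitInterval => u f) := measurable_pi_apply f
  fun_prop

lemma pw_pos {c : E → ℝ} (hc : ∀ f, |c f| ≤ 1 / 2) (Q : Finset E) (u : E → unitInterval) :
    0 < pw c Q u := by
  refine Finset.prod_pos fun f _ => ?_
  have : |c f * (2 * (u f:ℝ) - 1)| ≤ 1 / 2 := by
    rw [abs_mul]
    calc |c f| * |2 * (u f:ℝ) - 1| ≤ 1 / 2 * 1 :=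
          mul_le_mul (hc f) (abs_y_le _) (abs_nonneg _) (by norm_num)
      _ = 1 / 2 := by norm_num
  linarith [(abs_le.1 this).1]

lemma pw_le {c : E → ℝ} (hc : ∀ f, |c f| ≤ 1 / 2) (Q : Finset E) (u : E → unitInterval) :
    |pw c Q u| ≤ 2 ^ Q.card := by
  rw [abs_of_pos (pw_pos hc Q u)]
  unfold pw
  rw [← Finset.prod_const]
  refine Finset.prod_le_prod (fun f _ => chan_nonneg (hc f) _) fun f _ => ?_
  have : |c f * (2 * (u f:ℝ) - 1)| ≤ 1 / 2 := by
    rw [abs_mul]
    calc |c f| * |2 * (u f:ℝ) - 1| ≤ 1 / 2 * 1 :=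
          mul_le_mul (hc f) (abs_y_le _) (abs_nonneg _) (by norm_num)
      _ = 1 / 2 := by norm_num
  linarith [(abs_le.1 this).2]

lemma pw_congr (c : E → ℝ) {Q : Finset E} {u u' : E → unitInterval} (h : ∀ f ∈ Q, u f = u' f) :
    pw c Q u = pw c Q u' := by
  unfold pw
  exact Finset.prod_congr rfl fun f hf => by rw [h f hf]

variable [DecidableEq E]

lemma pw_insert (c : E → ℝ) {Q : Finset E} {e : E} (he : e ∉ Q) (u : E → unitInterval) :
    pw c (insert e Q) u = (1 + c e * (2 * (u e : ℝ) - 1)) * pw c Q u := by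
  unfold pw
  rw [Finset.prod_insert he]

lemma pw_update (c : E → ℝ) {Q : Finset E} {e : E} (he : e ∉ Q) (u : E → unitInterval)
    (r : unitInterval) : pw c Q (Function.update u e r) = pw c Q u :=
  pw_congr c fun f hf => Function.update_of_ne (fun h => he (by rwa [← h])) _ _

/-- integrating out one coordinate -/
lemma integral_pw_mul {c : E → ℝ} (hc : ∀ f, |c f| ≤ 1 / 2) {Q : Finset E} {e : E} (he : e ∉ Q)
    {h : (E → unitInterval) → ℝ} (hm : Measurable h) {C : ℝ} (hC : ∀ g, |h g| ≤ C)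
    (hi : IndepOf {e} h) {k : ℝ → ℝ} (hk : Measurable k) {K : ℝ}
    (hK : ∀ r : unitInterval, |k (2 * (r:ℝ) - 1)| ≤ K) :
    ∫ u, pw c (insert e Q) u * h u * k (2 * (u e : ℝ) - 1) ∂(iidUniform E) =
      (∫ r : unitInterval, (1 + c e * (2 * (r:ℝ) - 1)) * k (2 * (r:ℝ) - 1)
        ∂(volume : Measure unitInterval)) * ∫ u, pw c Q u * h u ∂(iidUniform E) := by
  have hmeas : Measurable (fun u : E → unitInterval => pw c (insert e Q) u * h u *
      k (2 * (u e : ℝ) - 1)) := by
    have h1 : Measurable (fun u : E → unitInterval => u e) := measurable_pi_apply e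
    have h2 : Measurable (fun u : E → unitInterval => k (2 * (u e : ℝ) - 1)) := by fun_prop
    exact ((measurable_pw c _).mul hm).mul h2
  have hbd : ∀ u, |pw c (insert e Q) u * h u * k (2 * (u e : ℝ) - 1)| ≤
      2 ^ (insert e Q).card * C * K := by
    intro u
    rw [abs_mul, abs_mul]
    have hC0 : 0 ≤ C := (abs_nonneg _).trans (hC u)
    exact mul_le_mul (mul_le_mul (pw_le hc _ u) (hC u) (abs_nonneg _) (by positivity))
      (hK _) (abs_nonneg _) (by positivity)
  rw [integral_resample e (integrable_of_bdd hmeas hbd)]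
  rw [← integral_const_mul]
  congr 1
  ext u
  have hh : ∀ r, h (Function.update u e r) = h u := fun r =>
    hi _ _ fun x hx => Function.update_of_ne (by simpa using hx) _ _
  simp only [pw_insert c he, pw_update c he, Function.update_self, hh]
  rw [← integral_mul_const]
  congr 1
  ext r
  ring

end pw

/-- weights of the observation channel -/
noncomputable def wt (ε : ℝ) (τ : V → Bool) (Q : Finset (V × ℕ)) (u : V × ℕ → unitInterval) : ℝ :=
  pw (fun f => ε * spin (τ f.1)) Q u

/-- normalisation -/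
noncomputable def den (μ : Measure (V → Bool)) (ε : ℝ) (Q : Finset (V × ℕ))
    (u : V × ℕ → unitInterval) : ℝ := ∫ τ, wt ε τ Q u ∂μ

/-- numerator of the conditional magnetisation -/
noncomputable def num (μ : Measure (V → Bool)) (ε : ℝ) (Q : Finset (V × ℕ)) (v : V)
    (u : V × ℕ → unitInterval) : ℝ := ∫ τ, spin (τ v) * wt ε τ Q u ∂μ

/-- conditional magnetisation -/
noncomputable def mg (μ : Measure (V → Bool)) (ε : ℝ) (Q : Finset (V × ℕ)) (v : V)
    (u : V × ℕ → unitInterval) : ℝ := num μ ε Q v u / den μ ε Q u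

lemma abs_spin (b : Bool) : |spin b| = 1 := by cases b <;> simp [spin]

lemma spin_mul_self (b : Bool) : spin b * spin b = 1 := by cases b <;> simp [spin]

lemma spin_sq (b : Bool) : spin b ^ 2 = 1 := by cases b <;> simp [spin]

lemma measurable_spin : Measurable spin := measurable_of_countable _

lemma abs_eps_spin {ε : ℝ} (hε : |ε| ≤ 1 / 2) (b : Bool) : |ε * spin b| ≤ 1 / 2 := by
  rw [abs_mul, abs_spin, mul_one]; exact hε

section gibbs

variable (μ : Measure (V → Bool)) [IsProbabilityMeasure μ] {ε : ℝ} (hε : |ε| ≤ 1 / 2)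

include hε

lemma wt_pos (τ : V → Bool) (Q : Finset (V × ℕ)) (u : V × ℕ → unitInterval) : 0 < wt ε τ Q u :=
  pw_pos (fun _ => abs_eps_spin hε _) Q u

lemma wt_le (τ : V → Bool) (Q : Finset (V × ℕ)) (u : V × ℕ → unitInterval) :
    |wt ε τ Q u| ≤ 2 ^ Q.card := pw_le (fun _ => abs_eps_spin hε _) Q u

omit hε in
lemma measurable_wt2 (ε : ℝ) (Q : Finset (V × ℕ)) :
    Measurable (fun p : (V → Bool) × (V × ℕ → unitInterval) => wt ε p.1 Q p.2) := by
  unfold wt pw
  refine Finset.measurable_fun_prod _ fun f _ => ?_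
  have h1 : Measurable (fun p : (V → Bool) × (V × ℕ → unitInterval) => spin (p.1 f.1)) :=
    measurable_spin.comp ((measurable_pi_apply f.1).comp measurable_fst)
  have h2 : Measurable (fun p : (V → Bool) × (V × ℕ → unitInterval) => p.2 f) :=
    (measurable_pi_apply f).comp measurable_snd
  fun_prop

omit hε in
lemma measurable_wt_left (ε : ℝ) (Q : Finset (V × ℕ)) (u : V × ℕ → unitInterval) :
    Measurable (fun τ : V → Bool => wt ε τ Q u) :=
  (measurable_wt2 ε Q).comp measurable_prodMk_right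

omit hε in
lemma measurable_spin_apply (v : V) : Measurable (fun τ : V → Bool => spin (τ v)) :=
  measurable_spin.comp (measurable_pi_apply v)

lemma integrable_wt (Q : Finset (V × ℕ)) (u : V × ℕ → unitInterval) :
    Integrable (fun τ => wt ε τ Q u) μ :=
  integrable_of_bdd (measurable_wt_left ε Q u) fun τ => wt_le hε τ Q u

lemma integrable_spin_wt (Q : Finset (V × ℕ)) (v : V) (u : V × ℕ → unitInterval) :
    Integrable (fun τ => spin (τ v) * wt ε τ Q u) μ :=
  integrable_of_bdd ((measurable_spin_apply v).mul (measurable_wt_left ε Q u)) fun τ => by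
    rw [abs_mul, abs_spin, one_mul]; exact wt_le hε τ Q u

omit hε in
lemma measurable_den (Q : Finset (V × ℕ)) : Measurable (den μ ε Q) := by
  have h : StronglyMeasurable
      (fun p : (V × ℕ → unitInterval) × (V → Bool) => wt ε p.2 Q p.1) :=
    ((measurable_wt2 ε Q).comp measurable_swap).stronglyMeasurable
  exact (h.integral_prod_right (ν := μ)).measurable

omit hε in
lemma measurable_num (Q : Finset (V × ℕ)) (v : V) : Measurable (num μ ε Q v) := by
  have h : StronglyMeasurable
      (fun p : (V × ℕ → unitInterval) × (V → Bool) => spin (p.2 v) * wt ε p.2 Q p.1) :=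
    (((measurable_spin_apply v).comp measurable_snd).mul
      ((measurable_wt2 ε Q).comp measurable_swap)).stronglyMeasurable
  exact (h.integral_prod_right (ν := μ)).measurable

omit hε in
lemma measurable_mg (Q : Finset (V × ℕ)) (v : V) : Measurable (mg μ ε Q v) :=
  (measurable_num μ Q v).div (measurable_den μ Q)

lemma den_pos (Q : Finset (V × ℕ)) (u : V × ℕ → unitInterval) : 0 < den μ ε Q u := by
  unfold den
  rw [integral_pos_iff_support_of_nonneg (fun τ => (wt_pos hε τ Q u).le)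
    (integrable_wt μ hε Q u)]
  have : Function.support (fun τ => wt ε τ Q u) = univ := by
    ext τ; simp [Function.mem_support, (wt_pos hε τ Q u).ne']
  rw [this]; simp

lemma den_le (Q : Finset (V × ℕ)) (u : V × ℕ → unitInterval) : |den μ ε Q u| ≤ 2 ^ Q.card := by
  have := norm_integral_le_of_norm_le_const (μ := μ) (f := fun τ => wt ε τ Q u)
    (C := 2 ^ Q.card) (Filter.Eventually.of_forall fun τ => by
      rw [Real.norm_eq_abs]; exact wt_le hε τ Q u)
  simpa [den] using this

omit [IsProbabilityMeasure μ] in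
lemma num_le (Q : Finset (V × ℕ)) (v : V) (u : V × ℕ → unitInterval) :
    |num μ ε Q v u| ≤ den μ ε Q u := by
  unfold num den
  refine (abs_integral_le_integral_abs).trans (le_of_eq ?_)
  congr 1
  ext τ
  rw [abs_mul, abs_spin, one_mul, abs_of_pos (wt_pos hε τ Q u)]

lemma mg_le (Q : Finset (V × ℕ)) (v : V) (u : V × ℕ → unitInterval) : |mg μ ε Q v u| ≤ 1 := by
  unfold mg
  rw [abs_div, abs_of_pos (den_pos μ hε Q u)]
  exact (div_le_one (den_pos μ hε Q u)).2 (num_le μ hε Q v u)

omit hε [IsProbabilityMeasure μ] in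
lemma den_congr {Q : Finset (V × ℕ)} {u u' : V × ℕ → unitInterval} (h : ∀ f ∈ Q, u f = u' f) :
    den μ ε Q u = den μ ε Q u' := by
  unfold den wt
  congr 1; ext τ; exact pw_congr _ h

omit hε [IsProbabilityMeasure μ] in
lemma num_congr {Q : Finset (V × ℕ)} {v : V} {u u' : V × ℕ → unitInterval}
    (h : ∀ f ∈ Q, u f = u' f) : num μ ε Q v u = num μ ε Q v u' := by
  unfold num wt
  congr 1; ext τ; rw [pw_congr _ h]

omit hε [IsProbabilityMeasure μ] in
lemma mg_congr {Q : Finset (V × ℕ)} {v : V} {u u' : V × ℕ → unitInterval}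
    (h : ∀ f ∈ Q, u f = u' f) : mg μ ε Q v u = mg μ ε Q v u' := by
  unfold mg; rw [den_congr μ h, num_congr μ h]

variable [DecidableEq V]

lemma den_insert {Q : Finset (V × ℕ)} {e : V × ℕ} (he : e ∉ Q) (u : V × ℕ → unitInterval) :
    den μ ε (insert e Q) u =
      den μ ε Q u * (1 + ε * mg μ ε Q e.1 u * (2 * (u e : ℝ) - 1)) := by
  have h1 : den μ ε (insert e Q) u =
      den μ ε Q u + ε * (2 * (u e : ℝ) - 1) * num μ ε Q e.1 u := by
    unfold den num
    rw [← integral_const_mul, ← integral_add (integrable_wt μ hε Q u)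
      ((integrable_spin_wt μ hε Q e.1 u).const_mul _)]
    congr 1; ext τ
    unfold wt
    rw [pw_insert _ he]
    ring
  rw [h1]
  unfold mg
  have := (den_pos μ hε Q u).ne'
  field_simp

lemma lintegral_den_insert {Q : Finset (V × ℕ)} {e : V × ℕ} (he : e ∉ Q)
    {F : (V × ℕ → unitInterval) → ENNReal} (hF : Measurable F) (hi : IndepOf {e} F) :
    ∫⁻ u, F u * ENNReal.ofReal (den μ ε (insert e Q) u) ∂(iidUniform (V × ℕ)) =
      ∫⁻ u, F u * ENNReal.ofReal (den μ ε Q u) ∂(iidUniform (V × ℕ)) := by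
  rw [lintegral_resample e (f := fun u => F u * ENNReal.ofReal (den μ ε (insert e Q) u))
    (hF.mul (measurable_den μ _).ennreal_ofReal)]
  refine lintegral_congr fun u => ?_
  have hh : ∀ r, F (Function.update u e r) = F u := fun r =>
    hi _ _ fun x hx => Function.update_of_ne (by simpa using hx) _ _
  have hQ : ∀ r, ∀ f ∈ Q, (Function.update u e r) f = u f := fun r f hf =>
    Function.update_of_ne (fun h => he (by rwa [← h])) _ _
  have h2 : ∀ r : unitInterval, F (Function.update u e r) *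
      ENNReal.ofReal (den μ ε (insert e Q) (Function.update u e r)) =
      (F u * ENNReal.ofReal (den μ ε Q u)) *
        ENNReal.ofReal (1 + (ε * mg μ ε Q e.1 u) * (2 * (r:ℝ) - 1)) := by
    intro r
    rw [hh, den_insert μ hε he, den_congr μ (hQ r), mg_congr μ (hQ r), Function.update_self,
      ENNReal.ofReal_mul (den_pos μ hε Q u).le]
    ring
  simp_rw [h2]
  rw [lintegral_const_mul _ (by fun_prop), lintegral_chan, mul_one]
  rw [abs_mul]
  calc |ε| * |mg μ ε Q e.1 u| ≤ 1 / 2 * 1 :=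
        mul_le_mul hε (mg_le μ hε Q e.1 u) (abs_nonneg _) (by norm_num)
    _ = 1 / 2 := by norm_num

lemma lintegral_den_mono {Q Q' : Finset (V × ℕ)} (hQ : Q ⊆ Q')
    {F : (V × ℕ → unitInterval) → ENNReal} (hF : Measurable F) (hi : IndepOf (Q' \ Q) F) :
    ∫⁻ u, F u * ENNReal.ofReal (den μ ε Q' u) ∂(iidUniform (V × ℕ)) =
      ∫⁻ u, F u * ENNReal.ofReal (den μ ε Q u) ∂(iidUniform (V × ℕ)) := by
  have key : ∀ R : Finset (V × ℕ), Disjoint R Q → IndepOf R F →
      ∫⁻ u, F u * ENNReal.ofReal (den μ ε (R ∪ Q) u) ∂(iidUniform (V × ℕ)) =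
      ∫⁻ u, F u * ENNReal.ofReal (den μ ε Q u) ∂(iidUniform (V × ℕ)) := by
    intro R
    induction R using Finset.induction_on with
    | empty => intro _ _; simp
    | insert e R heR ih =>
      intro hd hind
      rw [Finset.disjoint_insert_left] at hd
      have h1 : IndepOf {e} F := fun g g' hg => hind _ _ fun x hx => hg x fun hxe =>
        hx (by rw [Finset.mem_singleton] at hxe; simp [hxe])
      have h2 : IndepOf R F := fun g g' hg => hind _ _ fun x hx => hg x fun hxR =>
        hx (Finset.mem_insert_of_mem hxR)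
      rw [Finset.insert_union, lintegral_den_insert μ hε _ hF h1, ih hd.2 h2]
      simp [heR, hd.1]
  have h := key (Q' \ Q) Finset.sdiff_disjoint hi
  rwa [Finset.sdiff_union_of_subset hQ] at h

/-- law of the observations in `Q` (uniform outside `Q`) -/
noncomputable def law (μ : Measure (V → Bool)) (ε : ℝ) (Q : Finset (V × ℕ)) :
    Measure (V × ℕ → unitInterval) :=
  (iidUniform (V × ℕ)).withDensity (fun u => ENNReal.ofReal (den μ ε Q u))

omit hε [DecidableEq V] in
lemma lintegral_law (Q : Finset (V × ℕ)) {F : (V × ℕ → unitInterval) → ENNReal}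
    (hF : Measurable F) :
    ∫⁻ u, F u ∂(law μ ε Q) = ∫⁻ u, F u * ENNReal.ofReal (den μ ε Q u) ∂(iidUniform (V × ℕ)) := by
  unfold law
  rw [lintegral_withDensity_eq_lintegral_mul _ (measurable_den μ Q).ennreal_ofReal hF]
  refine lintegral_congr fun u => ?_
  simp only [Pi.mul_apply]; rw [mul_comm]

lemma law_prob (Q : Finset (V × ℕ)) : IsProbabilityMeasure (law μ ε Q) := by
  constructor
  have h1 := lintegral_law μ (ε := ε) Q (F := fun _ => 1) measurable_const
  simp only [lintegral_one, one_mul] at h1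
  rw [h1]
  have h2 := lintegral_den_mono μ hε (Finset.empty_subset Q) (F := fun _ => 1) measurable_const
    (fun _ _ _ => rfl)
  simp only [one_mul] at h2
  rw [h2]
  have : ∀ u : V × ℕ → unitInterval, den μ ε ∅ u = 1 := by
    intro u; simp [den, wt, pw]
  simp [this]

lemma law_map {β : Type*} [MeasurableSpace β] {Q Q' : Finset (V × ℕ)} (hQ : Q ⊆ Q')
    {h : (V × ℕ → unitInterval) → β} (hm : Measurable h) (hi : IndepOf (Q' \ Q) h) :
    (law μ ε Q').map h = (law μ ε Q).map h := by
  ext s hs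
  rw [Measure.map_apply hm hs, Measure.map_apply hm hs, ← lintegral_indicator_one (hm hs),
    ← lintegral_indicator_one (hm hs)]
  have hF : Measurable ((h ⁻¹' s).indicator (1 : (V × ℕ → unitInterval) → ENNReal)) :=
    measurable_one.indicator (hm hs)
  rw [lintegral_law μ Q' hF, lintegral_law μ Q hF]
  refine lintegral_den_mono μ hε hQ hF fun g g' hg => ?_
  have := hi g g' hg
  by_cases hgs : h g ∈ s
  · have hgs' : h g' ∈ s := by rwa [← this]
    rw [indicator_of_mem (show g ∈ h ⁻¹' s from hgs),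
      indicator_of_mem (show g' ∈ h ⁻¹' s from hgs')]
    rfl
  · have hgs' : h g' ∉ s := by rwa [← this]
    rw [indicator_of_notMem (show g ∉ h ⁻¹' s from hgs),
      indicator_of_notMem (show g' ∉ h ⁻¹' s from hgs')]

lemma integral_law_mono {Q Q' : Finset (V × ℕ)} (hQ : Q ⊆ Q')
    {h : (V × ℕ → unitInterval) → ℝ} (hm : Measurable h) (hi : IndepOf (Q' \ Q) h) :
    ∫ u, h u ∂(law μ ε Q') = ∫ u, h u ∂(law μ ε Q) := by
  have h1 : ∫ u, h u ∂(law μ ε Q') = ∫ y, y ∂((law μ ε Q').map h) :=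
    (integral_map hm.aemeasurable aestronglyMeasurable_id).symm
  have h2 : ∫ u, h u ∂(law μ ε Q) = ∫ y, y ∂((law μ ε Q).map h) :=
    (integral_map hm.aemeasurable aestronglyMeasurable_id).symm
  rw [h1, h2, law_map μ hε hQ hm hi]

omit [DecidableEq V] in
lemma integral_law (Q : Finset (V × ℕ)) (h : (V × ℕ → unitInterval) → ℝ) :
    ∫ u, h u ∂(law μ ε Q) = ∫ u, den μ ε Q u * h u ∂(iidUniform (V × ℕ)) := by
  unfold law
  rw [integral_withDensity_eq_integral_toReal_smul (measurable_den μ Q).ennreal_ofReal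
    (Filter.Eventually.of_forall fun _ => ENNReal.ofReal_lt_top)]
  congr 1; ext u
  rw [ENNReal.toReal_ofReal (den_pos μ hε Q u).le, smul_eq_mul]

omit [DecidableEq V] in
/-- integrals under the law as iterated integrals over spins and observations -/
lemma integral_law_eq (Q : Finset (V × ℕ)) {h : (V × ℕ → unitInterval) → ℝ} (hm : Measurable h)
    {C : ℝ} (hC : ∀ u, |h u| ≤ C) :
    ∫ u, h u ∂(law μ ε Q) =
      ∫ τ, ∫ u, wt ε τ Q u * h u ∂(iidUniform (V × ℕ)) ∂μ := by
  rw [integral_law μ hε]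
  have h1 : ∀ u, den μ ε Q u * h u = ∫ τ, wt ε τ Q u * h u ∂μ := by
    intro u; unfold den; rw [integral_mul_const]
  simp_rw [h1]
  rw [integral_integral_swap]
  refine integrable_of_bdd (C := 2 ^ Q.card * C) ?_ ?_
  · exact ((measurable_wt2 ε Q).comp measurable_swap).mul (hm.comp measurable_fst)
  · rintro ⟨u, τ⟩
    simp only [Function.uncurry_apply_pair]
    rw [abs_mul]
    exact mul_le_mul (wt_le hε τ Q u) (hC u) (abs_nonneg _) (by positivity)

lemma num_insert {Q : Finset (V × ℕ)} {e : V × ℕ} (he : e ∉ Q) (v : V)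
    {h : (V × ℕ → unitInterval) → ℝ} (hm : Measurable h) {C : ℝ} (hC : ∀ u, |h u| ≤ C)
    (hi : IndepOf {e} h) :
    ∫ u, num μ ε (insert e Q) v u * h u ∂(iidUniform (V × ℕ)) =
      ∫ u, num μ ε Q v u * h u ∂(iidUniform (V × ℕ)) := by
  have hsw : ∀ Q : Finset (V × ℕ), ∫ u, num μ ε Q v u * h u ∂(iidUniform (V × ℕ)) =
      ∫ τ, spin (τ v) * ∫ u, wt ε τ Q u * h u ∂(iidUniform (V × ℕ)) ∂μ := by
    intro Q
    have h1 : ∀ u, num μ ε Q v u * h u = ∫ τ, spin (τ v) * (wt ε τ Q u * h u) ∂μ := by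
      intro u; unfold num; rw [← integral_mul_const]
      congr 1; ext τ; ring
    simp_rw [h1]
    rw [integral_integral_swap]
    · congr 1; ext τ; rw [integral_const_mul]
    refine integrable_of_bdd (C := 2 ^ Q.card * C) ?_ ?_
    · exact ((measurable_spin_apply v).comp measurable_snd).mul
        (((measurable_wt2 ε Q).comp measurable_swap).mul (hm.comp measurable_fst))
    · rintro ⟨u, τ⟩
      simp only [Function.uncurry_apply_pair]
      rw [abs_mul, abs_mul, abs_spin, one_mul]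
      exact mul_le_mul (wt_le hε τ Q u) (hC u) (abs_nonneg _) (by positivity)
  rw [hsw, hsw]
  congr 1; ext τ
  congr 1
  have h1 := integral_pw_mul (c := fun f : V × ℕ => ε * spin (τ f.1))
    (fun f => abs_eps_spin hε _) he hm hC hi (k := fun _ => 1) measurable_const (K := 1)
    (fun _ => by simp)
  simp only [mul_one] at h1
  rw [integral_chan, one_mul] at h1
  exact h1

lemma num_mono {Q Q' : Finset (V × ℕ)} (hQ : Q ⊆ Q') (v : V)
    {h : (V × ℕ → unitInterval) → ℝ} (hm : Measurable h) {C : ℝ} (hC : ∀ u, |h u| ≤ C)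
    (hi : IndepOf (Q' \ Q) h) :
    ∫ u, num μ ε Q' v u * h u ∂(iidUniform (V × ℕ)) =
      ∫ u, num μ ε Q v u * h u ∂(iidUniform (V × ℕ)) := by
  have key : ∀ R : Finset (V × ℕ), Disjoint R Q → IndepOf R h →
      ∫ u, num μ ε (R ∪ Q) v u * h u ∂(iidUniform (V × ℕ)) =
      ∫ u, num μ ε Q v u * h u ∂(iidUniform (V × ℕ)) := by
    intro R
    induction R using Finset.induction_on with
    | empty => intro _ _; simp
    | insert e R heR ih =>
      intro hd hind
      rw [Finset.disjoint_insert_left] at hd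
      have h1 : IndepOf {e} h := fun g g' hg => hind _ _ fun x hx => hg x fun hxe =>
        hx (by rw [Finset.mem_singleton] at hxe; simp [hxe])
      have h2 : IndepOf R h := fun g g' hg => hind _ _ fun x hx => hg x fun hxR =>
        hx (Finset.mem_insert_of_mem hxR)
      rw [Finset.insert_union, num_insert μ hε _ v hm hC h1, ih hd.2 h2]
      simp [heR, hd.1]
  have h := key (Q' \ Q) Finset.sdiff_disjoint hi
  rwa [Finset.sdiff_union_of_subset hQ] at h

omit [DecidableEq V] in
lemma integral_mg_law (Q : Finset (V × ℕ)) (v : V) (h : (V × ℕ → unitInterval) → ℝ) :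
    ∫ u, mg μ ε Q v u * h u ∂(law μ ε Q) =
      ∫ u, num μ ε Q v u * h u ∂(iidUniform (V × ℕ)) := by
  rw [integral_law μ hε]
  congr 1; ext u
  unfold mg
  have := (den_pos μ hε Q u).ne'
  field_simp

omit [DecidableEq V] hε [IsProbabilityMeasure μ] in
lemma mg_indep {Q R : Finset (V × ℕ)} (hd : Disjoint Q R) (v : V) : IndepOf R (mg μ ε Q v) :=
  fun _ _ hg => mg_congr μ fun f hf => hg f (Finset.disjoint_left.1 hd hf)

/-- second moment of the conditional magnetisation -/
noncomputable def aa (μ : Measure (V → Bool)) (ε : ℝ) (Q : Finset (V × ℕ)) (v : V) : ℝ :=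
  ∫ u, mg μ ε Q v u ^ 2 ∂(law μ ε Q)

lemma aa_le_one (Q : Finset (V × ℕ)) (v : V) : aa μ ε Q v ≤ 1 := by
  have := law_prob μ hε Q
  unfold aa
  have h : ∀ u, mg μ ε Q v u ^ 2 ≤ 1 := fun u => by
    have := mg_le μ hε Q v u
    rw [← sq_abs]; exact pow_le_one₀ (abs_nonneg _) this
  calc ∫ u, mg μ ε Q v u ^ 2 ∂(law μ ε Q) ≤ ∫ _, (1:ℝ) ∂(law μ ε Q) := by
        refine integral_mono (integrable_of_bdd (C := 1) ((measurable_mg μ Q v).pow_const 2)
          fun u => ?_) (integrable_const _) h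
        rw [abs_of_nonneg (sq_nonneg _)]; exact h u
    _ = 1 := by simp

/-- martingale identity -/
lemma martingale {Q Q' S : Finset (V × ℕ)} (hQ : Q ⊆ Q') (hS : Q' ⊆ S) (v : V) :
    ∫ u, (mg μ ε Q' v u - mg μ ε Q v u) ^ 2 ∂(law μ ε S) = aa μ ε Q' v - aa μ ε Q v := by
  have hm := measurable_mg μ (ε := ε) Q v
  have hm' := measurable_mg μ (ε := ε) Q' v
  have hind : IndepOf (S \ Q') (fun u => (mg μ ε Q' v u - mg μ ε Q v u) ^ 2) := by
    intro g g' hg
    have h1 := mg_indep μ (ε := ε) (Q := Q') (R := S \ Q') Finset.disjoint_sdiff v g g' hg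
    have h2 := mg_indep μ (ε := ε) (Q := Q) (R := S \ Q')
      (Finset.disjoint_of_subset_left hQ Finset.disjoint_sdiff) v g g' hg
    simp only [h1, h2]
  rw [integral_law_mono μ hε hS (h := fun u => (mg μ ε Q' v u - mg μ ε Q v u) ^ 2)
    ((hm'.sub hm).pow_const 2) hind]
  have := law_prob μ hε Q'
  have i1 : Integrable (fun u => mg μ ε Q' v u ^ 2) (law μ ε Q') :=
    integrable_of_bdd (C := 1) (hm'.pow_const 2) fun u => by
      rw [abs_pow]; exact pow_le_one₀ (abs_nonneg _) (mg_le μ hε Q' v u)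
  have i2 : Integrable (fun u => mg μ ε Q' v u * mg μ ε Q v u) (law μ ε Q') :=
    integrable_of_bdd (C := 1 * 1) (hm'.mul hm) fun u => by
      rw [abs_mul]
      exact mul_le_mul (mg_le μ hε Q' v u) (mg_le μ hε Q v u) (abs_nonneg _) zero_le_one
  have i3 : Integrable (fun u => mg μ ε Q v u ^ 2) (law μ ε Q') :=
    integrable_of_bdd (C := 1) (hm.pow_const 2) fun u => by
      rw [abs_pow]; exact pow_le_one₀ (abs_nonneg _) (mg_le μ hε Q v u)
  have hexp : ∀ u, (mg μ ε Q' v u - mg μ ε Q v u) ^ 2 =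
      mg μ ε Q' v u ^ 2 - (2 * (mg μ ε Q' v u * mg μ ε Q v u) - mg μ ε Q v u ^ 2) := fun u => by
    ring
  simp_rw [hexp]
  have e1 : ∫ u, (mg μ ε Q' v u ^ 2 - (2 * (mg μ ε Q' v u * mg μ ε Q v u) - mg μ ε Q v u ^ 2))
      ∂(law μ ε Q') = ∫ u, mg μ ε Q' v u ^ 2 ∂(law μ ε Q') -
      ∫ u, (2 * (mg μ ε Q' v u * mg μ ε Q v u) - mg μ ε Q v u ^ 2) ∂(law μ ε Q') :=
    integral_sub i1 ((i2.const_mul 2).sub i3)
  have e2 : ∫ u, (2 * (mg μ ε Q' v u * mg μ ε Q v u) - mg μ ε Q v u ^ 2) ∂(law μ ε Q') =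
      ∫ u, 2 * (mg μ ε Q' v u * mg μ ε Q v u) ∂(law μ ε Q') -
      ∫ u, mg μ ε Q v u ^ 2 ∂(law μ ε Q') := integral_sub (i2.const_mul 2) i3
  rw [e1, e2, integral_const_mul]
  have hindQ : IndepOf (Q' \ Q) (mg μ ε Q v) := mg_indep μ Finset.disjoint_sdiff v
  have h2 : ∫ u, mg μ ε Q' v u * mg μ ε Q v u ∂(law μ ε Q') = aa μ ε Q v := by
    rw [integral_mg_law μ hε, num_mono μ hε hQ v hm (mg_le μ hε Q v) hindQ,
      ← integral_mg_law μ hε]
    unfold aa
    congr 1; ext u; ring
  have h3 : ∫ u, mg μ ε Q v u ^ 2 ∂(law μ ε Q') = aa μ ε Q v := by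
    rw [integral_law_mono μ hε hQ (hm.pow_const 2) (fun g g' hg => by
      simp only [hindQ g g' hg])]
    rfl
  rw [h2, h3]
  unfold aa
  ring

end gibbs

end Vale.Agent.P161
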