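import Mathlib

/-! Splitting i.i.d. labels (copied from the P143 helper file of helper15). -/

open MeasureTheory unitInterval Function

universe u v w

namespace Vale.Agent.P161.SplitAux

lemma infinitePi_sum {ι κ T : Type*} [MeasurableSpace T] (μ : Measure T) [IsProbabilityMeasure μ] :
    (Measure.infinitePi fun _ : ι ⊕ κ => μ).map
      (fun ω => ((fun i => ω (Sum.inl i) : ι → T), (fun k => ω (Sum.inr k) : κ → T))) =
      (Measure.infinitePi fun _ : ι => μ).prod (Measure.infinitePi fun _ : κ => μ) := by
  have hm : Measurable (fun q : (ι → T) × (κ → T) => (Sum.elim q.1 q.2 : ι ⊕ κ → T)) := by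
    refine measurable_pi_lambda _ fun i => ?_
    rcases i with i | k
    · exact (measurable_pi_apply i).comp measurable_fst
    · exact (measurable_pi_apply k).comp measurable_snd
  have h : ((Measure.infinitePi fun _ : ι => μ).prod (Measure.infinitePi fun _ : κ => μ)).map
      (fun q => (Sum.elim q.1 q.2 : ι ⊕ κ → T)) = Measure.infinitePi fun _ : ι ⊕ κ => μ := by
    refine Measure.eq_infinitePi _ fun s t ht => ?_
    rw [Measure.map_apply hm (MeasurableSet.pi s.countable_toSet fun _ _ => ht _)]
    have h1 : (fun q : (ι → T) × (κ → T) => (Sum.elim q.1 q.2 : ι ⊕ κ → T)) ⁻¹'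
        (Set.pi (s : Set (ι ⊕ κ)) t) = (Set.pi (s.toLeft : Set ι) fun i => t (Sum.inl i)) ×ˢ
          (Set.pi (s.toRight : Set κ) fun k => t (Sum.inr k)) := by
      ext q
      simp only [Set.mem_preimage, Set.mem_pi, Set.mem_prod, Finset.mem_coe, Sum.forall,
        Sum.elim_inl, Sum.elim_inr, Finset.mem_toLeft, Finset.mem_toRight]
    rw [h1, Measure.prod_prod, Measure.infinitePi_pi _ fun i _ => ht _,
      Measure.infinitePi_pi _ fun k _ => ht _]
    conv_rhs => rw [← Finset.toLeft_disjSum_toRight (u := s)]
    rw [Finset.prod_disjSum]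
  rw [← h, Measure.map_map (by fun_prop) hm]
  exact Measure.map_id

variable {V : Type u} [Countable V] {S : Type v} [MeasurableSpace S]

/-- the two families of labels are independent and iid -/
lemma law_split {f : I → ℕ → I} (hf : Measurable f)
    (hflaw : (volume : Measure I).map f = Measure.infinitePi fun _ : ℕ => volume)
    {g : I → S} (hg : Measurable g) :
    (Measure.infinitePi fun _ : V => (volume : Measure I)).map
      (fun U => ((fun v => f (U v) 0 : V → I), (fun p => g (f (U p.1) (p.2 + 1)) : V × ℕ → S))) =
      (Measure.infinitePi fun _ : V => (volume : Measure I)).prod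
        (Measure.infinitePi fun _ : V × ℕ => (volume : Measure I).map g) := by
  have : IsProbabilityMeasure ((volume : Measure I).map g) :=
    Measure.isProbabilityMeasure_map hg.aemeasurable
  -- the sequences
  have h1 : (Measure.infinitePi fun _ : V => (volume : Measure I)).map
      (fun U v => f (U v)) = Measure.infinitePi fun _ : V =>
        (Measure.infinitePi fun _ : ℕ => (volume : Measure I)) := by
    rw [Measure.infinitePi_map_pi (fun _ : V => (volume : Measure I)) (fun _ => hf), hflaw]
  have h2 := Measure.infinitePi_map_curry_symm (fun (_ : V) (_ : ℕ) => (volume : Measure I))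
  rw [← h1, Measure.map_map (by fun_prop) (by fun_prop)] at h2
  -- reindexing
  let ι : V ⊕ (V × ℕ) → V × ℕ := Sum.elim (fun v => (v, 0)) (fun p => (p.1, p.2 + 1))
  have hι : Injective ι := by
    rintro (v | ⟨v, n⟩) (w | ⟨w, m⟩) h <;> simp [ι, Prod.ext_iff] at h ⊢ <;> exact h
  have h3 := Measure.map_infinitePi_infinitePi_of_inj
    (P := fun _ : V × ℕ => (volume : Measure I)) hι
  have h4 := infinitePi_sum (ι := V) (κ := V × ℕ) (volume : Measure I)
  rw [← h3, ← h2, Measure.map_map (by fun_prop) (by fun_prop),
    Measure.map_map (by fun_prop) (by fun_prop)] at h4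
  have h5 : (Measure.infinitePi fun _ : V × ℕ => (volume : Measure I)).map
      (fun (W : V × ℕ → I) p => g (W p)) =
      Measure.infinitePi fun _ : V × ℕ => (volume : Measure I).map g :=
    Measure.infinitePi_map_pi (fun _ : V × ℕ => (volume : Measure I)) (fun _ => hg)
  have h6 : (Measure.infinitePi fun _ : V => (volume : Measure I)).prod
      (Measure.infinitePi fun _ : V × ℕ => (volume : Measure I).map g) =
      ((Measure.infinitePi fun _ : V => (volume : Measure I)).prod
        (Measure.infinitePi fun _ : V × ℕ => (volume : Measure I))).map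
        (Prod.map id (fun (W : V × ℕ → I) p => g (W p))) := by
    rw [← Measure.map_prod_map _ _ measurable_id (by fun_prop), h5, Measure.map_id]
  rw [h6, ← h2, ← h4, Measure.map_map (by fun_prop) (by fun_prop)]
  rfl

end Vale.Agent.P161.SplitAux
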