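import Vale.Agent.P161.Stab
import Vale.Agent.P161.Tree
import Vale.Agent.P161.SplitAux

/-! Glue between the tree part and the probability part. -/

set_option autoImplicit false

open MeasureTheory

namespace Vale.Agent.P161

variable {V : Type*}

namespace Glue

open Real

/-- inverse hyperbolic tangent -/
noncomputable def ath (a : ℝ) : ℝ := (1 / 2) * (log (1 + a) - log (1 - a))

lemma hasDerivAt_ath {a : ℝ} (h1 : -1 < a) (h2 : a < 1) :
    HasDerivAt ath (1 / (1 - a ^ 2)) a := by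
  have p1 : 0 < 1 + a := by linarith
  have p2 : 0 < 1 - a := by linarith
  have d1 : HasDerivAt (fun x : ℝ => 1 + x) 1 a := by simpa using (hasDerivAt_id a).const_add 1
  have d2 : HasDerivAt (fun x : ℝ => 1 - x) (-1) a := by simpa using (hasDerivAt_id a).const_sub 1
  have d3 : HasDerivAt ath ((1 / 2 : ℝ) * (1 / (1 + a) - (-1) / (1 - a))) a :=
    ((d1.log p1.ne').sub (d2.log p2.ne')).const_mul (1 / 2 : ℝ)
  have e : (1 / 2 : ℝ) * (1 / (1 + a) - (-1) / (1 - a)) = 1 / (1 - a ^ 2) := by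
    have h3 : 1 - a ^ 2 = (1 + a) * (1 - a) := by ring
    rw [h3]
    field_simp
    ring
  rw [e] at d3
  exact d3

lemma ath_lipschitz {a b : ℝ} (ha : |a| ≤ 1 / 2) (hb : |b| ≤ 1 / 2) :
    |ath a - ath b| ≤ 4 / 3 * |a - b| := by
  have key : ∀ x ∈ Set.Icc (-(1 / 2) : ℝ) (1 / 2), ‖1 / (1 - x ^ 2)‖ ≤ 4 / 3 := by
    intro x hx
    have h1 : x ^ 2 ≤ 1 / 4 := by nlinarith [hx.1, hx.2]
    have h2 : 0 < 1 - x ^ 2 := by linarith
    rw [Real.norm_of_nonneg (by positivity), div_le_iff₀ h2]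
    linarith
  have hd : ∀ x ∈ Set.Icc (-(1 / 2) : ℝ) (1 / 2), HasDerivWithinAt ath (1 / (1 - x ^ 2))
      (Set.Icc (-(1 / 2) : ℝ) (1 / 2)) x := by
    intro x hx
    exact (hasDerivAt_ath (by linarith [hx.1]) (by linarith [hx.2])).hasDerivWithinAt
  have := Convex.norm_image_sub_le_of_norm_hasDerivWithin_le (f := ath) (C := 4 / 3) hd key
    (convex_Icc _ _) (Set.mem_Icc.2 (abs_le.1 hb)) (Set.mem_Icc.2 (abs_le.1 ha))
  simpa [Real.norm_eq_abs] using this

lemma one_add_eq {a : ℝ} (ha : |a| ≤ 1 / 2) (b : Bool) :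
    1 + a * spin b = sqrt (1 - a ^ 2) * exp (spin b * ath a) := by
  obtain ⟨h1, h2⟩ := abs_le.1 ha
  have p1 : 0 < 1 + a := by linarith
  have p2 : 0 < 1 - a := by linarith
  have h3 : 1 - a ^ 2 = (1 + a) * (1 - a) := by ring
  have h4 : sqrt (1 - a ^ 2) = exp ((log (1 + a) + log (1 - a)) / 2) := by
    rw [h3, ← Real.log_mul p1.ne' p2.ne', ← Real.log_sqrt (by positivity),
      exp_log (Real.sqrt_pos.2 (by positivity))]
  rw [h4, ← exp_add]
  cases b
  · have : (log (1 + a) + log (1 - a)) / 2 + spin false * ath a = log (1 - a) := by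
      unfold ath spin; simp; ring
    rw [this, exp_log p2]
    simp [spin]; ring
  · have : (log (1 + a) + log (1 - a)) / 2 + spin true * ath a = log (1 + a) := by
      unfold ath spin; simp; ring
    rw [this, exp_log p1]
    simp [spin]

open Classical in
/-- the field at `w` produced by the observations `u` -/
noncomputable def field (ε : ℝ) (Q : Finset (V × ℕ)) (u : V × ℕ → unitInterval) (w : V) : ℝ :=
  ∑ f ∈ Q.filter (fun f => f.1 = w), ath (ε * (2 * (u f : ℝ) - 1))

lemma abs_ey {ε : ℝ} (h0 : 0 < ε) (h1 : ε ≤ 1 / 2) (r : unitInterval) :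
    |ε * (2 * (r : ℝ) - 1)| ≤ 1 / 2 := by
  rw [abs_mul, abs_of_pos h0]
  calc ε * |2 * (r : ℝ) - 1| ≤ 1 / 2 * 1 :=
        mul_le_mul h1 (abs_y_le _) (abs_nonneg _) (by norm_num)
    _ = 1 / 2 := by norm_num

open Classical in
lemma wt_eq {ε : ℝ} (h0 : 0 < ε) (h1 : ε ≤ 1 / 2) (Q : Finset (V × ℕ))
    (u : V × ℕ → unitInterval) (τ : V → Bool) :
    wt ε τ Q u = (∏ f ∈ Q, sqrt (1 - (ε * (2 * (u f : ℝ) - 1)) ^ 2)) *
      exp (∑ w ∈ Q.image Prod.fst, field ε Q u w * spin (τ w)) := by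
  have e1 : ∑ w ∈ Q.image Prod.fst, field ε Q u w * spin (τ w) =
      ∑ f ∈ Q, spin (τ f.1) * ath (ε * (2 * (u f : ℝ) - 1)) := by
    rw [← Finset.sum_fiberwise_of_maps_to (g := Prod.fst) (t := Q.image Prod.fst)
      (fun f hf => Finset.mem_image_of_mem _ hf)]
    refine Finset.sum_congr rfl fun w _ => ?_
    unfold field
    rw [Finset.sum_mul]
    refine Finset.sum_congr rfl fun f hf => ?_
    rw [(Finset.mem_filter.1 hf).2, mul_comm]
  rw [e1, exp_sum, ← Finset.prod_mul_distrib]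
  unfold wt pw
  refine Finset.prod_congr rfl fun f _ => ?_
  rw [← one_add_eq (abs_ey h0 h1 (u f)) (τ f.1)]
  ring

end Glue

open Classical in
theorem mg_lip (G : SimpleGraph V) [G.LocallyFinite] (hT : G.IsTree) (β : ℝ) (hβ : 0 ≤ β)
    (μ : Measure (V → Bool)) (hμ : IsFreeIsing G β μ) {ε : ℝ} (h0 : 0 < ε) (h1 : ε ≤ 1 / 2)
    (Q : Finset (V × ℕ)) (v : V) (u u' : V × ℕ → unitInterval) :
    |mg μ ε Q v u - mg μ ε Q v u'| ≤
      3 * ε * ∑ f ∈ Q, (Real.tanh β) ^ (G.dist v f.1) * |(u f : ℝ) - u' f| := by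
  have key : ∀ u : V × ℕ → unitInterval,
      mg μ ε Q v u = mag μ (Q.image Prod.fst) (Glue.field ε Q u) v := by
    intro u
    have hpos : 0 < ∏ f ∈ Q, Real.sqrt (1 - (ε * (2 * (u f : ℝ) - 1)) ^ 2) := by
      refine Finset.prod_pos fun f _ => Real.sqrt_pos.2 ?_
      have := Glue.abs_ey h0 h1 (u f)
      obtain ⟨h2, h3⟩ := abs_le.1 this
      nlinarith
    unfold mg num den mag
    simp only [Glue.wt_eq h0 h1 Q u]
    have e1 : ∀ τ : V → Bool, spin (τ v) * ((∏ f ∈ Q, Real.sqrt (1 - (ε * (2 * (u f : ℝ) - 1)) ^ 2)) *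
        Real.exp (∑ w ∈ Q.image Prod.fst, Glue.field ε Q u w * spin (τ w))) =
        (∏ f ∈ Q, Real.sqrt (1 - (ε * (2 * (u f : ℝ) - 1)) ^ 2)) * (spin (τ v) *
        Real.exp (∑ w ∈ Q.image Prod.fst, Glue.field ε Q u w * spin (τ w))) := by
      intro τ; ring
    simp only [e1]
    rw [integral_const_mul, integral_const_mul, mul_div_mul_left _ _ hpos.ne']
  rw [key, key]
  refine (B6 G hT β hβ μ hμ _ _ _ v).trans ?_
  have hθ0 := Tree.tanh_nonneg' hβ
  have h2 : ∀ w, |Glue.field ε Q u w - Glue.field ε Q u' w| ≤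
      ∑ f ∈ Q.filter (fun f => f.1 = w), 3 * ε * |(u f : ℝ) - u' f| := by
    intro w
    unfold Glue.field
    rw [← Finset.sum_sub_distrib]
    refine (Finset.abs_sum_le_sum_abs _ _).trans (Finset.sum_le_sum fun f _ => ?_)
    refine (Glue.ath_lipschitz (Glue.abs_ey h0 h1 _) (Glue.abs_ey h0 h1 _)).trans ?_
    have e2 : ε * (2 * (u f : ℝ) - 1) - ε * (2 * (u' f : ℝ) - 1) =
        2 * ε * ((u f : ℝ) - u' f) := by ring
    rw [e2, abs_mul, abs_of_pos (by positivity)]
    have := abs_nonneg ((u f : ℝ) - u' f)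
    nlinarith [mul_nonneg h0.le this]
  calc ∑ w ∈ Q.image Prod.fst, Real.tanh β ^ G.dist v w *
        |Glue.field ε Q u w - Glue.field ε Q u' w|
      ≤ ∑ w ∈ Q.image Prod.fst, Real.tanh β ^ G.dist v w *
        ∑ f ∈ Q.filter (fun f => f.1 = w), 3 * ε * |(u f : ℝ) - u' f| :=
        Finset.sum_le_sum fun w _ => mul_le_mul_of_nonneg_left (h2 w) (by positivity)
    _ = 3 * ε * ∑ f ∈ Q, (Real.tanh β) ^ (G.dist v f.1) * |(u f : ℝ) - u' f| := by
        rw [Finset.mul_sum, ← Finset.sum_fiberwise_of_maps_to (g := Prod.fst)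
          (t := Q.image Prod.fst) (fun f hf => Finset.mem_image_of_mem _ hf)]
        refine Finset.sum_congr rfl fun w _ => ?_
        rw [Finset.mul_sum]
        refine Finset.sum_congr rfl fun f hf => ?_
        rw [(Finset.mem_filter.1 hf).2]
        ring

theorem exists_split [Countable V] :
    ∃ (T1 : (V → unitInterval) → (V → unitInterval))
      (T2 : (V → unitInterval) → (V × ℕ → unitInterval)), Measurable T1 ∧ Measurable T2 ∧
      (iidUniform V).map (fun U => (T1 U, T2 U)) = (iidUniform V).prod (iidUniform (V × ℕ)) ∧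
      ∀ (γ : V ≃ V) U, T1 (act γ U) = act γ (T1 U) ∧ T2 (act γ U) = actE γ (T2 U) := by
  obtain ⟨f, hf, hflaw⟩ := Measure.exists_measurable_map_eq
    (Measure.infinitePi fun _ : ℕ => (volume : Measure unitInterval))
  refine ⟨fun U v => f (U v) 0, fun U p => f (U p.1) (p.2 + 1), by fun_prop, by fun_prop, ?_, ?_⟩
  · have := Vale.Agent.P161.SplitAux.law_split (V := V) hf hflaw (g := id) measurable_id
    rw [Measure.map_id] at this
    exact this
  · intro γ U
    exact ⟨rfl, rfl⟩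

theorem ext_cyl [Countable V] {μ ν : Measure (V → Bool)} [IsProbabilityMeasure μ]
    [IsProbabilityMeasure ν] (h : ∀ (F : Finset V) (η : V → Bool),
      μ {s | ∀ v ∈ F, s v = η v} = ν {s | ∀ v ∈ F, s v = η v}) : μ = ν := by
  classical
  have hD : ∀ D : Finset V, μ.map D.restrict = ν.map D.restrict := by
    intro D
    refine Measure.ext_of_singleton fun η => ?_
    have e1 : (D.restrict (π := fun _ => Bool)) ⁻¹' {η} =
        {σ | ∀ v ∈ D, σ v = Tree.ext D η v} := by
      ext σ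
      simp only [Set.mem_preimage, Set.mem_singleton_iff, Set.mem_ofPred_eq]
      constructor
      · rintro rfl v hv
        rw [Tree.ext_apply D _ hv]
        rfl
      · intro h
        funext v
        have := h v.1 v.2
        rw [Tree.ext_apply D _ v.2] at this
        exact this
    rw [Measure.map_apply (by fun_prop) (measurableSet_singleton _),
      Measure.map_apply (by fun_prop) (measurableSet_singleton _), e1, h]
  have h2 : IsProjectiveLimit μ (fun I : Finset V => μ.map I.restrict) := fun I => rfl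
  have h3 : IsProjectiveLimit ν (fun I : Finset V => μ.map I.restrict) := fun I => (hD I).symm
  exact h2.unique h3

end Vale.Agent.P161
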