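import Vale.Agent.P161.Cauchy

/-! The limit of the reconstructed estimators and the abstract factor theorem. -/

open MeasureTheory Set Filter
open scoped Topology

namespace Vale.Agent.P161

section generic

variable {Ω : Type*} [MeasurableSpace Ω] {P : Measure Ω} [IsProbabilityMeasure P]

lemma exists_l1_limit {ι : Type*} [SemilatticeSup ι] [Nonempty ι] (F : ι → Ω → ℝ)
    (hm : ∀ i, Measurable (F i)) {C : ℝ} (hC : ∀ i ω, |F i ω| ≤ C)
    (hF : Tendsto (fun q : ι × ι => ∫ ω, |F q.1 ω - F q.2 ω| ∂P) atTop (𝓝 0)) :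
    ∃ Φ : Ω → ℝ, Measurable Φ ∧ (∀ ω, |Φ ω| ≤ C) ∧
      Tendsto (fun i => ∫ ω, |F i ω - Φ ω| ∂P) atTop (𝓝 0) := by
  have hint : ∀ i, Integrable (F i) P := fun i => integrable_of_bdd (hm i) (hC i)
  set G : ι → (Ω →₁[P] ℝ) := fun i => (hint i).toL1 (F i) with hG
  have hdist : ∀ i j, dist (G i) (G j) = ∫ ω, |F i ω - F j ω| ∂P := by
    intro i j
    rw [dist_eq_norm, hG]
    simp only
    rw [← Integrable.toL1_sub, L1.norm_of_fun_eq_integral_norm]
    rfl
  have hcau : CauchySeq G := by
    rw [cauchySeq_iff_tendsto_dist_atTop_0]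
    simp_rw [hdist]
    exact hF
  obtain ⟨L, hL⟩ := cauchySeq_tendsto_of_complete hcau
  have hLm : Measurable (L : Ω → ℝ) := (Lp.stronglyMeasurable L).measurable
  have hLi : Integrable (L : Ω → ℝ) P := L1.integrable_coeFn L
  have hC0 : 0 ≤ C := by
    obtain ⟨i⟩ := ‹Nonempty ι›
    have : (univ : Set Ω).Nonempty := by
      rw [nonempty_iff_ne_empty]; intro h
      have := measure_univ (μ := P); rw [h] at this; simp at this
    obtain ⟨ω, -⟩ := this
    exact (abs_nonneg _).trans (hC i ω)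
  refine ⟨fun ω => max (-C) (min C (L ω)), measurable_const.max (measurable_const.min hLm),
    fun ω => ?_, ?_⟩
  · rw [abs_le]
    exact ⟨le_max_left _ _, max_le (by linarith) (min_le_left _ _)⟩
  · have hd2 : ∀ i, dist (G i) L = ∫ ω, |F i ω - L ω| ∂P := by
      intro i
      rw [dist_eq_norm]
      conv_lhs => rw [← Integrable.toL1_coeFn L (L1.integrable_coeFn L)]
      rw [hG]
      simp only
      rw [← Integrable.toL1_sub, L1.norm_of_fun_eq_integral_norm]
      rfl
    have hL' : Tendsto (fun i => ∫ ω, |F i ω - L ω| ∂P) atTop (𝓝 0) := by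
      have := (tendsto_iff_dist_tendsto_zero.1 hL)
      simp_rw [hd2] at this
      exact this
    refine squeeze_zero (fun i => integral_nonneg fun ω => abs_nonneg _) (fun i => ?_) hL'
    refine integral_mono_of_nonneg (Eventually.of_forall fun ω => abs_nonneg _)
      ((hint i).sub hLi).abs (Eventually.of_forall fun ω => ?_)
    have h1 := abs_le.1 (hC i ω)
    simp only
    rcases le_total (L ω) (-C) with h2 | h2
    · rw [min_eq_right (by linarith), max_eq_left h2]
      rw [abs_of_nonneg (by linarith), abs_of_nonneg (by linarith)]; linarith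
    · rcases le_total (L ω) C with h3 | h3
      · rw [min_eq_right h3, max_eq_right h2]
      · rw [min_eq_left h3, max_eq_right (by linarith)]
        rw [abs_of_nonpos (by linarith), abs_of_nonpos (by linarith)]; linarith

lemma l1_triangle {a b c : Ω → ℝ} (ha : Measurable a) (hb : Measurable b) (hc : Measurable c)
    {C : ℝ} (hCa : ∀ ω, |a ω| ≤ C) (hCb : ∀ ω, |b ω| ≤ C) (hCc : ∀ ω, |c ω| ≤ C) :
    ∫ ω, |a ω - c ω| ∂P ≤ ∫ ω, |a ω - b ω| ∂P + ∫ ω, |b ω - c ω| ∂P := by
  have ia : Integrable a P := integrable_of_bdd ha hCa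
  have ib : Integrable b P := integrable_of_bdd hb hCb
  have ic : Integrable c P := integrable_of_bdd hc hCc
  have j1 : Integrable (fun ω => |a ω - b ω|) P := (ia.sub ib).abs
  have j2 : Integrable (fun ω => |b ω - c ω|) P := (ib.sub ic).abs
  have j3 : Integrable (fun ω => |a ω - c ω|) P := (ia.sub ic).abs
  rw [← integral_add j1 j2]
  refine integral_mono j3 (j1.add j2) fun ω => ?_
  exact abs_sub_le _ _ _

lemma prod_tendsto {V ι : Type*} [DecidableEq V] {l : Filter ι} (Fs : Finset V)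
    (a : ι → V → Ω → ℝ) (b : V → Ω → ℝ)
    (ham : ∀ i v, Measurable (a i v)) (hbm : ∀ v, Measurable (b v)) {C : ℝ}
    (ha : ∀ i v ω, |a i v ω| ≤ C) (hb : ∀ v ω, |b v ω| ≤ C)
    (hlim : ∀ v ∈ Fs, Tendsto (fun i => ∫ ω, |a i v ω - b v ω| ∂P) l (𝓝 0)) :
    Tendsto (fun i => ∫ ω, |∏ v ∈ Fs, a i v ω - ∏ v ∈ Fs, b v ω| ∂P) l (𝓝 0) := by
  induction Fs using Finset.induction_on with
  | empty => simpa using tendsto_const_nhds
  | insert v Fs hv ih =>
    have ih' := ih fun w hw => hlim w (Finset.mem_insert_of_mem hw)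
    have hv' := hlim v (Finset.mem_insert_self _ _)
    have hmA : ∀ i, Measurable (fun ω => ∏ w ∈ Fs, a i w ω) := fun i =>
      Finset.measurable_fun_prod _ fun w _ => ham i w
    have hmB : Measurable (fun ω => ∏ w ∈ Fs, b w ω) :=
      Finset.measurable_fun_prod _ fun w _ => hbm w
    have hbA : ∀ i ω, |∏ w ∈ Fs, a i w ω| ≤ C ^ Fs.card := fun i ω => by
      rw [Finset.abs_prod, ← Finset.prod_const]
      exact Finset.prod_le_prod (fun _ _ => abs_nonneg _) fun w _ => ha i w ω
    have hbB : ∀ ω, |∏ w ∈ Fs, b w ω| ≤ C ^ Fs.card := fun ω => by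
      rw [Finset.abs_prod, ← Finset.prod_const]
      exact Finset.prod_le_prod (fun _ _ => abs_nonneg _) fun w _ => hb w ω
    have hsum : Tendsto (fun i => C ^ Fs.card * ∫ ω, |a i v ω - b v ω| ∂P +
        C * ∫ ω, |∏ w ∈ Fs, a i w ω - ∏ w ∈ Fs, b w ω| ∂P) l (𝓝 0) := by
      have := (hv'.const_mul (C ^ Fs.card)).add (ih'.const_mul C)
      simpa using this
    refine squeeze_zero (fun i => integral_nonneg fun ω => abs_nonneg _) (fun i => ?_) hsum
    have i1 : Integrable (fun ω => |a i v ω - b v ω|) P :=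
      ((integrable_of_bdd (ham i v) (ha i v)).sub (integrable_of_bdd (hbm v) (hb v))).abs
    have i2 : Integrable (fun ω => |∏ w ∈ Fs, a i w ω - ∏ w ∈ Fs, b w ω|) P :=
      ((integrable_of_bdd (hmA i) (hbA i)).sub (integrable_of_bdd hmB hbB)).abs
    rw [← integral_const_mul, ← integral_const_mul,
      ← integral_add (i1.const_mul _) (i2.const_mul _)]
    refine integral_mono_of_nonneg (Eventually.of_forall fun ω => abs_nonneg _)
      ((i1.const_mul _).add (i2.const_mul _)) (Eventually.of_forall fun ω => ?_)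
    simp only
    rw [Finset.prod_insert hv, Finset.prod_insert hv]
    have e : a i v ω * ∏ w ∈ Fs, a i w ω - b v ω * ∏ w ∈ Fs, b w ω =
      (∏ w ∈ Fs, a i w ω) * (a i v ω - b v ω) +
      b v ω * (∏ w ∈ Fs, a i w ω - ∏ w ∈ Fs, b w ω) := by ring
    rw [e]
    refine (abs_add_le _ _).trans (add_le_add ?_ ?_)
    · rw [abs_mul]; exact mul_le_mul_of_nonneg_right (hbA i ω) (abs_nonneg _)
    · rw [abs_mul]; exact mul_le_mul_of_nonneg_right (hb v ω) (abs_nonneg _)

end generic

/-- automorphisms preserve the i.i.d. law -/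
lemma map_act_iid {E : Type*} (γ : E ≃ E) : (iidUniform E).map (act γ) = iidUniform E := by
  refine Measure.eq_infinitePi _ fun s t ht => ?_
  rw [Measure.map_apply (measurable_act γ) (MeasurableSet.pi s.countable_toSet fun i _ => ht i)]
  have : (act γ : (E → unitInterval) → (E → unitInterval)) ⁻¹' ((s : Set E).pi t) =
      ((s.map γ.symm.toEmbedding : Finset E) : Set E).pi (fun e => t (γ e)) := by
    ext x
    simp only [mem_preimage, Set.mem_pi, Finset.mem_coe, Finset.mem_map, Equiv.coe_toEmbedding,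
      forall_exists_index, and_imp, forall_apply_eq_imp_iff₂, Equiv.apply_symm_apply]
    rfl
  rw [this, iidUniform, Measure.infinitePi_pi _ (fun i _ => ht (γ i)), Finset.prod_map]
  refine Finset.prod_congr rfl fun e _ => ?_
  simp

lemma map_actE_iid {V : Type*} (γ : V ≃ V) :
    (iidUniform (V × ℕ)).map (actE γ) = iidUniform (V × ℕ) :=
  map_act_iid (γ.prodCongr (Equiv.refl ℕ))

variable {V : Type*} [Countable V] [DecidableEq V]
variable {μ : Measure (V → Bool)} [IsProbabilityMeasure μ] {ε : ℝ} {κ ρ : V → V → ℝ} {M : ℝ}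

/-- the joint law of labels and innovations -/
noncomputable def P2 (V : Type*) : Measure ((V → unitInterval) × (V × ℕ → unitInterval)) :=
  (iidUniform V).prod (iidUniform (V × ℕ))

instance (V : Type*) : IsProbabilityMeasure (P2 V) := by unfold P2; infer_instance

omit [Countable V] [DecidableEq V] in
lemma measurable_actE {α : Type*} [MeasurableSpace α] (γ : V ≃ V) :
    Measurable (actE γ : (V × ℕ → α) → (V × ℕ → α)) :=
  measurable_pi_lambda _ fun _ => measurable_pi_apply _

omit [Countable V] [DecidableEq V] in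
lemma mp_P2 (γ : V ≃ V) :
    MeasurePreserving (fun p : (V → unitInterval) × (V × ℕ → unitInterval) =>
      (act γ p.1, actE γ p.2)) (P2 V) (P2 V) := by
  have h1 : MeasurePreserving (act γ : (V → unitInterval) → _) (iidUniform V) (iidUniform V) :=
    ⟨measurable_act γ, map_act_iid γ⟩
  have h2 : MeasurePreserving (actE γ : (V × ℕ → unitInterval) → _) (iidUniform (V × ℕ))
      (iidUniform (V × ℕ)) := ⟨measurable_actE γ, map_actE_iid γ⟩
  exact h1.prod h2

lemma dd_tendsto (h : Good μ ε κ ρ M) {t : V → unitInterval} (ht : Function.Injective t)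
    (v : V) :
    Tendsto (fun q : (Finset V × ℕ) × (Finset V × ℕ) =>
      ∫ g, |FF μ ε q.1.1 q.1.2 v t g - FF μ ε q.2.1 q.2.2 v t g| ∂(iidUniform (V × ℕ)))
      atTop (𝓝 0) := by
  have hbase : ∀ δ : ℝ, 0 < δ → ∃ i0 : Finset V × ℕ, ∀ i, i0 ≤ i →
      ∫ g, |FF μ ε i.1 i.2 v t g - FF μ ε i0.1 i0.2 v t g| ∂(iidUniform (V × ℕ)) ≤ 5 * δ := by
    intro δ hδ
    obtain ⟨N0, hN0⟩ := exists_nat_gt (3 / (ε ^ 2 * δ ^ 2))
    have he := h.eps_pos
    have hN0' : (0:ℝ) < N0 := lt_trans (by positivity) hN0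
    have hN0'' : 0 < N0 := by exact_mod_cast hN0'
    have hδN : 3 / (ε ^ 2 * N0) ≤ δ ^ 2 := by
      rw [div_le_iff₀ (by positivity)]
      rw [div_lt_iff₀ (by positivity)] at hN0
      nlinarith
    obtain ⟨B0, hvB0, hB0⟩ := cauchy_volume h ht hN0'' v hδ
    refine ⟨(B0, N0), ?_⟩
    rintro ⟨B, N⟩ ⟨hB, hN⟩
    simp only at hB hN ⊢
    have h1 := compare_rounds h ht (hB hvB0) hN0'' hN hδ hδN
    have h2 := hB0 B hB
    have h3 := l1_triangle (P := iidUniform (V × ℕ)) (measurable_FF_right μ ε B N v t)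
      (measurable_FF_right μ ε B N0 v t) (measurable_FF_right μ ε B0 N0 v t)
      (FF_le h B N v t) (FF_le h B N0 v t) (FF_le h B0 N0 v t)
    have h4 : ∫ g, |FF μ ε B N v t g - FF μ ε B N0 v t g| ∂(iidUniform (V × ℕ)) =
        ∫ g, |FF μ ε B N0 v t g - FF μ ε B N v t g| ∂(iidUniform (V × ℕ)) := by
      congr 1; ext g; rw [abs_sub_comm]
    linarith
  rw [Metric.tendsto_atTop]
  intro δ hδ
  obtain ⟨i0, hi0⟩ := hbase (δ / 20) (by positivity)
  refine ⟨(i0, i0), ?_⟩
  rintro ⟨i, j⟩ ⟨hi, hj⟩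
  simp only at hi hj ⊢
  have h1 := hi0 i hi
  have h2 := hi0 j hj
  have h3 := l1_triangle (P := iidUniform (V × ℕ)) (measurable_FF_right μ ε i.1 i.2 v t)
      (measurable_FF_right μ ε i0.1 i0.2 v t) (measurable_FF_right μ ε j.1 j.2 v t)
      (FF_le h i.1 i.2 v t) (FF_le h i0.1 i0.2 v t) (FF_le h j.1 j.2 v t)
  have h4 : ∫ g, |FF μ ε i0.1 i0.2 v t g - FF μ ε j.1 j.2 v t g| ∂(iidUniform (V × ℕ)) =
        ∫ g, |FF μ ε j.1 j.2 v t g - FF μ ε i0.1 i0.2 v t g| ∂(iidUniform (V × ℕ)) := by
    congr 1; ext g; rw [abs_sub_comm]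
  rw [Real.dist_eq, sub_zero, abs_of_nonneg (integral_nonneg fun g => abs_nonneg _)]
  linarith

/-- integrals over `P2` -/
lemma integral_P2 {f : (V → unitInterval) × (V × ℕ → unitInterval) → ℝ} (hf : Measurable f)
    {C : ℝ} (hC : ∀ p, |f p| ≤ C) :
    ∫ p, f p ∂(P2 V) = ∫ t, ∫ g, f (t, g) ∂(iidUniform (V × ℕ)) ∂(iidUniform V) := by
  unfold P2
  exact integral_prod f (integrable_of_bdd hf hC)

lemma FI_cauchy (h : Good μ ε κ ρ M) (v : V) :
    Tendsto (fun q : (Finset V × ℕ) × (Finset V × ℕ) =>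
      ∫ p, |FF μ ε q.1.1 q.1.2 v p.1 p.2 - FF μ ε q.2.1 q.2.2 v p.1 p.2| ∂(P2 V))
      atTop (𝓝 0) := by
  have hm : ∀ q : (Finset V × ℕ) × (Finset V × ℕ),
      Measurable (fun p : (V → unitInterval) × (V × ℕ → unitInterval) =>
        |FF μ ε q.1.1 q.1.2 v p.1 p.2 - FF μ ε q.2.1 q.2.2 v p.1 p.2|) := fun q =>
    ((measurable_FF μ ε q.1.1 q.1.2 v).sub (measurable_FF μ ε q.2.1 q.2.2 v)).abs
  have hb : ∀ (q : (Finset V × ℕ) × (Finset V × ℕ))
      (p : (V → unitInterval) × (V × ℕ → unitInterval)),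
      |(|FF μ ε q.1.1 q.1.2 v p.1 p.2 - FF μ ε q.2.1 q.2.2 v p.1 p.2|)| ≤ 3 / ε + 3 / ε := by
    intro q p
    rw [abs_abs]
    exact (abs_sub _ _).trans (add_le_add (FF_le h _ _ _ _ _) (FF_le h _ _ _ _ _))
  have e1 : ∀ q : (Finset V × ℕ) × (Finset V × ℕ),
      ∫ p, |FF μ ε q.1.1 q.1.2 v p.1 p.2 - FF μ ε q.2.1 q.2.2 v p.1 p.2| ∂(P2 V) =
      ∫ t, ∫ g, |FF μ ε q.1.1 q.1.2 v t g - FF μ ε q.2.1 q.2.2 v t g|
        ∂(iidUniform (V × ℕ)) ∂(iidUniform V) := fun q => integral_P2 (hm q) (hb q)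
  simp_rw [e1]
  have e2 : (0:ℝ) = ∫ _ : V → unitInterval, (0:ℝ) ∂(iidUniform V) := by simp
  rw [e2]
  refine tendsto_integral_filter_of_dominated_convergence (fun _ => 3 / ε + 3 / ε) ?_ ?_
    (integrable_const _) ?_
  · refine Eventually.of_forall fun q => ?_
    exact ((hm q).stronglyMeasurable.integral_prod_right
      (ν := iidUniform (V × ℕ))).aestronglyMeasurable
  · refine Eventually.of_forall fun q => Eventually.of_forall fun t => ?_
    have := norm_integral_le_of_norm_le_const (μ := iidUniform (V × ℕ))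
      (f := fun g => |FF μ ε q.1.1 q.1.2 v t g - FF μ ε q.2.1 q.2.2 v t g|)
      (C := 3 / ε + 3 / ε) (Eventually.of_forall fun g => hb q (t, g))
    simpa using this
  · filter_upwards [ae_inj (V := V)] with t ht
    exact dd_tendsto h ht v

theorem abstract_factor (h : Good μ ε κ ρ M)
    (hext : ∀ ν : Measure (V → Bool), IsProbabilityMeasure ν →
      (∀ (F : Finset V) (η : V → Bool),
        ν {s | ∀ v ∈ F, s v = η v} = μ {s | ∀ v ∈ F, s v = η v}) → ν = μ) :
    ∃ Ψ : (V → unitInterval) × (V × ℕ → unitInterval) → (V → Bool), Measurable Ψ ∧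
      (P2 V).map Ψ = μ ∧ ∀ γ : V ≃ V, μ.map (act γ) = μ →
        ∀ᵐ p ∂(P2 V), Ψ (act γ p.1, actE γ p.2) = act γ (Ψ p) := by
  have hε := h.abs_eps
  have he := h.eps_pos
  set C : ℝ := 3 / ε with hC
  have hC0 : 0 < C := by positivity
  set FI : Finset V × ℕ → V → (V → unitInterval) × (V × ℕ → unitInterval) → ℝ :=
    fun i v p => FF μ ε i.1 i.2 v p.1 p.2 with hFI
  have hFIm : ∀ i v, Measurable (FI i v) := fun i v => measurable_FF μ ε i.1 i.2 v
  have hFIb : ∀ i v p, |FI i v p| ≤ C := fun i v p => FF_le h _ _ _ _ _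
  have hex : ∀ v, ∃ Φ : (V → unitInterval) × (V × ℕ → unitInterval) → ℝ, Measurable Φ ∧
      (∀ ω, |Φ ω| ≤ C) ∧ Tendsto (fun i => ∫ ω, |FI i v ω - Φ ω| ∂(P2 V)) atTop (𝓝 0) :=
    fun v => exists_l1_limit (fun i => FI i v) (fun i => hFIm i v) (fun i => hFIb i v)
      (FI_cauchy h v)
  choose Φ hΦm hΦb hΦlim using hex
  -- Φ² = 1
  have hsq : ∀ v, ∀ᵐ p ∂(P2 V), Φ v p ^ 2 = 1 := by
    intro v
    have hm1 : Measurable (fun p => |Φ v p ^ 2 - 1|) :=
      (((hΦm v).pow_const 2).sub measurable_const).abs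
    have hb1 : ∀ p, |(|Φ v p ^ 2 - 1|)| ≤ C ^ 2 + 1 := fun p => by
      rw [abs_abs]
      refine (abs_sub _ _).trans (add_le_add ?_ (by simp))
      rw [abs_pow]; exact pow_le_pow_left₀ (abs_nonneg _) (hΦb v p) 2
    have key : ∀ δ : ℝ, 0 < δ → ∫ p, |Φ v p ^ 2 - 1| ∂(P2 V) ≤ δ := by
      intro δ hδ
      set δ' := δ / (2 * (C + 1)) with hδ'
      have hδ'0 : 0 < δ' := by positivity
      have h1 : ∀ᶠ i in atTop, ∫ ω, |FI i v ω - Φ v ω| ∂(P2 V) < δ / (4 * C) := by
        have := (hΦlim v).eventually (Iio_mem_nhds (show (0:ℝ) < δ / (4 * C) by positivity))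
        exact this
      obtain ⟨N0, hN0⟩ := exists_nat_gt (3 / (ε ^ 2 * δ' ^ 2))
      have hN0' : (0:ℝ) < N0 := lt_trans (by positivity) hN0
      have h2 : ∀ᶠ i : Finset V × ℕ in atTop, ({v}, N0) ≤ i := eventually_ge_atTop _
      obtain ⟨i, hi1, hi2⟩ := (h1.and h2).exists
      have hvi : v ∈ i.1 := hi2.1 (Finset.mem_singleton_self v)
      have hNi : N0 ≤ i.2 := hi2.2
      have hNi0 : 0 < i.2 := lt_of_lt_of_le (by exact_mod_cast hN0') hNi
      have hNi' : (N0:ℝ) ≤ i.2 := by exact_mod_cast hNi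
      have hδN : 3 / (ε ^ 2 * i.2) ≤ δ' ^ 2 := by
        have : (0:ℝ) < i.2 := by exact_mod_cast hNi0
        rw [div_le_iff₀ (by positivity)]
        rw [div_lt_iff₀ (by positivity)] at hN0
        nlinarith [mul_le_mul_of_nonneg_left hNi' (by positivity : 0 ≤ δ' ^ 2 * ε ^ 2)]
      have h3 : ∫ p, |FI i v p ^ 2 - 1| ∂(P2 V) ≤ (3 / ε + 1) * δ' := by
        have hm2 : Measurable (fun p => |FI i v p ^ 2 - 1|) :=
          (((hFIm i v).pow_const 2).sub measurable_const).abs
        have hb2 : ∀ p, |(|FI i v p ^ 2 - 1|)| ≤ C ^ 2 + 1 := fun p => by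
          rw [abs_abs]
          refine (abs_sub _ _).trans (add_le_add ?_ (by simp))
          rw [abs_pow]; exact pow_le_pow_left₀ (abs_nonneg _) (hFIb i v p) 2
        rw [integral_P2 hm2 hb2]
        have hpt : ∀ᵐ t ∂(iidUniform V), ∫ g, |FI i v (t, g) ^ 2 - 1| ∂(iidUniform (V × ℕ)) ≤
            (3 / ε + 1) * δ' := by
          filter_upwards [ae_inj (V := V)] with t ht
          have hmt : Measurable (fun g => |FF μ ε i.1 i.2 v t g ^ 2 - 1|) :=
            (((measurable_FF_right μ ε i.1 i.2 v t).pow_const 2).sub measurable_const).abs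
          show ∫ g, |FF μ ε i.1 i.2 v t g ^ 2 - 1| ∂(iidUniform (V × ℕ)) ≤ _
          rw [integral_transfer (μ := μ) hε ht i.1 i.2 hmt]
          have e1 : ∀ u, |FF μ ε i.1 i.2 v t (innov μ ε t (i.1 ×ˢ Finset.range i.2) u) ^ 2 - 1| =
              |hat ε i.2 v u ^ 2 - 1| := fun u => by
            rw [FF_innov h i.1 le_rfl hvi t u]
          rw [integral_congr_ae (Eventually.of_forall e1)]
          exact law_hat_sq μ he h.eps_le hNi0
            (fun j hj => Finset.mem_product.2 ⟨hvi, Finset.mem_range.2 hj⟩) hδ'0 hδN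
        calc ∫ t, ∫ g, |FI i v (t, g) ^ 2 - 1| ∂(iidUniform (V × ℕ)) ∂(iidUniform V)
            ≤ ∫ t, (3 / ε + 1) * δ' ∂(iidUniform V) :=
              integral_mono_of_nonneg (Eventually.of_forall fun t =>
                integral_nonneg fun g => abs_nonneg _) (integrable_const _) hpt
          _ = (3 / ε + 1) * δ' := by simp
      have i1 : Integrable (fun p => |FI i v p - Φ v p|) (P2 V) :=
        ((integrable_of_bdd (hFIm i v) (hFIb i v)).sub (integrable_of_bdd (hΦm v) (hΦb v))).abs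
      have i2 : Integrable (fun p => |FI i v p ^ 2 - 1|) (P2 V) :=
        integrable_of_bdd (C := C ^ 2 + 1)
          (((hFIm i v).pow_const 2).sub measurable_const).abs fun p => by
          rw [abs_abs]
          refine (abs_sub _ _).trans (add_le_add ?_ (by simp))
          rw [abs_pow]; exact pow_le_pow_left₀ (abs_nonneg _) (hFIb i v p) 2
      calc ∫ p, |Φ v p ^ 2 - 1| ∂(P2 V)
          ≤ ∫ p, (2 * C * |FI i v p - Φ v p| + |FI i v p ^ 2 - 1|) ∂(P2 V) := by
            refine integral_mono_of_nonneg (Eventually.of_forall fun p => abs_nonneg _)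
              ((i1.const_mul _).add i2) (Eventually.of_forall fun p => ?_)
            simp only
            have e : Φ v p ^ 2 - 1 = -((FI i v p + Φ v p) * (FI i v p - Φ v p)) +
              (FI i v p ^ 2 - 1) := by ring
            rw [e]
            refine (abs_add_le _ _).trans (add_le_add ?_ le_rfl)
            rw [abs_neg, abs_mul]
            refine mul_le_mul_of_nonneg_right ?_ (abs_nonneg _)
            refine (abs_add_le _ _).trans ?_
            linarith [hFIb i v p, hΦb v p]
        _ = 2 * C * ∫ p, |FI i v p - Φ v p| ∂(P2 V) + ∫ p, |FI i v p ^ 2 - 1| ∂(P2 V) := by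
            rw [integral_add (i1.const_mul _) i2, integral_const_mul]
        _ ≤ 2 * C * (δ / (4 * C)) + (C + 1) * δ' := by
            have := mul_le_mul_of_nonneg_left hi1.le (by positivity : 0 ≤ 2 * C)
            linarith
        _ = δ := by rw [hδ']; field_simp; ring
    have hzero : ∫ p, |Φ v p ^ 2 - 1| ∂(P2 V) = 0 :=
      le_antisymm (le_of_forall_pos_le_add fun δ hδ => by simpa using key δ hδ)
        (integral_nonneg fun p => abs_nonneg _)
    rw [integral_eq_zero_iff_of_nonneg (fun p => abs_nonneg _)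
      (integrable_of_bdd hm1 hb1)] at hzero
    filter_upwards [hzero] with p hp
    have : |Φ v p ^ 2 - 1| = 0 := hp
    linarith [abs_eq_zero.1 this]
  -- the Boolean field
  set Ψ : (V → unitInterval) × (V × ℕ → unitInterval) → (V → Bool) :=
    fun p v => decide (0 < Φ v p) with hΨ
  have hΨm : Measurable Ψ := by
    refine measurable_pi_lambda _ fun v => ?_
    have e : (fun p => Ψ p v) = fun p => if 0 < Φ v p then true else false := by
      ext p; by_cases h0 : 0 < Φ v p <;> simp [hΨ, h0]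
    rw [e]
    exact Measurable.ite (measurableSet_lt measurable_const (hΦm v)) measurable_const
      measurable_const
  have hspin : ∀ v, ∀ᵐ p ∂(P2 V), spin (Ψ p v) = Φ v p := by
    intro v
    filter_upwards [hsq v] with p hp
    have : (Φ v p - 1) * (Φ v p + 1) = 0 := by nlinarith
    rcases mul_eq_zero.1 this with h1 | h1
    · have : Φ v p = 1 := by linarith
      simp [hΨ, spin, this]
    · have : Φ v p = -1 := by linarith
      simp only [hΨ, spin, this]
      norm_num
  refine ⟨Ψ, hΨm, ?_, ?_⟩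
  · -- law
    have hprob : IsProbabilityMeasure ((P2 V).map Ψ) :=
      Measure.isProbabilityMeasure_map hΨm.aemeasurable
    refine hext _ hprob fun Fs η => ?_
    set A := {s : V → Bool | ∀ v ∈ Fs, s v = η v} with hA
    have hAm : MeasurableSet A := by
      have : A = ⋂ v ∈ Fs, (fun τ : V → Bool => τ v) ⁻¹' {η v} := by
        ext τ; simp [hA]
      rw [this]
      exact Finset.measurableSet_biInter _ fun v _ =>
        measurable_pi_apply v (measurableSet_singleton _)
    set a : Finset V × ℕ → V → (V → unitInterval) × (V × ℕ → unitInterval) → ℝ :=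
      fun i v p => (1 + spin (η v) * FI i v p) / 2 with ha
    set b : V → (V → unitInterval) × (V × ℕ → unitInterval) → ℝ :=
      fun v p => (1 + spin (η v) * Φ v p) / 2 with hb
    have ham : ∀ i v, Measurable (a i v) := fun i v =>
      (measurable_const.add ((hFIm i v).const_mul _)).div_const _
    have hbm : ∀ v, Measurable (b v) := fun v =>
      (measurable_const.add ((hΦm v).const_mul _)).div_const _
    have haC : ∀ i v p, |a i v p| ≤ 1 + C := by
      intro i v p
      rw [ha]; simp only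
      rw [abs_div, abs_two]
      have h1 : |1 + spin (η v) * FI i v p| ≤ 1 + C := by
        refine (abs_add_le _ _).trans ?_
        rw [abs_one, abs_mul, abs_spin, one_mul]
        linarith [hFIb i v p]
      linarith
    have hbC : ∀ v p, |b v p| ≤ 1 + C := by
      intro v p
      rw [hb]; simp only
      rw [abs_div, abs_two]
      have h1 : |1 + spin (η v) * Φ v p| ≤ 1 + C := by
        refine (abs_add_le _ _).trans ?_
        rw [abs_one, abs_mul, abs_spin, one_mul]
        linarith [hΦb v p]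
      linarith
    have hlim : ∀ v ∈ Fs, Tendsto (fun i => ∫ p, |a i v p - b v p| ∂(P2 V)) atTop (𝓝 0) := by
      intro v _
      have e : ∀ i, ∫ p, |a i v p - b v p| ∂(P2 V) =
          1 / 2 * ∫ p, |FI i v p - Φ v p| ∂(P2 V) := by
        intro i
        rw [← integral_const_mul]
        congr 1; ext p
        rw [ha, hb]; simp only
        have : (1 + spin (η v) * FI i v p) / 2 - (1 + spin (η v) * Φ v p) / 2 =
          spin (η v) * (FI i v p - Φ v p) / 2 := by ring
        rw [this, abs_div, abs_mul, abs_spin, abs_two]; ring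
      simp_rw [e]
      have h9 := (hΦlim v).const_mul (1 / 2 : ℝ)
      rw [mul_zero] at h9
      exact h9
    have hprodlim := prod_tendsto (P := P2 V) Fs a b ham hbm haC hbC hlim
    have hmA : ∀ i, Measurable (fun p => ∏ v ∈ Fs, a i v p) := fun i =>
      Finset.measurable_fun_prod _ fun w _ => ham i w
    have hmB : Measurable (fun p => ∏ v ∈ Fs, b v p) :=
      Finset.measurable_fun_prod _ fun w _ => hbm w
    have hbA : ∀ i p, |∏ v ∈ Fs, a i v p| ≤ (1 + C) ^ Fs.card := fun i p => by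
      rw [Finset.abs_prod, ← Finset.prod_const]
      exact Finset.prod_le_prod (fun _ _ => abs_nonneg _) fun w _ => haC i w p
    have hbB : ∀ p, |∏ v ∈ Fs, b v p| ≤ (1 + C) ^ Fs.card := fun p => by
      rw [Finset.abs_prod, ← Finset.prod_const]
      exact Finset.prod_le_prod (fun _ _ => abs_nonneg _) fun w _ => hbC w p
    have hval : ∀ i : Finset V × ℕ, (Fs, 1) ≤ i →
        ∫ p, ∏ v ∈ Fs, a i v p ∂(P2 V) = μ.real A := by
      intro i hi
      have hFi : Fs ⊆ i.1 := hi.1
      have hNi : 0 < i.2 := hi.2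
      rw [integral_P2 (hmA i) (hbA i)]
      have hpt : ∀ᵐ t ∂(iidUniform V), ∫ g, ∏ v ∈ Fs, a i v (t, g) ∂(iidUniform (V × ℕ)) =
          μ.real A := by
        filter_upwards [ae_inj (V := V)] with t ht
        have hmt : Measurable (fun g => ∏ v ∈ Fs, (1 + spin (η v) * FF μ ε i.1 i.2 v t g) / 2) :=
          Finset.measurable_fun_prod _ fun w _ =>
            (measurable_const.add ((measurable_FF_right μ ε i.1 i.2 w t).const_mul _)).div_const _
        show ∫ g, ∏ v ∈ Fs, (1 + spin (η v) * FF μ ε i.1 i.2 v t g) / 2 ∂(iidUniform (V × ℕ)) = _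
        rw [integral_transfer (μ := μ) hε ht i.1 i.2 hmt]
        have e1 : ∀ u, ∏ v ∈ Fs, (1 + spin (η v) *
            FF μ ε i.1 i.2 v t (innov μ ε t (i.1 ×ˢ Finset.range i.2) u)) / 2 =
            cyl ε i.2 Fs η u := fun u => by
          unfold cyl
          refine Finset.prod_congr rfl fun v hv => ?_
          rw [FF_innov h i.1 le_rfl (hFi hv) t u]
        rw [integral_congr_ae (Eventually.of_forall e1)]
        exact law_cyl μ he h.eps_le hNi Fs (fun v hv j hj =>
          Finset.mem_product.2 ⟨hFi hv, Finset.mem_range.2 hj⟩) η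
      rw [integral_congr_ae hpt]
      simp
    have hJ : ∫ p, ∏ v ∈ Fs, b v p ∂(P2 V) = μ.real A := by
      have h1 : Tendsto (fun i => ∫ p, ∏ v ∈ Fs, a i v p ∂(P2 V)) atTop
          (𝓝 (∫ p, ∏ v ∈ Fs, b v p ∂(P2 V))) := by
        rw [tendsto_iff_norm_sub_tendsto_zero]
        refine squeeze_zero (fun i => norm_nonneg _) (fun i => ?_) hprodlim
        rw [← integral_sub (integrable_of_bdd (hmA i) (hbA i)) (integrable_of_bdd hmB hbB)]
        exact abs_integral_le_integral_abs
      have h2 : Tendsto (fun i : Finset V × ℕ => ∫ p, ∏ v ∈ Fs, a i v p ∂(P2 V)) atTop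
          (𝓝 (μ.real A)) := by
        refine tendsto_const_nhds.congr' ?_
        filter_upwards [eventually_ge_atTop (Fs, 1)] with i hi
        exact (hval i hi).symm
      exact tendsto_nhds_unique h1 h2
    have hK : ((P2 V).map Ψ).real A = ∫ p, ∏ v ∈ Fs, b v p ∂(P2 V) := by
      have h1 : ((P2 V).map Ψ).real A = ∫ s, A.indicator (fun _ => (1:ℝ)) s ∂((P2 V).map Ψ) := by
        rw [integral_indicator hAm]; simp
      rw [h1, integral_map hΨm.aemeasurable
        (measurable_const.indicator hAm).aestronglyMeasurable]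
      refine integral_congr_ae ?_
      have h2 : ∀ᵐ p ∂(P2 V), ∀ v ∈ Fs, spin (Ψ p v) = Φ v p := by
        rw [Fs.eventually_all]
        intro v _; exact hspin v
      filter_upwards [h2] with p hp
      rw [← prod_indicator Fs η (Ψ p)]
      refine Finset.prod_congr rfl fun v hv => ?_
      rw [hp v hv]
    have hfin := hK.trans hJ
    rw [measureReal_def, measureReal_def] at hfin
    exact (ENNReal.toReal_eq_toReal_iff' (measure_ne_top _ _) (measure_ne_top _ _)).1 hfin
  · -- equivariance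
    intro γ hγ
    have hmp := mp_P2 (V := V) γ
    set T : (V → unitInterval) × (V × ℕ → unitInterval) →
      (V → unitInterval) × (V × ℕ → unitInterval) := fun p => (act γ p.1, actE γ p.2) with hT
    have hTm : Measurable T := hmp.measurable
    have hone : ∀ v, ∀ᵐ p ∂(P2 V), Φ (γ v) (T p) = Φ v p := by
      intro v
      set gi : Finset V × ℕ → Finset V × ℕ := fun i => (i.1.map γ.toEmbedding, i.2) with hgi
      have hgt : Tendsto gi atTop atTop := by
        rw [tendsto_atTop_atTop]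
        intro b
        refine ⟨(b.1.map γ.symm.toEmbedding, b.2), ?_⟩
        rintro i ⟨h1, h2⟩
        refine ⟨?_, h2⟩
        intro w hw
        rw [hgi]; simp only
        rw [Finset.mem_map]
        exact ⟨γ.symm w, h1 (Finset.mem_map.2 ⟨w, hw, rfl⟩), by simp⟩
      have hFF : ∀ i p, FI (gi i) (γ v) (T p) = FI i v p := fun i p =>
        FF_act γ hγ ε i.1 i.2 v p.1 p.2
      have l1 : Tendsto (fun i => ∫ p, |FI (gi i) (γ v) p - Φ (γ v) p| ∂(P2 V)) atTop (𝓝 0) :=
        (hΦlim (γ v)).comp hgt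
      have l2 := hΦlim v
      have l3 := l1.add l2
      rw [add_zero] at l3
      have hmd : Measurable (fun p => |Φ (γ v) (T p) - Φ v p|) :=
        (((hΦm (γ v)).comp hTm).sub (hΦm v)).abs
      have hle : ∀ i, ∫ p, |Φ (γ v) (T p) - Φ v p| ∂(P2 V) ≤
          ∫ p, |FI (gi i) (γ v) p - Φ (γ v) p| ∂(P2 V) + ∫ p, |FI i v p - Φ v p| ∂(P2 V) := by
        intro i
        have e1 : ∫ p, |FI (gi i) (γ v) p - Φ (γ v) p| ∂(P2 V) =
            ∫ p, |Φ (γ v) (T p) - FI i v p| ∂(P2 V) := by
          have hm1 : Measurable (fun p => |FI (gi i) (γ v) p - Φ (γ v) p|) :=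
            ((hFIm _ _).sub (hΦm _)).abs
          have h5 := integral_map (μ := P2 V) hTm.aemeasurable
            (f := fun p => |FI (gi i) (γ v) p - Φ (γ v) p|)
            (by rw [hmp.map_eq]; exact hm1.aestronglyMeasurable)
          rw [hmp.map_eq] at h5
          rw [h5]
          refine integral_congr_ae (Eventually.of_forall fun p => ?_)
          simp only
          rw [hFF, abs_sub_comm]
        rw [e1]
        exact l1_triangle ((hΦm (γ v)).comp hTm) (hFIm i v) (hΦm v)
          (fun p => hΦb (γ v) (T p)) (hFIb i v) (hΦb v)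
      have hzero : ∫ p, |Φ (γ v) (T p) - Φ v p| ∂(P2 V) = 0 :=
        le_antisymm (ge_of_tendsto' l3 hle) (integral_nonneg fun p => abs_nonneg _)
      rw [integral_eq_zero_iff_of_nonneg (fun p => abs_nonneg _)
        (integrable_of_bdd (C := C + C) hmd fun p => by
          rw [abs_abs]
          exact (abs_sub _ _).trans (add_le_add (hΦb _ _) (hΦb _ _)))] at hzero
      filter_upwards [hzero] with p hp
      have : |Φ (γ v) (T p) - Φ v p| = 0 := hp
      linarith [abs_eq_zero.1 this]
    have hall : ∀ᵐ p ∂(P2 V), ∀ v, Φ (γ v) (T p) = Φ v p := ae_all_iff.2 hone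
    filter_upwards [hall] with p hp
    ext w
    obtain ⟨v, rfl⟩ := γ.surjective w
    show decide (0 < Φ (γ v) (T p)) = act γ (Ψ p) (γ v)
    rw [hp v]
    simp [act, hΨ]

end Vale.Agent.P161
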