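import Vale.Agent.P161.Limit
import Vale.Agent.P161.Glue

/-! The free Ising state is a factor of IID below the reconstruction threshold. -/

open MeasureTheory Set Filter

namespace Vale.Agent.P161

theorem main {V : Type*} (d : ℕ) (hd : 3 ≤ d) (β : ℝ) (hβ : 0 ≤ β)
    (hθ : Real.tanh β < 1 / √((d : ℝ) - 1)) (G : SimpleGraph V) [G.LocallyFinite]
    (hT : G.IsTree) (hreg : G.IsRegularOfDegree d) (μ : Measure (V → Bool))
    (hμ : IsFreeIsing G β μ) : IsFactorOfIID G μ := by
  classical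
  have hc : Countable V := B1 G hT.connected
  have := hμ.prob
  have hd1 : (0:ℝ) < (d : ℝ) - 1 := by
    have : (3:ℝ) ≤ d := by exact_mod_cast hd
    linarith
  have hs : 0 < √((d : ℝ) - 1) := Real.sqrt_pos.2 hd1
  have hθ0 : 0 ≤ Real.tanh β := Tree.tanh_nonneg' hβ
  obtain ⟨ρ, hρ1, hρ2⟩ := exists_between hθ
  have hρ0 : 0 ≤ ρ := hθ0.trans hρ1.le
  have hρ : ((d : ℝ) - 1) * ρ ^ 2 < 1 := by
    have h1 : ρ * √((d : ℝ) - 1) < 1 := by
      rwa [lt_div_iff₀ hs] at hρ2
    have h2 : ((d : ℝ) - 1) * ρ ^ 2 = (ρ * √((d : ℝ) - 1)) ^ 2 := by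
      rw [mul_pow, Real.sq_sqrt hd1.le]; ring
    rw [h2]
    exact pow_lt_one₀ (by positivity) h1 (by norm_num)
  obtain ⟨M, hM⟩ := B2 d hd G hT hreg (Real.tanh β) ρ hθ0 hρ1 hρ
  have hsum := B3 d hd G hT hreg ρ hρ0 hρ
  set ε : ℝ := 1 / (6 * (|M| + 1)) with hε
  have hM0 : 0 < 6 * (|M| + 1) := by positivity
  have hε0 : 0 < ε := by positivity
  have hε1 : ε ≤ 1 / 6 := by
    rw [hε]
    refine one_div_le_one_div_of_le (by norm_num) ?_
    linarith [abs_nonneg M]
  have hgood : Good μ ε (fun v w => Real.tanh β ^ G.dist v w) (fun v w => ρ ^ G.dist v w) M :=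
    { eps_pos := hε0
      eps_le := by linarith
      lip := fun Q v u u' => mg_lip G hT β hβ μ hμ hε0 (by linarith) Q v u u'
      κ_nonneg := fun v w => by positivity
      ρ_nonneg := fun v w => by positivity
      ρ_self := fun v => by simp
      kernel := fun D v w => hM D v w
      small := by
        have h1 : ε * (6 * (|M| + 1)) = 1 := by rw [hε]; field_simp
        have h2 : 6 * ε ^ 2 * M ≤ ε * (ε * (6 * (|M| + 1))) := by
          have : M ≤ |M| + 1 := by linarith [le_abs_self M]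
          have h3 := mul_le_mul_of_nonneg_left this (by positivity : 0 ≤ 6 * ε ^ 2)
          linarith [h3]
        rw [h1] at h2
        linarith
      summ := fun v => hsum v }
  obtain ⟨Ψ, hΨm, hΨlaw, hΨeq⟩ := abstract_factor hgood (fun ν hν h => by
    exact ext_cyl (μ := ν) (ν := μ) h)
  obtain ⟨T1, T2, hT1, hT2, hlaw, hequiv⟩ := exists_split (V := V)
  have hTm : Measurable (fun U => (T1 U, T2 U)) := hT1.prodMk hT2
  refine ⟨fun U => Ψ (T1 U, T2 U), hΨm.comp hTm, ?_, fun g => ?_⟩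
  · have h1 : (iidUniform V).map (fun U => Ψ (T1 U, T2 U)) =
        ((iidUniform V).map (fun U => (T1 U, T2 U))).map Ψ :=
      (Measure.map_map hΨm hTm).symm
    rw [h1, hlaw]
    exact hΨlaw
  · have hg := B5 G hT β hβ μ hμ g
    have h1 := hΨeq g.toEquiv hg
    have h2 : (P2 V) = (iidUniform V).map (fun U => (T1 U, T2 U)) := hlaw.symm
    rw [h2] at h1
    have h3 := ae_of_ae_map hTm.aemeasurable h1
    filter_upwards [h3] with U hU
    have h4 := hequiv g.toEquiv U
    have h5 : Ψ (T1 (act g.toEquiv U), T2 (act g.toEquiv U)) = act g.toEquiv (Ψ (T1 U, T2 U)) := by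
      rw [h4.1, h4.2]; exact hU
    exact h5

end Vale.Agent.P161
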