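import Vale.Agent.P161.Stab

/-! Moments of the estimators under the observation law. -/

open MeasureTheory Set

namespace Vale.Agent.P161

variable {V : Type*} [DecidableEq V]

section fixedtau

variable {E : Type*} [DecidableEq E] {c : E → ℝ} (hc : ∀ f, |c f| ≤ 1 / 2)

include hc

lemma integral_pw_erase {S : Finset E} {e : E} (he : e ∈ S)
    {h : (E → unitInterval) → ℝ} (hm : Measurable h) {C : ℝ} (hC : ∀ g, |h g| ≤ C)
    (hi : IndepOf {e} h) :
    ∫ u, pw c S u * h u ∂(iidUniform E) = ∫ u, pw c (S.erase e) u * h u ∂(iidUniform E) := by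
  have h1 := integral_pw_mul hc (Finset.notMem_erase e S) hm hC hi (k := fun _ => 1)
    measurable_const (K := 1) (fun _ => by simp)
  rw [Finset.insert_erase he] at h1
  simp only [mul_one] at h1
  rw [integral_chan, one_mul] at h1
  exact h1

lemma integral_pw_y {S : Finset E} {e : E} (he : e ∈ S)
    {h : (E → unitInterval) → ℝ} (hm : Measurable h) {C : ℝ} (hC : ∀ g, |h g| ≤ C)
    (hi : IndepOf {e} h) :
    ∫ u, pw c S u * h u * (2 * (u e : ℝ) - 1) ∂(iidUniform E) =
      c e / 3 * ∫ u, pw c S u * h u ∂(iidUniform E) := by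
  have h1 := integral_pw_mul hc (Finset.notMem_erase e S) hm hC hi (k := fun x => x)
    measurable_id (K := 1) abs_y_le
  rw [Finset.insert_erase he, integral_chan1] at h1
  rw [h1, integral_pw_erase hc he hm hC hi]

lemma integral_pw_one (S : Finset E) : ∫ u, pw c S u ∂(iidUniform E) = 1 := by
  induction S using Finset.induction_on with
  | empty => simp [pw]
  | insert e S he ih =>
    have h1 := integral_pw_mul hc he (h := fun _ => 1) measurable_const (C := 1) (fun _ => by simp)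
      (fun _ _ _ => rfl) (k := fun _ => 1) measurable_const (K := 1) (fun _ => by simp)
    simp only [mul_one] at h1
    rw [h1, integral_chan, ih, mul_one]

lemma integral_pw_y2 {S : Finset E} {e : E} (he : e ∈ S) :
    ∫ u, pw c S u * (2 * (u e : ℝ) - 1) ^ 2 ∂(iidUniform E) = 1 / 3 := by
  have h1 := integral_pw_mul hc (Finset.notMem_erase e S) (h := fun _ => 1) measurable_const
    (C := 1) (fun _ => by simp) (fun _ _ _ => rfl) (k := fun x => x ^ 2)
    (by fun_prop) (K := 1) (fun r => by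
      rw [abs_pow]; exact pow_le_one₀ (abs_nonneg _) (abs_y_le r))
  simp only [mul_one] at h1
  rw [Finset.insert_erase he, integral_chan2, integral_pw_one hc] at h1
  rw [h1, mul_one]

end fixedtau

section hat

variable {ε : ℝ} (hε0 : 0 < ε) (hε : ε ≤ 1 / 2)

omit [DecidableEq V] in
lemma measurable_hat (ε : ℝ) (N : ℕ) (v : V) : Measurable (hat ε N v) := by
  unfold hat
  refine Measurable.const_mul (Finset.measurable_fun_sum _ fun j _ => ?_) _
  have : Measurable (fun u : V × ℕ → unitInterval => u (v, j)) := measurable_pi_apply _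
  fun_prop

include hε0

omit [DecidableEq V] in
lemma hat_le' (N : ℕ) (v : V) (u : V × ℕ → unitInterval) :
    |hat ε N v u| ≤ 3 / ε := by
  unfold hat
  rcases Nat.eq_zero_or_pos N with rfl | hN
  · simpa using (div_pos (by norm_num : (0:ℝ) < 3) hε0).le
  have hN' : (0:ℝ) < N := by exact_mod_cast hN
  have hεN : 0 < ε * N := mul_pos hε0 hN'
  rw [abs_mul, abs_of_pos (div_pos (by norm_num) hεN)]
  have h1 : |∑ j ∈ Finset.range N, (2 * (u (v, j) : ℝ) - 1)| ≤ N := by
    refine (Finset.abs_sum_le_sum_abs _ _).trans ?_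
    calc ∑ j ∈ Finset.range N, |2 * (u (v, j) : ℝ) - 1| ≤ ∑ j ∈ Finset.range N, (1:ℝ) :=
          Finset.sum_le_sum fun j _ => abs_y_le _
      _ = N := by simp
  calc 3 / (ε * N) * _ ≤ 3 / (ε * N) * N := mul_le_mul_of_nonneg_left h1 (by positivity)
    _ = 3 / ε := by field_simp

include hε

omit [DecidableEq V] in
lemma abs_eps_spin' (b : Bool) : |ε * spin b| ≤ 1 / 2 :=
  abs_eps_spin (by rw [abs_of_pos hε0]; exact hε) b

lemma hat_var (τ : V → Bool) {S : Finset (V × ℕ)} {v : V} {N : ℕ} (hN : 0 < N)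
    (hS : ∀ j < N, (v, j) ∈ S) :
    ∫ u, wt ε τ S u * (hat ε N v u - spin (τ v)) ^ 2 ∂(iidUniform (V × ℕ)) ≤
      3 / (ε ^ 2 * N) := by
  have hc : ∀ f : V × ℕ, |(fun f : V × ℕ => ε * spin (τ f.1)) f| ≤ 1 / 2 :=
    fun f => abs_eps_spin' hε0 hε _
  set c : V × ℕ → ℝ := fun f : V × ℕ => ε * spin (τ f.1) with hcdef
  set s := spin (τ v) with hs
  have hs2 : s * s = 1 := spin_mul_self _
  have habs : |s| = 1 := abs_spin _
  set ζ : ℕ → (V × ℕ → unitInterval) → ℝ := fun j u => 3 / ε * (2 * (u (v, j) : ℝ) - 1) - s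
    with hζ
  have hζm : ∀ j, Measurable (ζ j) := by
    intro j
    have : Measurable (fun u : V × ℕ → unitInterval => u (v, j)) := measurable_pi_apply _
    rw [hζ]; fun_prop
  have hζb : ∀ j u, |ζ j u| ≤ 3 / ε + 1 := by
    intro j u
    rw [hζ]
    refine (abs_sub _ _).trans (add_le_add ?_ habs.le)
    rw [abs_mul, abs_of_pos (by positivity : 0 < 3 / ε)]
    calc 3 / ε * |2 * (u (v, j) : ℝ) - 1| ≤ 3 / ε * 1 :=
          mul_le_mul_of_nonneg_left (abs_y_le _) (by positivity)
      _ = _ := mul_one _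
  have hN' : (0:ℝ) < N := by exact_mod_cast hN
  have hdec : ∀ u, hat ε N v u - s = (1 / N) * ∑ j ∈ Finset.range N, ζ j u := by
    intro u
    rw [hζ]
    simp only [Finset.sum_sub_distrib, Finset.sum_const, Finset.card_range, nsmul_eq_mul]
    unfold hat
    rw [← Finset.mul_sum]
    field_simp
  have hpw : Measurable (pw c S) := measurable_pw c S
  have hint : ∀ j k, Integrable (fun u => pw c S u * (ζ j u * ζ k u)) (iidUniform (V × ℕ)) := by
    intro j k
    refine integrable_of_bdd (C := 2 ^ S.card * ((3 / ε + 1) * (3 / ε + 1)))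
      (hpw.mul ((hζm j).mul (hζm k))) fun u => ?_
    rw [abs_mul, abs_mul]
    exact mul_le_mul (pw_le hc S u) (mul_le_mul (hζb j u) (hζb k u) (abs_nonneg _)
      (by positivity)) (by positivity) (by positivity)
  have hoff : ∀ j ∈ Finset.range N, ∀ k ∈ Finset.range N, j ≠ k →
      ∫ u, pw c S u * (ζ j u * ζ k u) ∂(iidUniform (V × ℕ)) = 0 := by
    intro j hj k hk hjk
    have hi : IndepOf {(v, j)} (ζ k) := by
      intro g g' hg
      rw [hζ]
      simp only
      rw [hg (v, k) (by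
        rw [Finset.mem_singleton]; intro h; exact hjk (Prod.mk.inj h).2.symm)]
    have h1 := integral_pw_y hc (hS j (Finset.mem_range.1 hj)) (hζm k) (hζb k) hi
    have h2 : ∀ u, pw c S u * (ζ j u * ζ k u) =
        3 / ε * (pw c S u * ζ k u * (2 * (u (v, j) : ℝ) - 1)) - s * (pw c S u * ζ k u) := by
      intro u; rw [hζ]; ring
    have i1 : Integrable (fun u => pw c S u * ζ k u) (iidUniform (V × ℕ)) := by
      refine integrable_of_bdd (C := 2 ^ S.card * (3 / ε + 1)) (hpw.mul (hζm k)) fun u => ?_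
      rw [abs_mul]
      exact mul_le_mul (pw_le hc S u) (hζb k u) (abs_nonneg _) (by positivity)
    have i2 : Integrable (fun u => pw c S u * ζ k u * (2 * (u (v, j) : ℝ) - 1))
        (iidUniform (V × ℕ)) := by
      have hy : Measurable (fun u : V × ℕ → unitInterval => (2 * (u (v, j) : ℝ) - 1)) := by
        have : Measurable (fun u : V × ℕ → unitInterval => u (v, j)) := measurable_pi_apply _
        fun_prop
      refine integrable_of_bdd (C := 2 ^ S.card * (3 / ε + 1) * 1) ((hpw.mul (hζm k)).mul hy)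
        fun u => ?_
      rw [abs_mul, abs_mul]
      exact mul_le_mul (mul_le_mul (pw_le hc S u) (hζb k u) (abs_nonneg _) (by positivity))
        (abs_y_le _) (abs_nonneg _) (by positivity)
    simp_rw [h2]
    rw [integral_sub (i2.const_mul _) (i1.const_mul _), integral_const_mul, integral_const_mul, h1]
    rw [hcdef]
    simp only
    rw [← hs]
    field_simp
    ring
  have hdiag : ∀ j ∈ Finset.range N,
      ∫ u, pw c S u * (ζ j u * ζ j u) ∂(iidUniform (V × ℕ)) ≤ 3 / ε ^ 2 := by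
    intro j hj
    have hS' := hS j (Finset.mem_range.1 hj)
    have h1 := integral_pw_y hc hS' (h := fun _ => 1) measurable_const (C := 1) (fun _ => by simp)
      (fun _ _ _ => rfl)
    simp only [mul_one] at h1
    rw [integral_pw_one hc] at h1
    have h2 := integral_pw_y2 hc hS'
    have h0 := integral_pw_one hc S
    have h3 : ∀ u, pw c S u * (ζ j u * ζ j u) =
        9 / ε ^ 2 * (pw c S u * (2 * (u (v, j) : ℝ) - 1) ^ 2) -
        (6 * s / ε * (pw c S u * (2 * (u (v, j) : ℝ) - 1)) - pw c S u) := by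
      intro u; rw [hζ]
      simp only
      have : (3 / ε * (2 * (u (v, j) : ℝ) - 1) - s) * (3 / ε * (2 * (u (v, j) : ℝ) - 1) - s) =
        9 / ε ^ 2 * (2 * (u (v, j) : ℝ) - 1) ^ 2 - 6 * s / ε * (2 * (u (v, j) : ℝ) - 1) + s * s := by
        field_simp; ring
      rw [this, hs2]; ring
    have hy : Measurable (fun u : V × ℕ → unitInterval => (2 * (u (v, j) : ℝ) - 1)) := by
      have : Measurable (fun u : V × ℕ → unitInterval => u (v, j)) := measurable_pi_apply _
      fun_prop
    have i0 : Integrable (fun u => pw c S u) (iidUniform (V × ℕ)) :=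
      integrable_of_bdd hpw (pw_le hc S)
    have i1 : Integrable (fun u => pw c S u * (2 * (u (v, j) : ℝ) - 1)) (iidUniform (V × ℕ)) := by
      refine integrable_of_bdd (C := 2 ^ S.card * 1) (hpw.mul hy) fun u => ?_
      rw [abs_mul]
      exact mul_le_mul (pw_le hc S u) (abs_y_le _) (abs_nonneg _) (by positivity)
    have i2 : Integrable (fun u => pw c S u * (2 * (u (v, j) : ℝ) - 1) ^ 2)
        (iidUniform (V × ℕ)) := by
      refine integrable_of_bdd (C := 2 ^ S.card * 1) (hpw.mul (hy.pow_const 2)) fun u => ?_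
      rw [abs_mul]
      refine mul_le_mul (pw_le hc S u) ?_ (abs_nonneg _) (by positivity)
      rw [abs_pow]; exact pow_le_one₀ (abs_nonneg _) (abs_y_le _)
    simp_rw [h3]
    have e1 : ∫ u, (9 / ε ^ 2 * (pw c S u * (2 * (u (v, j) : ℝ) - 1) ^ 2) -
        (6 * s / ε * (pw c S u * (2 * (u (v, j) : ℝ) - 1)) - pw c S u)) ∂(iidUniform (V × ℕ)) =
        ∫ u, 9 / ε ^ 2 * (pw c S u * (2 * (u (v, j) : ℝ) - 1) ^ 2) ∂(iidUniform (V × ℕ)) -
        ∫ u, (6 * s / ε * (pw c S u * (2 * (u (v, j) : ℝ) - 1)) - pw c S u)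
          ∂(iidUniform (V × ℕ)) := integral_sub (i2.const_mul _) ((i1.const_mul _).sub i0)
    have e2 : ∫ u, (6 * s / ε * (pw c S u * (2 * (u (v, j) : ℝ) - 1)) - pw c S u)
          ∂(iidUniform (V × ℕ)) =
        ∫ u, 6 * s / ε * (pw c S u * (2 * (u (v, j) : ℝ) - 1)) ∂(iidUniform (V × ℕ)) -
        ∫ u, pw c S u ∂(iidUniform (V × ℕ)) := integral_sub (i1.const_mul _) i0
    rw [e1, e2, integral_const_mul, integral_const_mul, h1, h2, h0, hcdef]
    simp only
    rw [← hs]
    have e3 : 9 / ε ^ 2 * (1 / 3) - (6 * s / ε * (ε * s / 3) - 1) =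
        3 / ε ^ 2 - 2 * (s * s) + 1 := by
      field_simp; ring
    rw [mul_one (ε * s / 3), e3, hs2]; linarith
  have hfin : ∫ u, wt ε τ S u * (hat ε N v u - s) ^ 2 ∂(iidUniform (V × ℕ)) =
      (1 / N) ^ 2 * ∑ j ∈ Finset.range N, ∑ k ∈ Finset.range N,
        ∫ u, pw c S u * (ζ j u * ζ k u) ∂(iidUniform (V × ℕ)) := by
    have : ∀ u, wt ε τ S u * (hat ε N v u - s) ^ 2 =
        (1 / N) ^ 2 * ∑ j ∈ Finset.range N, ∑ k ∈ Finset.range N, pw c S u * (ζ j u * ζ k u) := by
      intro u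
      rw [hdec u, mul_pow, sq (∑ j ∈ Finset.range N, ζ j u), Finset.sum_mul_sum]
      unfold wt
      rw [← hcdef]
      simp_rw [Finset.mul_sum]
      refine Finset.sum_congr rfl fun j _ => Finset.sum_congr rfl fun k _ => by ring
    simp_rw [this]
    rw [integral_const_mul, integral_finsetSum _ fun j _ =>
      integrable_finsetSum _ fun k _ => hint j k]
    congr 1
    refine Finset.sum_congr rfl fun j _ => ?_
    rw [integral_finsetSum _ fun k _ => hint j k]
  rw [hfin]
  have hrow : ∀ j ∈ Finset.range N, ∑ k ∈ Finset.range N,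
        ∫ u, pw c S u * (ζ j u * ζ k u) ∂(iidUniform (V × ℕ)) ≤ 3 / ε ^ 2 := by
    intro j hj
    rw [Finset.sum_eq_single j (fun k hk hkj => hoff j hj k hk hkj.symm) (fun h => absurd hj h)]
    exact hdiag j hj
  calc (1 / (N:ℝ)) ^ 2 * ∑ j ∈ Finset.range N, ∑ k ∈ Finset.range N,
        ∫ u, pw c S u * (ζ j u * ζ k u) ∂(iidUniform (V × ℕ))
      ≤ (1 / (N:ℝ)) ^ 2 * ∑ j ∈ Finset.range N, 3 / ε ^ 2 :=
        mul_le_mul_of_nonneg_left (Finset.sum_le_sum hrow) (by positivity)
    _ = 3 / (ε ^ 2 * N) := by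
        rw [Finset.sum_const, Finset.card_range, nsmul_eq_mul]
        field_simp

lemma hat_mean (τ : V → Bool) {S : Finset (V × ℕ)} {v : V} {N : ℕ} (hN : 0 < N)
    (hS : ∀ j < N, (v, j) ∈ S) {h : (V × ℕ → unitInterval) → ℝ} (hm : Measurable h) {C : ℝ}
    (hC : ∀ g, |h g| ≤ C) (hi : ∀ j < N, IndepOf {(v, j)} h) :
    ∫ u, wt ε τ S u * h u * hat ε N v u ∂(iidUniform (V × ℕ)) =
      spin (τ v) * ∫ u, wt ε τ S u * h u ∂(iidUniform (V × ℕ)) := by
  have hc : ∀ f : V × ℕ, |(fun f : V × ℕ => ε * spin (τ f.1)) f| ≤ 1 / 2 :=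
    fun f => abs_eps_spin' hε0 hε _
  have hN' : (0:ℝ) < N := by exact_mod_cast hN
  have h1 : ∀ u, wt ε τ S u * h u * hat ε N v u =
      3 / (ε * N) * ∑ j ∈ Finset.range N, (wt ε τ S u * h u * (2 * (u (v, j) : ℝ) - 1)) := by
    intro u; unfold hat
    rw [← Finset.mul_sum]; ring
  simp_rw [h1]
  rw [integral_const_mul, integral_finsetSum]
  · have h2 : ∀ j ∈ Finset.range N,
        ∫ u, wt ε τ S u * h u * (2 * (u (v, j) : ℝ) - 1) ∂(iidUniform (V × ℕ)) =
        ε * spin (τ v) / 3 * ∫ u, wt ε τ S u * h u ∂(iidUniform (V × ℕ)) := by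
      intro j hj
      exact integral_pw_y hc (hS j (Finset.mem_range.1 hj)) hm hC (hi j (Finset.mem_range.1 hj))
    rw [Finset.sum_congr rfl h2, Finset.sum_const, Finset.card_range, nsmul_eq_mul]
    field_simp
  · intro j _
    have hy : Measurable (fun u : V × ℕ → unitInterval => (2 * (u (v, j) : ℝ) - 1)) := by
      have : Measurable (fun u : V × ℕ → unitInterval => u (v, j)) := measurable_pi_apply _
      fun_prop
    have hC0 : 0 ≤ C := (abs_nonneg _).trans (hC (fun _ => 0))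
    refine integrable_of_bdd (C := 2 ^ S.card * C * 1)
      (((measurable_pw _ S).mul hm).mul hy) fun u => ?_
    rw [abs_mul, abs_mul]
    exact mul_le_mul (mul_le_mul (pw_le hc S u) (hC u) (abs_nonneg _) (by positivity))
      (abs_y_le _) (abs_nonneg _) (by positivity)

/-- cylinder polynomial -/
noncomputable def cyl (ε : ℝ) (N : ℕ) (Fs : Finset V) (η : V → Bool)
    (u : V × ℕ → unitInterval) : ℝ := ∏ v ∈ Fs, (1 + spin (η v) * hat ε N v u) / 2

omit [DecidableEq V] hε0 hε in
lemma measurable_cyl (ε : ℝ) (N : ℕ) (Fs : Finset V) (η : V → Bool) :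
    Measurable (cyl ε N Fs η) := by
  unfold cyl
  refine Finset.measurable_fun_prod _ fun v _ => ?_
  exact ((measurable_const.add ((measurable_hat ε N v).const_mul _)).div_const _)

omit [DecidableEq V] hε in
lemma cyl_le (N : ℕ) (Fs : Finset V) (η : V → Bool) (u : V × ℕ → unitInterval) :
    |cyl ε N Fs η u| ≤ (1 + 3 / ε) ^ Fs.card := by
  unfold cyl
  rw [Finset.abs_prod, ← Finset.prod_const]
  refine Finset.prod_le_prod (fun _ _ => abs_nonneg _) fun v _ => ?_
  rw [abs_div, abs_two]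
  have h1 : |1 + spin (η v) * hat ε N v u| ≤ 1 + 3 / ε := by
    refine (abs_add_le _ _).trans ?_
    rw [abs_one, abs_mul, abs_spin, one_mul]
    linarith [hat_le' hε0 N v u]
  have h2 : 0 ≤ 1 + 3 / ε := by positivity
  linarith

lemma cyl_mean (τ : V → Bool) {S : Finset (V × ℕ)} {N : ℕ} (hN : 0 < N) (Fs : Finset V)
    (hS : ∀ v ∈ Fs, ∀ j < N, (v, j) ∈ S) (η : V → Bool) :
    ∫ u, wt ε τ S u * cyl ε N Fs η u ∂(iidUniform (V × ℕ)) =
      ∏ v ∈ Fs, (1 + spin (η v) * spin (τ v)) / 2 := by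
  have hc : ∀ f : V × ℕ, |(fun f : V × ℕ => ε * spin (τ f.1)) f| ≤ 1 / 2 :=
    fun f => abs_eps_spin' hε0 hε _
  induction Fs using Finset.induction_on with
  | empty =>
    have : ∀ u, wt ε τ S u * cyl ε N ∅ η u = wt ε τ S u := by intro u; simp [cyl]
    simp_rw [this]
    rw [Finset.prod_empty]
    exact integral_pw_one hc S
  | insert v Fs hv ih =>
    have ih' := ih fun w hw => hS w (Finset.mem_insert_of_mem hw)
    have h1 : ∀ u, wt ε τ S u * cyl ε N (insert v Fs) η u =
        1 / 2 * (wt ε τ S u * cyl ε N Fs η u) +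
        spin (η v) / 2 * (wt ε τ S u * cyl ε N Fs η u * hat ε N v u) := by
      intro u
      unfold cyl
      rw [Finset.prod_insert hv]; ring
    have i1 : Integrable (fun u => wt ε τ S u * cyl ε N Fs η u) (iidUniform (V × ℕ)) := by
      refine integrable_of_bdd (C := 2 ^ S.card * (1 + 3 / ε) ^ Fs.card)
        ((measurable_pw _ S).mul (measurable_cyl ε N Fs η)) fun u => ?_
      rw [abs_mul]
      exact mul_le_mul (pw_le hc S u) (cyl_le hε0 N Fs η u) (abs_nonneg _) (by positivity)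
    have i2 : Integrable (fun u => wt ε τ S u * cyl ε N Fs η u * hat ε N v u)
        (iidUniform (V × ℕ)) := by
      refine integrable_of_bdd (C := 2 ^ S.card * (1 + 3 / ε) ^ Fs.card * (3 / ε))
        (((measurable_pw _ S).mul (measurable_cyl ε N Fs η)).mul (measurable_hat ε N v))
        fun u => ?_
      rw [abs_mul, abs_mul]
      exact mul_le_mul (mul_le_mul (pw_le hc S u) (cyl_le hε0 N Fs η u) (abs_nonneg _)
        (by positivity)) (hat_le' hε0 N v u) (abs_nonneg _) (by positivity)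
    simp_rw [h1]
    rw [integral_add (i1.const_mul _) (i2.const_mul _), integral_const_mul, integral_const_mul,
      hat_mean hε0 hε τ hN (hS v (Finset.mem_insert_self _ _)) (measurable_cyl ε N Fs η)
        (cyl_le hε0 N Fs η), ih', Finset.prod_insert hv]
    · ring
    · intro j _ g g' hg
      unfold cyl hat
      refine Finset.prod_congr rfl fun w hw => ?_
      have hwv : w ≠ v := fun h => hv (h ▸ hw)
      have : ∀ i, g (w, i) = g' (w, i) := fun i => hg (w, i) (by
        rw [Finset.mem_singleton]; intro h; exact hwv (Prod.mk.inj h).1)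
      simp only [this]

end hat

section law

variable (μ : Measure (V → Bool)) [IsProbabilityMeasure μ] {ε : ℝ} (hε0 : 0 < ε)
  (hε : ε ≤ 1 / 2)

include hε0 hε

/-- `L¹` distance of the estimator to the spin, in averaged form -/
lemma law_hat_le {S : Finset (V × ℕ)} {v : V} {N : ℕ} (hN : 0 < N)
    (hS : ∀ j < N, (v, j) ∈ S) {δ : ℝ} (hδ : 0 < δ) (hNδ : 3 / (ε ^ 2 * N) ≤ δ ^ 2)
    (τ : V → Bool) :
    ∫ u, wt ε τ S u * |hat ε N v u - spin (τ v)| ∂(iidUniform (V × ℕ)) ≤ δ := by
  have hc : ∀ f : V × ℕ, |(fun f : V × ℕ => ε * spin (τ f.1)) f| ≤ 1 / 2 :=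
    fun f => abs_eps_spin' hε0 hε _
  have hb : ∀ u, |hat ε N v u - spin (τ v)| ≤ 3 / ε + 1 := fun u =>
    (abs_sub _ _).trans (add_le_add (hat_le' hε0 N v u) (abs_spin _).le)
  have hmh : Measurable (fun u => hat ε N v u - spin (τ v)) :=
    (measurable_hat ε N v).sub measurable_const
  have hw : ∀ u, 0 < wt ε τ S u := fun u => pw_pos hc S u
  have i0 : Integrable (fun u => wt ε τ S u) (iidUniform (V × ℕ)) :=
    integrable_of_bdd (measurable_pw _ S) (pw_le hc S)
  have i1 : Integrable (fun u => wt ε τ S u * (hat ε N v u - spin (τ v)) ^ 2)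
      (iidUniform (V × ℕ)) := by
    refine integrable_of_bdd (C := 2 ^ S.card * (3 / ε + 1) ^ 2)
      ((measurable_pw _ S).mul (hmh.pow_const 2)) fun u => ?_
    rw [abs_mul, abs_pow]
    exact mul_le_mul (pw_le hc S u) (pow_le_pow_left₀ (abs_nonneg _) (hb u) 2)
      (by positivity) (by positivity)
  have i2 : Integrable (fun u => wt ε τ S u * |hat ε N v u - spin (τ v)|)
      (iidUniform (V × ℕ)) := by
    refine integrable_of_bdd (C := 2 ^ S.card * (3 / ε + 1))
      ((measurable_pw _ S).mul hmh.abs) fun u => ?_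
    rw [abs_mul, abs_abs]
    exact mul_le_mul (pw_le hc S u) (hb u) (abs_nonneg _) (by positivity)
  have hp : ∀ u, wt ε τ S u * |hat ε N v u - spin (τ v)| ≤
      δ / 2 * wt ε τ S u + 1 / (2 * δ) * (wt ε τ S u * (hat ε N v u - spin (τ v)) ^ 2) := by
    intro u
    set x := hat ε N v u - spin (τ v)
    have h1 : |x| ≤ δ / 2 + 1 / (2 * δ) * x ^ 2 := by
      have h2 : 0 ≤ (|x| - δ) ^ 2 := sq_nonneg _
      have h3 : |x| ^ 2 = x ^ 2 := sq_abs x
      have h4 : δ / 2 + 1 / (2 * δ) * x ^ 2 - |x| = (|x| - δ) ^ 2 / (2 * δ) := by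
        rw [← h3]; field_simp; ring
      have h5 : 0 ≤ (|x| - δ) ^ 2 / (2 * δ) := by positivity
      linarith
    calc wt ε τ S u * |x| ≤ wt ε τ S u * (δ / 2 + 1 / (2 * δ) * x ^ 2) :=
          mul_le_mul_of_nonneg_left h1 (hw u).le
      _ = _ := by ring
  have hv := hat_var hε0 hε τ hN hS
  calc ∫ u, wt ε τ S u * |hat ε N v u - spin (τ v)| ∂(iidUniform (V × ℕ))
      ≤ ∫ u, (δ / 2 * wt ε τ S u + 1 / (2 * δ) * (wt ε τ S u * (hat ε N v u - spin (τ v)) ^ 2))
          ∂(iidUniform (V × ℕ)) :=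
        integral_mono i2 ((i0.const_mul _).add (i1.const_mul _)) hp
    _ = δ / 2 * ∫ u, wt ε τ S u ∂(iidUniform (V × ℕ)) + 1 / (2 * δ) *
          ∫ u, wt ε τ S u * (hat ε N v u - spin (τ v)) ^ 2 ∂(iidUniform (V × ℕ)) := by
        rw [integral_add (i0.const_mul _) (i1.const_mul _), integral_const_mul,
          integral_const_mul]
    _ ≤ δ / 2 * 1 + 1 / (2 * δ) * δ ^ 2 := by
        have h0 : ∫ u, wt ε τ S u ∂(iidUniform (V × ℕ)) = 1 := integral_pw_one hc S
        rw [h0]
        have : 1 / (2 * δ) * ∫ u, wt ε τ S u * (hat ε N v u - spin (τ v)) ^ 2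
            ∂(iidUniform (V × ℕ)) ≤ 1 / (2 * δ) * δ ^ 2 :=
          mul_le_mul_of_nonneg_left (hv.trans hNδ) (by positivity)
        linarith
    _ = δ := by field_simp; ring

lemma law_hat_hat {S : Finset (V × ℕ)} {v : V} {N N' : ℕ} (hN : 0 < N) (hN' : 0 < N')
    (hS : ∀ j < N, (v, j) ∈ S) (hS' : ∀ j < N', (v, j) ∈ S) {δ : ℝ} (hδ : 0 < δ)
    (hNδ : 3 / (ε ^ 2 * N) ≤ δ ^ 2) (hNδ' : 3 / (ε ^ 2 * N') ≤ δ ^ 2) :
    ∫ u, |hat ε N v u - hat ε N' v u| ∂(law μ ε S) ≤ 2 * δ := by
  have hε' : |ε| ≤ 1 / 2 := by rw [abs_of_pos hε0]; exact hε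
  have hmd : Measurable (fun u : V × ℕ → unitInterval => |hat ε N v u - hat ε N' v u|) :=
    ((measurable_hat ε N v).sub (measurable_hat ε N' v)).abs
  have hbd : ∀ u : V × ℕ → unitInterval, |(|hat ε N v u - hat ε N' v u|)| ≤ 3 / ε + 3 / ε :=
    fun u => by
      rw [abs_abs]
      exact (abs_sub _ _).trans (add_le_add (hat_le' hε0 N v u) (hat_le' hε0 N' v u))
  rw [integral_law_eq μ hε' S hmd hbd]
  have hpt : ∀ τ : V → Bool, ∫ u, wt ε τ S u * |hat ε N v u - hat ε N' v u|
      ∂(iidUniform (V × ℕ)) ≤ 2 * δ := by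
    intro τ
    have hc : ∀ f : V × ℕ, |(fun f : V × ℕ => ε * spin (τ f.1)) f| ≤ 1 / 2 :=
      fun f => abs_eps_spin' hε0 hε _
    have hw : ∀ u, 0 < wt ε τ S u := fun u => pw_pos hc S u
    have ib : ∀ n : ℕ, Integrable (fun u => wt ε τ S u * |hat ε n v u - spin (τ v)|)
        (iidUniform (V × ℕ)) := by
      intro n
      refine integrable_of_bdd (C := 2 ^ S.card * (3 / ε + 1))
        ((measurable_pw _ S).mul ((measurable_hat ε n v).sub measurable_const).abs) fun u => ?_
      rw [abs_mul, abs_abs]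
      exact mul_le_mul (pw_le hc S u)
        ((abs_sub _ _).trans (add_le_add (hat_le' hε0 n v u) (abs_spin _).le))
        (abs_nonneg _) (by positivity)
    have ic : Integrable (fun u => wt ε τ S u * |hat ε N v u - hat ε N' v u|)
        (iidUniform (V × ℕ)) := by
      refine integrable_of_bdd (C := 2 ^ S.card * (3 / ε + 3 / ε))
        ((measurable_pw _ S).mul hmd) fun u => ?_
      rw [abs_mul]
      exact mul_le_mul (pw_le hc S u) (hbd u) (abs_nonneg _) (by positivity)
    calc ∫ u, wt ε τ S u * |hat ε N v u - hat ε N' v u| ∂(iidUniform (V × ℕ))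
        ≤ ∫ u, (wt ε τ S u * |hat ε N v u - spin (τ v)| +
            wt ε τ S u * |hat ε N' v u - spin (τ v)|) ∂(iidUniform (V × ℕ)) := by
          refine integral_mono ic ((ib N).add (ib N')) fun u => ?_
          simp only
          rw [← mul_add]
          refine mul_le_mul_of_nonneg_left ?_ (hw u).le
          have : hat ε N v u - hat ε N' v u =
            (hat ε N v u - spin (τ v)) - (hat ε N' v u - spin (τ v)) := by ring
          rw [this]; exact abs_sub _ _
      _ ≤ 2 * δ := by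
          rw [integral_add (ib N) (ib N')]
          have h1 := law_hat_le hε0 hε hN hS hδ hNδ τ
          have h2 := law_hat_le hε0 hε hN' hS' hδ hNδ' τ
          linarith
  calc ∫ τ, ∫ u, wt ε τ S u * |hat ε N v u - hat ε N' v u| ∂(iidUniform (V × ℕ)) ∂μ
      ≤ ∫ τ, 2 * δ ∂μ := by
        refine integral_mono_of_nonneg (Filter.Eventually.of_forall fun τ => ?_)
          (integrable_const _) (Filter.Eventually.of_forall hpt)
        exact integral_nonneg fun u => mul_nonneg
          (pw_pos (fun f => abs_eps_spin' hε0 hε _) S u).le (abs_nonneg _)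
    _ = 2 * δ := by simp

lemma law_hat_sq {S : Finset (V × ℕ)} {v : V} {N : ℕ} (hN : 0 < N)
    (hS : ∀ j < N, (v, j) ∈ S) {δ : ℝ} (hδ : 0 < δ) (hNδ : 3 / (ε ^ 2 * N) ≤ δ ^ 2) :
    ∫ u, |hat ε N v u ^ 2 - 1| ∂(law μ ε S) ≤ (3 / ε + 1) * δ := by
  have hε' : |ε| ≤ 1 / 2 := by rw [abs_of_pos hε0]; exact hε
  have hmd : Measurable (fun u : V × ℕ → unitInterval => |hat ε N v u ^ 2 - 1|) :=
    (((measurable_hat ε N v).pow_const 2).sub measurable_const).abs
  have hbd : ∀ u : V × ℕ → unitInterval, |(|hat ε N v u ^ 2 - 1|)| ≤ (3 / ε) ^ 2 + 1 :=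
    fun u => by
      rw [abs_abs]
      refine (abs_sub _ _).trans (add_le_add ?_ (by simp))
      rw [abs_pow]
      exact pow_le_pow_left₀ (abs_nonneg _) (hat_le' hε0 N v u) 2
  rw [integral_law_eq μ hε' S hmd hbd]
  have hpt : ∀ τ : V → Bool, ∫ u, wt ε τ S u * |hat ε N v u ^ 2 - 1|
      ∂(iidUniform (V × ℕ)) ≤ (3 / ε + 1) * δ := by
    intro τ
    have hc : ∀ f : V × ℕ, |(fun f : V × ℕ => ε * spin (τ f.1)) f| ≤ 1 / 2 :=
      fun f => abs_eps_spin' hε0 hε _
    have hw : ∀ u, 0 < wt ε τ S u := fun u => pw_pos hc S u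
    have ib : Integrable (fun u => wt ε τ S u * |hat ε N v u - spin (τ v)|)
        (iidUniform (V × ℕ)) := by
      refine integrable_of_bdd (C := 2 ^ S.card * (3 / ε + 1))
        ((measurable_pw _ S).mul ((measurable_hat ε N v).sub measurable_const).abs) fun u => ?_
      rw [abs_mul, abs_abs]
      exact mul_le_mul (pw_le hc S u)
        ((abs_sub _ _).trans (add_le_add (hat_le' hε0 N v u) (abs_spin _).le))
        (abs_nonneg _) (by positivity)
    have ic : Integrable (fun u => wt ε τ S u * |hat ε N v u ^ 2 - 1|)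
        (iidUniform (V × ℕ)) := by
      refine integrable_of_bdd (C := 2 ^ S.card * ((3 / ε) ^ 2 + 1))
        ((measurable_pw _ S).mul hmd) fun u => ?_
      rw [abs_mul]
      exact mul_le_mul (pw_le hc S u) (hbd u) (abs_nonneg _) (by positivity)
    calc ∫ u, wt ε τ S u * |hat ε N v u ^ 2 - 1| ∂(iidUniform (V × ℕ))
        ≤ ∫ u, (3 / ε + 1) * (wt ε τ S u * |hat ε N v u - spin (τ v)|)
            ∂(iidUniform (V × ℕ)) := by
          refine integral_mono ic (ib.const_mul _) fun u => ?_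
          simp only
          have h1 : hat ε N v u ^ 2 - 1 =
            (hat ε N v u + spin (τ v)) * (hat ε N v u - spin (τ v)) := by
            have := spin_mul_self (τ v)
            nlinarith
          rw [h1, abs_mul]
          have h2 : |hat ε N v u + spin (τ v)| ≤ 3 / ε + 1 :=
            (abs_add_le _ _).trans (add_le_add (hat_le' hε0 N v u) (abs_spin _).le)
          calc wt ε τ S u * (|hat ε N v u + spin (τ v)| * |hat ε N v u - spin (τ v)|)
              ≤ wt ε τ S u * ((3 / ε + 1) * |hat ε N v u - spin (τ v)|) :=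
                mul_le_mul_of_nonneg_left (mul_le_mul_of_nonneg_right h2 (abs_nonneg _)) (hw u).le
            _ = _ := by ring
      _ ≤ (3 / ε + 1) * δ := by
          rw [integral_const_mul]
          exact mul_le_mul_of_nonneg_left (law_hat_le hε0 hε hN hS hδ hNδ τ) (by positivity)
  calc ∫ τ, ∫ u, wt ε τ S u * |hat ε N v u ^ 2 - 1| ∂(iidUniform (V × ℕ)) ∂μ
      ≤ ∫ τ, (3 / ε + 1) * δ ∂μ := by
        refine integral_mono_of_nonneg (Filter.Eventually.of_forall fun τ => ?_)
          (integrable_const _) (Filter.Eventually.of_forall hpt)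
        exact integral_nonneg fun u => mul_nonneg
          (pw_pos (fun f => abs_eps_spin' hε0 hε _) S u).le (abs_nonneg _)
    _ = (3 / ε + 1) * δ := by simp

omit [DecidableEq V] hε0 hε in
lemma prod_indicator (Fs : Finset V) (η τ : V → Bool) :
    ∏ v ∈ Fs, (1 + spin (η v) * spin (τ v)) / 2 =
      {τ : V → Bool | ∀ v ∈ Fs, τ v = η v}.indicator (fun _ => (1:ℝ)) τ := by
  by_cases h : ∀ v ∈ Fs, τ v = η v
  · rw [indicator_of_mem (show τ ∈ {τ : V → Bool | ∀ v ∈ Fs, τ v = η v} from h)]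
    refine Finset.prod_eq_one fun v hv => ?_
    rw [h v hv, spin_mul_self]; norm_num
  · rw [indicator_of_notMem (show τ ∉ {τ : V → Bool | ∀ v ∈ Fs, τ v = η v} from h)]
    push Not at h
    obtain ⟨v, hv, hne⟩ := h
    refine Finset.prod_eq_zero hv ?_
    cases h1 : η v <;> cases h2 : τ v <;> simp_all [spin]

lemma law_cyl {S : Finset (V × ℕ)} {N : ℕ} (hN : 0 < N) (Fs : Finset V)
    (hS : ∀ v ∈ Fs, ∀ j < N, (v, j) ∈ S) (η : V → Bool) :
    ∫ u, cyl ε N Fs η u ∂(law μ ε S) = μ.real {τ : V → Bool | ∀ v ∈ Fs, τ v = η v} := by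
  have hε' : |ε| ≤ 1 / 2 := by rw [abs_of_pos hε0]; exact hε
  rw [integral_law_eq μ hε' S (measurable_cyl ε N Fs η) (cyl_le hε0 N Fs η)]
  have h1 : ∀ τ : V → Bool, ∫ u, wt ε τ S u * cyl ε N Fs η u ∂(iidUniform (V × ℕ)) =
      {τ : V → Bool | ∀ v ∈ Fs, τ v = η v}.indicator (fun _ => (1:ℝ)) τ := fun τ => by
    rw [cyl_mean hε0 hε τ hN Fs hS η, prod_indicator]
  simp_rw [h1]
  have hms : MeasurableSet {τ : V → Bool | ∀ v ∈ Fs, τ v = η v} := by
    have : {τ : V → Bool | ∀ v ∈ Fs, τ v = η v} = ⋂ v ∈ Fs, (fun τ => τ v) ⁻¹' {η v} := by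
      ext τ; simp
    rw [this]
    exact Finset.measurableSet_biInter _ fun v _ => measurable_pi_apply v (measurableSet_singleton _)
  rw [integral_indicator hms]
  simp

end law

end Vale.Agent.P161
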