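import Vale.Agent.P161.Gibbs

/-! Random sequential order, innovations and their inverse. -/

open MeasureTheory Set

namespace Vale.Agent.P161

variable {V : Type*}

/-- strict order of the events `(v,j)` given the labels `t` -/
def prec (t : V → unitInterval) (e f : V × ℕ) : Prop :=
  e.2 < f.2 ∨ (e.2 = f.2 ∧ t e.1 < t f.1)

lemma prec_irrefl (t : V → unitInterval) (e : V × ℕ) : ¬ prec t e e := by
  rintro (h | ⟨_, h⟩) <;> exact lt_irrefl _ h

lemma prec_trans {t : V → unitInterval} {e f g : V × ℕ} (h1 : prec t e f) (h2 : prec t f g) :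
    prec t e g := by
  rcases h1 with h1 | ⟨h1, h1'⟩ <;> rcases h2 with h2 | ⟨h2, h2'⟩
  · exact Or.inl (h1.trans h2)
  · exact Or.inl (h2 ▸ h1)
  · exact Or.inl (h1 ▸ h2)
  · exact Or.inr ⟨h1.trans h2, h1'.trans h2'⟩

open Classical in
/-- events of `S` before `e` -/
noncomputable def past (t : V → unitInterval) (S : Finset (V × ℕ)) (e : V × ℕ) :
    Finset (V × ℕ) := S.filter (fun f => prec t f e)

lemma mem_past {t : V → unitInterval} {S : Finset (V × ℕ)} {e f : V × ℕ} :
    f ∈ past t S e ↔ f ∈ S ∧ prec t f e := by
  unfold past; simp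

lemma past_subset (t : V → unitInterval) (S : Finset (V × ℕ)) (e : V × ℕ) : past t S e ⊆ S :=
  fun _ hf => (mem_past.1 hf).1

lemma not_mem_past_self (t : V → unitInterval) (S : Finset (V × ℕ)) (e : V × ℕ) :
    e ∉ past t S e := fun h => prec_irrefl t e (mem_past.1 h).2

lemma card_past_lt {t : V → unitInterval} {S : Finset (V × ℕ)} {e f : V × ℕ}
    (h : f ∈ past t S e) : (past t S f).card < (past t S e).card := by
  refine Finset.card_lt_card ?_
  rw [Finset.ssubset_iff_of_subset]
  · exact ⟨f, h, not_mem_past_self t S f⟩
  · intro x hx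
    exact mem_past.2 ⟨(mem_past.1 hx).1, prec_trans (mem_past.1 hx).2 (mem_past.1 h).2⟩

lemma card_past_lt_card {t : V → unitInterval} {S : Finset (V × ℕ)} {e : V × ℕ}
    (h : e ∈ S) : (past t S e).card < S.card := by
  refine Finset.card_lt_card ?_
  rw [Finset.ssubset_iff_of_subset (past_subset t S e)]
  exact ⟨e, h, not_mem_past_self t S e⟩

/-- conditional magnetisation just before the event `e` -/
noncomputable def mm (μ : Measure (V → Bool)) (ε : ℝ) (t : V → unitInterval)
    (S : Finset (V × ℕ)) (e : V × ℕ) (u : V × ℕ → unitInterval) : ℝ :=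
  mg μ ε (past t S e) e.1 u

open Classical in
/-- the innovations -/
noncomputable def innov (μ : Measure (V → Bool)) (ε : ℝ) (t : V → unitInterval)
    (S : Finset (V × ℕ)) (u : V × ℕ → unitInterval) : V × ℕ → unitInterval :=
  fun e => if e ∈ S then kap (ε * mm μ ε t S e u) (u e) else u e

open Classical in
/-- one step of the fixed point iteration -/
noncomputable def step (μ : Measure (V → Bool)) (ε : ℝ) (t : V → unitInterval)
    (S : Finset (V × ℕ)) (g u : V × ℕ → unitInterval) : V × ℕ → unitInterval :=
  fun e => if e ∈ S then tinv (ε * mm μ ε t S e u) (g e) else g e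

/-- observations reconstructed from the innovations -/
noncomputable def sol (μ : Measure (V → Bool)) (ε : ℝ) (t : V → unitInterval)
    (S : Finset (V × ℕ)) (g : V × ℕ → unitInterval) : V × ℕ → unitInterval :=
  (step μ ε t S g)^[S.card] g

/-- `u` are observations with innovations `g` -/
def IsSol (μ : Measure (V → Bool)) (ε : ℝ) (t : V → unitInterval)
    (S : Finset (V × ℕ)) (g u : V × ℕ → unitInterval) : Prop :=
  ∀ e ∈ S, u e = tinv (ε * mm μ ε t S e u) (g e)

section basic

variable (μ : Measure (V → Bool)) {ε : ℝ}

lemma mm_congr {t : V → unitInterval} {S : Finset (V × ℕ)} {e : V × ℕ}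
    {u u' : V × ℕ → unitInterval} (h : ∀ f ∈ past t S e, u f = u' f) :
    mm μ ε t S e u = mm μ ε t S e u' := mg_congr μ h

lemma iter_stable (t : V → unitInterval) (S : Finset (V × ℕ)) (g : V × ℕ → unitInterval)
    (n : ℕ) : ∀ e ∈ S, (past t S e).card < n → ∀ k, n ≤ k →
      (step μ ε t S g)^[k] g e = (step μ ε t S g)^[n] g e := by
  induction n with
  | zero => intro e _ h; omega
  | succ n ih =>
    intro e he hc k hk
    obtain ⟨k, rfl⟩ : ∃ k', k = k' + 1 := ⟨k - 1, by omega⟩
    rw [Function.iterate_succ_apply', Function.iterate_succ_apply']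
    unfold step
    rw [if_pos he, if_pos he]
    have : mm μ ε t S e ((step μ ε t S g)^[k] g) = mm μ ε t S e ((step μ ε t S g)^[n] g) := by
      refine mm_congr μ fun f hf => ?_
      exact ih f (past_subset t S e hf) (by have := card_past_lt hf; omega) k (by omega)
    unfold step at this
    rw [this]

lemma sol_isSol (t : V → unitInterval) (S : Finset (V × ℕ)) (g : V × ℕ → unitInterval) :
    IsSol μ ε t S g (sol μ ε t S g) := by
  intro e he
  have h1 := iter_stable μ (ε := ε) t S g S.card e he (card_past_lt_card he) (S.card + 1)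
    (by omega)
  rw [Function.iterate_succ_apply'] at h1
  have h2 : step μ ε t S g ((step μ ε t S g)^[S.card] g) e =
      tinv (ε * mm μ ε t S e ((step μ ε t S g)^[S.card] g)) (g e) := by
    conv_lhs => rw [step]
    rw [if_pos he]
  rw [h2] at h1
  exact h1.symm

variable [IsProbabilityMeasure μ] (hε : |ε| ≤ 1 / 2)

include hε

lemma abs_eps_mm (t : V → unitInterval) (S : Finset (V × ℕ)) (e : V × ℕ)
    (u : V × ℕ → unitInterval) : |ε * mm μ ε t S e u| ≤ 1 / 2 := by
  rw [abs_mul]
  calc |ε| * |mm μ ε t S e u| ≤ 1 / 2 * 1 :=
        mul_le_mul hε (mg_le μ hε _ _ u) (abs_nonneg _) (by norm_num)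
    _ = 1 / 2 := by norm_num

lemma innov_isSol (t : V → unitInterval) (S : Finset (V × ℕ)) (u : V × ℕ → unitInterval) :
    IsSol μ ε t S (innov μ ε t S u) u := by
  intro e he
  unfold innov
  rw [if_pos he, tinv_kap (abs_eps_mm μ hε t S e u)]

lemma IsSol.kap_eq {t : V → unitInterval} {S : Finset (V × ℕ)} {g u : V × ℕ → unitInterval}
    (h : IsSol μ ε t S g u) {e : V × ℕ} (he : e ∈ S) :
    kap (ε * mm μ ε t S e u) (u e) = g e := by
  conv_lhs => rw [h e he]
  exact kap_tinv (abs_eps_mm μ hε t S e u) _

variable [DecidableEq V]

/-- the innovations are i.i.d. uniform -/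
lemma lintegral_innov (t : V → unitInterval) (S : Finset (V × ℕ))
    (hT : ∀ e ∈ S, ∀ f ∈ S, e ≠ f → prec t e f ∨ prec t f e)
    {φ : (V × ℕ → unitInterval) → ENNReal} (hφ : Measurable φ) 
    (hmeas : ∀ S : Finset (V × ℕ), Measurable (innov μ ε t S)) :
    ∫⁻ u, φ (innov μ ε t S u) * ENNReal.ofReal (den μ ε S u) ∂(iidUniform (V × ℕ)) =
      ∫⁻ u, φ u ∂(iidUniform (V × ℕ)) := by
  induction S using Finset.strongInduction generalizing φ with
  | H S ih =>
  rcases S.eq_empty_or_nonempty with rfl | hne
  · have h1 : ∀ u : V × ℕ → unitInterval, innov μ ε t ∅ u = u := by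
      intro u; ext e; simp [innov]
    have h2 : ∀ u : V × ℕ → unitInterval, den μ ε ∅ u = 1 := by
      intro u; simp [den, wt, pw]
    simp [h1, h2]
  · -- maximal element
    obtain ⟨e, he, hmax⟩ := S.exists_max_image (fun e : V × ℕ => toLex (e.2, t e.1)) hne
    have hlast : ∀ f ∈ S, ¬ prec t e f := by
      intro f hf hp
      have h1 := hmax f hf
      have h2 : toLex (e.2, t e.1) < toLex (f.2, t f.1) := by
        rw [Prod.Lex.toLex_lt_toLex]
        exact hp
      exact absurd h1 (not_le.2 h2)
    have hpast : past t S e = S.erase e := by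
      ext f
      rw [mem_past, Finset.mem_erase]
      constructor
      · rintro ⟨hf, hp⟩
        exact ⟨fun h => prec_irrefl t e (h ▸ hp), hf⟩
      · rintro ⟨hne, hf⟩
        refine ⟨hf, (hT f hf e he hne).resolve_right (hlast f hf)⟩
    have hpast' : ∀ f ∈ S, past t S f = past t (S.erase e) f := by
      intro f hf
      ext x
      rw [mem_past, mem_past, Finset.mem_erase]
      constructor
      · rintro ⟨hx, hp⟩
        exact ⟨⟨fun h => hlast f hf (h ▸ hp), hx⟩, hp⟩
      · rintro ⟨⟨_, hx⟩, hp⟩
        exact ⟨hx, hp⟩
    have hnot : e ∉ S.erase e := Finset.notMem_erase e S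
    have hS : insert e (S.erase e) = S := Finset.insert_erase he
    set c : (V × ℕ → unitInterval) → ℝ := fun u => ε * mg μ ε (S.erase e) e.1 u with hc
    have hc2 : ∀ u, |c u| ≤ 1 / 2 := by
      intro u
      rw [hc, abs_mul]
      calc |ε| * |mg μ ε (S.erase e) e.1 u| ≤ 1 / 2 * 1 :=
            mul_le_mul hε (mg_le μ hε _ _ u) (abs_nonneg _) (by norm_num)
        _ = 1 / 2 := by norm_num
    have hcu : ∀ u r, c (Function.update u e r) = c u := by
      intro u r
      rw [hc]
      simp only
      rw [mg_congr μ (u := Function.update u e r) (u' := u)]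
      intro f hf
      exact Function.update_of_ne (ne_of_mem_of_not_mem hf hnot) _ _
    have hinn : ∀ u, innov μ ε t S u =
        innov μ ε t (S.erase e) (Function.update u e (kap (c u) (u e))) := by
      intro u
      ext f
      congr 1
      unfold innov
      by_cases hfe : f = e
      · subst hfe
        rw [if_pos he, if_neg hnot, Function.update_self]
        unfold mm
        rw [hpast]
      · by_cases hf : f ∈ S
        · rw [if_pos hf, if_pos (Finset.mem_erase.2 ⟨hfe, hf⟩), Function.update_of_ne hfe]
          congr 2
          unfold mm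
          rw [hpast' f hf]
          refine mg_congr μ fun x hx => ?_
          have hx' := (mem_past.1 hx).1
          exact (Function.update_of_ne (Finset.mem_erase.1 hx').1 _ _).symm
        · rw [if_neg hf, if_neg (fun h => hf (Finset.mem_of_mem_erase h)),
            Function.update_of_ne hfe]
    have hmφ : Measurable (fun u => φ (innov μ ε t S u) * ENNReal.ofReal (den μ ε S u)) :=
      (hφ.comp (hmeas S)).mul (measurable_den μ S).ennreal_ofReal
    rw [lintegral_resample e hmφ]
    have hψ : Measurable (fun u => φ (innov μ ε t (S.erase e) u) *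
        ENNReal.ofReal (den μ ε (S.erase e) u)) :=
      (hφ.comp (hmeas _)).mul (measurable_den μ _).ennreal_ofReal
    have hin : ∀ u, ∫⁻ r, φ (innov μ ε t S (Function.update u e r)) *
        ENNReal.ofReal (den μ ε S (Function.update u e r)) ∂(volume : Measure unitInterval) =
        ∫⁻ r, (fun u => φ (innov μ ε t (S.erase e) u) *
        ENNReal.ofReal (den μ ε (S.erase e) u)) (Function.update u e r)
          ∂(volume : Measure unitInterval) := by
      intro u
      have hm1 : Measurable (fun r => (fun u => φ (innov μ ε t (S.erase e) u) *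
        ENNReal.ofReal (den μ ε (S.erase e) u)) (Function.update u e r)) :=
        hψ.comp ((measurable_update_pair e).comp measurable_prodMk_left)
      rw [← lintegral_kap (hc2 u) hm1]
      refine lintegral_congr fun r => ?_
      have hden : den μ ε (S.erase e) (Function.update u e (kap (c u) r)) =
          den μ ε (S.erase e) u := den_congr μ fun f hf =>
            Function.update_of_ne (ne_of_mem_of_not_mem hf hnot) _ _
      have hden2 : den μ ε S (Function.update u e r) =
          den μ ε (S.erase e) u * (1 + c u * (2 * (r:ℝ) - 1)) := by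
        conv_lhs => rw [← hS]
        rw [den_insert μ hε hnot, Function.update_self]
        have h3 : den μ ε (S.erase e) (Function.update u e r) = den μ ε (S.erase e) u :=
          den_congr μ fun f hf => Function.update_of_ne (ne_of_mem_of_not_mem hf hnot) _ _
        have h4 := hcu u r
        rw [hc] at h4
        simp only at h4
        rw [h3, h4]
      rw [hinn, hcu, Function.update_self, Function.update_idem]
      beta_reduce
      rw [hden, hden2, ENNReal.ofReal_mul (den_pos μ hε _ u).le]
      ring
    simp_rw [hin]
    rw [← lintegral_resample e hψ]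
    exact ih (S.erase e) (Finset.erase_ssubset he)
      (fun e' he' f hf => hT e' (Finset.mem_of_mem_erase he') f (Finset.mem_of_mem_erase hf)) hφ

end basic

section meas

variable [Countable V] (μ : Measure (V → Bool)) (ε : ℝ)

omit [Countable V] in
lemma measurableSet_prec (e f : V × ℕ) :
    MeasurableSet {t : V → unitInterval | prec t e f} := by
  unfold prec
  by_cases h1 : e.2 < f.2
  · simp [h1]
  · by_cases h2 : e.2 = f.2
    · simp only [h2, lt_irrefl, false_or, true_and]
      exact measurableSet_lt (measurable_pi_apply _) (measurable_pi_apply _)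
    · simp [h1, h2]

lemma measurable_past (S : Finset (V × ℕ)) (e : V × ℕ) :
    @Measurable (V → unitInterval) (Finset (V × ℕ)) _ ⊤ (fun t => past t S e) := by
  classical
  let _ : MeasurableSpace (Finset (V × ℕ)) := ⊤
  induction S using Finset.induction_on with
  | empty =>
    have : (fun t : V → unitInterval => past t ∅ e) = fun _ => ∅ := by
      ext1 t; simp [past]
    rw [this]; exact measurable_const
  | insert f S hf ih =>
    have : (fun t : V → unitInterval => past t (insert f S) e) =
        fun t => if prec t f e then insert f (past t S e) else past t S e := by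
      ext1 t
      ext x
      by_cases h : prec t f e
      · simp only [if_pos h, mem_past, Finset.mem_insert]
        constructor
        · rintro ⟨rfl | hx, hp⟩
          · exact Or.inl rfl
          · exact Or.inr ⟨hx, hp⟩
        · rintro (rfl | ⟨hx, hp⟩)
          · exact ⟨Or.inl rfl, h⟩
          · exact ⟨Or.inr hx, hp⟩
      · simp only [if_neg h, mem_past, Finset.mem_insert]
        constructor
        · rintro ⟨rfl | hx, hp⟩
          · exact absurd hp h
          · exact ⟨hx, hp⟩
        · rintro ⟨hx, hp⟩; exact ⟨Or.inr hx, hp⟩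
    rw [this]
    exact Measurable.ite (measurableSet_prec f e)
      ((measurable_of_countable (fun Q : Finset (V × ℕ) => insert f Q)).comp ih) ih

lemma measurable_mm (S : Finset (V × ℕ)) (e : V × ℕ) [IsProbabilityMeasure μ] :
    Measurable (fun p : (V → unitInterval) × (V × ℕ → unitInterval) => mm μ ε p.1 S e p.2) := by
  let _ : MeasurableSpace (Finset (V × ℕ)) := ⊤
  have h1 : Measurable (fun p : Finset (V × ℕ) × (V × ℕ → unitInterval) => mg μ ε p.1 e.1 p.2) :=
    measurable_from_prod_countable_right fun Q => measurable_mg μ Q e.1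
  have h2 : Measurable (fun p : (V → unitInterval) × (V × ℕ → unitInterval) =>
      (past p.1 S e, p.2)) :=
    Measurable.prodMk (Measurable.comp (measurable_past S e) measurable_fst) measurable_snd
  have h3 := h1.comp h2
  unfold mm
  exact h3

lemma measurable_innov (S : Finset (V × ℕ)) [IsProbabilityMeasure μ] :
    Measurable (fun p : (V → unitInterval) × (V × ℕ → unitInterval) => innov μ ε p.1 S p.2) := by
  refine measurable_pi_lambda _ fun e => ?_
  unfold innov
  by_cases he : e ∈ S
  · simp only [if_pos he]
    exact measurable_kap2.comp (((measurable_mm μ ε S e).const_mul ε).prodMk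
      ((measurable_pi_apply e).comp measurable_snd))
  · simp only [if_neg he]
    exact (measurable_pi_apply e).comp measurable_snd

lemma measurable_sol (S : Finset (V × ℕ)) [IsProbabilityMeasure μ] :
    Measurable (fun p : (V → unitInterval) × (V × ℕ → unitInterval) => sol μ ε p.1 S p.2) := by
  have key : ∀ n : ℕ, Measurable (fun p : (V → unitInterval) × (V × ℕ → unitInterval) =>
      (step μ ε p.1 S p.2)^[n] p.2) := by
    intro n
    induction n with
    | zero => simpa using measurable_snd
    | succ n ih =>
      simp only [Function.iterate_succ_apply']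
      refine measurable_pi_lambda _ fun e => ?_
      by_cases he : e ∈ S
      · have : (fun p : (V → unitInterval) × (V × ℕ → unitInterval) =>
            step μ ε p.1 S p.2 ((step μ ε p.1 S p.2)^[n] p.2) e) =
            fun p => tinv (ε * mm μ ε p.1 S e ((step μ ε p.1 S p.2)^[n] p.2)) (p.2 e) := by
          ext1 p
          conv_lhs => rw [step]
          rw [if_pos he]
        rw [this]
        exact measurable_tinv2.comp ((((measurable_mm μ ε S e).comp
          (measurable_fst.prodMk ih)).const_mul ε).prodMk
          ((measurable_pi_apply e).comp measurable_snd))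
      · have : (fun p : (V → unitInterval) × (V × ℕ → unitInterval) =>
            step μ ε p.1 S p.2 ((step μ ε p.1 S p.2)^[n] p.2) e) = fun p => p.2 e := by
          ext1 p
          conv_lhs => rw [step]
          rw [if_neg he]
        rw [this]
        exact (measurable_pi_apply e).comp measurable_snd
  exact key _

end meas

/-- the innovations are i.i.d. uniform (measure form) -/
lemma map_innov [Countable V] (μ : Measure (V → Bool)) [IsProbabilityMeasure μ] {ε : ℝ}
    (hε : |ε| ≤ 1 / 2) (t : V → unitInterval) (S : Finset (V × ℕ))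
    (hT : ∀ e ∈ S, ∀ f ∈ S, e ≠ f → prec t e f ∨ prec t f e) :
    (law μ ε S).map (innov μ ε t S) = iidUniform (V × ℕ) := by
  classical
  have hmeas : ∀ S : Finset (V × ℕ), Measurable (innov μ ε t S) := fun S => by
    have h := (measurable_innov μ ε S).comp (measurable_prodMk_left (x := t))
    have e : innov μ ε t S = (fun p : (V → unitInterval) × (V × ℕ → unitInterval) =>
      innov μ ε p.1 S p.2) ∘ Prod.mk t := rfl
    rw [e]; exact h
  refine Measure.ext_of_lintegral _ fun φ hφ => ?_
  rw [lintegral_map hφ (hmeas S),
    lintegral_law μ S (F := fun a => φ (innov μ ε t S a)) (hφ.comp (hmeas S)),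
    lintegral_innov μ hε t S hT hφ hmeas]

end Vale.Agent.P161
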