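import Vale.Agent.P161.Defs

/-! Resampling one coordinate of an i.i.d. uniform family; bounded differences. -/

open MeasureTheory Set

namespace Vale.Agent.P161

variable {E : Type*}

instance (E : Type*) : IsProbabilityMeasure (iidUniform E) := by
  unfold iidUniform; infer_instance

section resample

variable [DecidableEq E]

lemma measurable_update_pair (e : E) :
    Measurable (fun p : (E → unitInterval) × unitInterval => Function.update p.1 e p.2) := by
  refine measurable_pi_lambda _ fun f => ?_
  by_cases h : f = e
  · subst h; simpa using measurable_snd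
  · simp only [Function.update_of_ne h]
    exact (measurable_pi_apply f).comp measurable_fst

lemma mp_update (e : E) :
    MeasurePreserving (fun p : (E → unitInterval) × unitInterval => Function.update p.1 e p.2)
      ((iidUniform E).prod volume) (iidUniform E) := by
  refine ⟨measurable_update_pair e, ?_⟩
  refine Measure.eq_infinitePi _ fun s t ht => ?_
  rw [Measure.map_apply (measurable_update_pair e)
    (MeasurableSet.pi s.countable_toSet fun i _ => ht i)]
  by_cases he : e ∈ s
  · have : (fun p : (E → unitInterval) × unitInterval => Function.update p.1 e p.2) ⁻¹'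
        ((s : Set E).pi t) = (((s.erase e : Finset E) : Set E).pi t) ×ˢ (t e) := by
      ext ⟨u, r⟩
      simp only [mem_preimage, Set.mem_pi, Finset.mem_coe, mem_prod, Finset.mem_erase]
      constructor
      · intro h
        refine ⟨fun i hi => ?_, ?_⟩
        · have := h i hi.2
          rwa [Function.update_of_ne hi.1] at this
        · have := h e he
          simpa using this
      · rintro ⟨h1, h2⟩ i hi
        by_cases hie : i = e
        · subst hie; simpa using h2
        · rw [Function.update_of_ne hie]; exact h1 i ⟨hie, hi⟩
    rw [this, Measure.prod_prod, iidUniform,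
      Measure.infinitePi_pi _ (fun i _ => ht i), Finset.prod_erase_mul _ _ he]
  · have : (fun p : (E → unitInterval) × unitInterval => Function.update p.1 e p.2) ⁻¹'
        ((s : Set E).pi t) = ((s : Set E).pi t) ×ˢ univ := by
      ext ⟨u, r⟩
      simp only [mem_preimage, Set.mem_pi, Finset.mem_coe, mem_prod, mem_univ, and_true]
      refine forall₂_congr fun i hi => ?_
      have hie : i ≠ e := fun h => he (h ▸ hi)
      rw [Function.update_of_ne hie]
    rw [this, Measure.prod_prod, iidUniform,
      Measure.infinitePi_pi _ (fun i _ => ht i)]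
    simp

lemma lintegral_resample (e : E) {f : (E → unitInterval) → ENNReal} (hf : Measurable f) :
    ∫⁻ u, f u ∂(iidUniform E) =
      ∫⁻ u, ∫⁻ r, f (Function.update u e r) ∂(volume : Measure unitInterval) ∂(iidUniform E) := by
  rw [← (mp_update e).lintegral_comp hf, lintegral_prod _ (by
    exact (hf.comp (measurable_update_pair e)).aemeasurable)]

lemma integral_resample (e : E) {f : (E → unitInterval) → ℝ}
    (hf : Integrable f (iidUniform E)) :
    ∫ u, f u ∂(iidUniform E) =
      ∫ u, ∫ r, f (Function.update u e r) ∂(volume : Measure unitInterval) ∂(iidUniform E) := by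
  rw [← integral_prod (fun p : (E → unitInterval) × unitInterval => f (Function.update p.1 e p.2))
    ((mp_update e).integrable_comp_of_integrable hf)]
  have h1 := (mp_update e).map_eq
  rw [← integral_map (mp_update e).measurable.aemeasurable (by rw [h1]; exact hf.aestronglyMeasurable),
    h1]

/-- averaging over the coordinate `e` -/
noncomputable def avg (e : E) (f : (E → unitInterval) → ℝ) (u : E → unitInterval) : ℝ :=
  ∫ r, f (Function.update u e r) ∂(volume : Measure unitInterval)

lemma measurable_avg (e : E) {f : (E → unitInterval) → ℝ} (hf : Measurable f) :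
    Measurable (avg e f) := by
  have h : StronglyMeasurable
      (fun p : (E → unitInterval) × unitInterval => f (Function.update p.1 e p.2)) :=
    (hf.comp (measurable_update_pair e)).stronglyMeasurable
  exact (h.integral_prod_right (ν := (volume : Measure unitInterval))).measurable

/-- the Lipschitz vector of a function of finitely many coordinates -/
def LipVec (S : Finset E) (L : E → ℝ) (f : (E → unitInterval) → ℝ) : Prop :=
  ∀ g g' : E → unitInterval, |f g - f g'| ≤ ∑ e ∈ S, L e * |(g e : ℝ) - g' e|

/-- independence of the coordinates in `Q` -/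
def IndepOf {α : Type*} (Q : Finset E) (f : (E → unitInterval) → α) : Prop :=
  ∀ g g' : E → unitInterval, (∀ e, e ∉ Q → g e = g' e) → f g = f g'

omit [DecidableEq E] in
lemma LipVec.bounded {S : Finset E} {L : E → ℝ} {f : (E → unitInterval) → ℝ}
    (h : LipVec S L f) (hL : ∀ e, 0 ≤ L e) : ∃ C, ∀ g, |f g| ≤ C := by
  refine ⟨|f (fun _ => 0)| + ∑ e ∈ S, L e, fun g => ?_⟩
  have h1 := h g (fun _ => 0)
  have h2 : ∑ e ∈ S, L e * |(g e : ℝ) - (0 : unitInterval)| ≤ ∑ e ∈ S, L e := by
    refine Finset.sum_le_sum fun e _ => ?_
    have : |(g e : ℝ) - (0 : unitInterval)| ≤ 1 := by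
      rw [abs_le]
      constructor <;> linarith [(g e).2.1, (g e).2.2, (0 : unitInterval).2.1, (0 : unitInterval).2.2]
    calc L e * |(g e : ℝ) - (0 : unitInterval)| ≤ L e * 1 :=
          mul_le_mul_of_nonneg_left this (hL e)
      _ = L e := mul_one _
  calc |f g| = |f (fun _ => 0) + (f g - f (fun _ => 0))| := by ring_nf
    _ ≤ |f (fun _ => 0)| + |f g - f (fun _ => 0)| := abs_add_le _ _
    _ ≤ _ := by linarith

lemma integrable_of_bdd {Ω : Type*} [MeasurableSpace Ω] {P : Measure Ω} [IsFiniteMeasure P]
    {f : Ω → ℝ} (hf : Measurable f) {C : ℝ} (hC : ∀ g, |f g| ≤ C) : Integrable f P :=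
  Integrable.of_bound hf.aestronglyMeasurable C (Filter.Eventually.of_forall hC)

lemma coe_abs_sub_le_one (a b : unitInterval) : |(a : ℝ) - b| ≤ 1 := by
  rw [abs_le]
  constructor <;> linarith [a.2.1, a.2.2, b.2.1, b.2.2]

lemma avg_lipVec {S : Finset E} {L : E → ℝ} {f : (E → unitInterval) → ℝ} (hf : Measurable f)
    (hL : ∀ e, 0 ≤ L e) (h : LipVec S L f) (e : E) : LipVec (S.erase e) L (avg e f) := by
  intro g g'
  obtain ⟨C, hC⟩ := h.bounded hL
  have hi : ∀ g : E → unitInterval, Integrable (fun r => f (Function.update g e r))
      (volume : Measure unitInterval) := fun g =>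
    integrable_of_bdd (hf.comp ((measurable_update_pair e).comp measurable_prodMk_left))
      (fun r => hC _)
  unfold avg
  rw [← integral_sub (hi g) (hi g')]
  have hb : ∀ r : unitInterval, ‖f (Function.update g e r) - f (Function.update g' e r)‖ ≤
      ∑ x ∈ S.erase e, L x * |(g x : ℝ) - g' x| := by
    intro r
    refine (h _ _).trans ?_
    rw [← Finset.sum_filter_add_sum_filter_not S (fun x => x ≠ e)]
    have h2 : ∑ x ∈ S.filter (fun x => ¬ x ≠ e),
        L x * |((Function.update g e r) x : ℝ) - (Function.update g' e r) x| = 0 := by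
      refine Finset.sum_eq_zero fun x hx => ?_
      have : x = e := by simpa using (Finset.mem_filter.1 hx).2
      subst this; simp
    rw [h2, add_zero]
    have h3 : S.filter (fun x => x ≠ e) = S.erase e := by
      ext x; simp [and_comm]
    rw [h3]
    refine le_of_eq (Finset.sum_congr rfl fun x hx => ?_)
    have : x ≠ e := (Finset.mem_erase.1 hx).1
    rw [Function.update_of_ne this, Function.update_of_ne this]
  have := norm_integral_le_of_norm_le_const (μ := (volume : Measure unitInterval))
    (Filter.Eventually.of_forall hb)
  simpa using this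

lemma avg_indep {f : (E → unitInterval) → ℝ} {Q : Finset E} (h : IndepOf Q f) (e : E) :
    IndepOf (insert e Q) (avg e f) := by
  intro g g' hg
  unfold avg
  congr 1
  ext r
  refine h _ _ fun x hx => ?_
  by_cases hxe : x = e
  · subst hxe; simp
  · rw [Function.update_of_ne hxe, Function.update_of_ne hxe]
    exact hg x (by simp [hxe, hx])

lemma integral_avg_mul (e : E) {f h : (E → unitInterval) → ℝ} (hf : Measurable f)
    (hh : Measurable h) {C C' : ℝ} (hC : ∀ g, |f g| ≤ C) (hC' : ∀ g, |h g| ≤ C')
    (hind : IndepOf {e} h) :
    ∫ u, avg e f u * h u ∂(iidUniform E) = ∫ u, f u * h u ∂(iidUniform E) := by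
  have hb : ∀ g, |f g * h g| ≤ C * C' := fun g => by
    rw [abs_mul]
    exact mul_le_mul (hC g) (hC' g) (abs_nonneg _) ((abs_nonneg _).trans (hC g))
  rw [integral_resample (f := fun u => f u * h u) e (integrable_of_bdd (hf.mul hh) hb)]
  congr 1
  ext u
  have : ∀ r : unitInterval, h (Function.update u e r) = h u := fun r =>
    hind _ _ fun x hx => Function.update_of_ne (by simpa using hx) _ _
  simp only [this, avg]
  rw [integral_mul_const]

theorem bdd_diff {S : Finset E} {L : E → ℝ} (hL : ∀ e, 0 ≤ L e)
    {f : (E → unitInterval) → ℝ} (hf : Measurable f) (h : LipVec S L f) (Q : Finset E) :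
    ∃ f' : (E → unitInterval) → ℝ, Measurable f' ∧ LipVec (S \ Q) L f' ∧ IndepOf Q f' ∧
      ∫ u, (f u - f' u) ^ 2 ∂(iidUniform E) ≤ ∑ e ∈ Q, L e ^ 2 ∧
      ∀ k : (E → unitInterval) → ℝ, Measurable k → (∃ C, ∀ g, |k g| ≤ C) → IndepOf Q k →
        ∫ u, (f u - f' u) * k u ∂(iidUniform E) = 0 := by
  induction Q using Finset.induction_on with
  | empty =>
    refine ⟨f, hf, by simpa using h, ?_, by simp, by simp⟩
    intro g g' hg
    have : g = g' := funext fun e => hg e (by simp)
    rw [this]
  | insert e Q heQ ih =>
    obtain ⟨f', hf', hlip, hind, hL2, horth⟩ := ih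
    obtain ⟨C, hC⟩ := h.bounded hL
    obtain ⟨C', hC'⟩ := hlip.bounded hL
    have hlip'' : LipVec ((S \ Q).erase e) L (avg e f') := avg_lipVec hf' hL hlip e
    obtain ⟨C'', hC''⟩ := hlip''.bounded hL
    have hma := measurable_avg e hf'
    have hindQ : IndepOf Q (avg e f') := by
      intro g g' hg
      unfold avg
      congr 1
      ext r
      refine hind _ _ fun x hx => ?_
      by_cases hxe : x = e
      · subst hxe; simp
      · rw [Function.update_of_ne hxe, Function.update_of_ne hxe]; exact hg x hx
    have hinde : IndepOf {e} (avg e f') := by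
      intro g g' hg
      unfold avg
      congr 1
      ext r
      congr 1
      ext x
      by_cases hxe : x = e
      · subst hxe; simp
      · rw [Function.update_of_ne hxe, Function.update_of_ne hxe]
        rw [hg x (by simpa using hxe)]
    have i1 : Integrable (fun u => (f u - f' u) ^ 2) (iidUniform E) := by
      refine integrable_of_bdd (C := (C + C') ^ 2) ((hf.sub hf').pow_const 2) fun g => ?_
      rw [abs_pow]
      exact pow_le_pow_left₀ (abs_nonneg _) ((abs_sub _ _).trans (add_le_add (hC g) (hC' g))) 2
    have i2 : Integrable (fun u => (f' u - avg e f' u) ^ 2) (iidUniform E) := by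
      refine integrable_of_bdd (C := (C' + C'') ^ 2) ((hf'.sub hma).pow_const 2) fun g => ?_
      rw [abs_pow]
      exact pow_le_pow_left₀ (abs_nonneg _) ((abs_sub _ _).trans (add_le_add (hC' g) (hC'' g))) 2
    have i3 : Integrable (fun u => (f u - f' u) * (f' u - avg e f' u)) (iidUniform E) := by
      refine integrable_of_bdd (C := (C + C') * (C' + C'')) ((hf.sub hf').mul (hf'.sub hma))
        fun g => ?_
      rw [abs_mul]
      exact mul_le_mul ((abs_sub _ _).trans (add_le_add (hC g) (hC' g)))
        ((abs_sub _ _).trans (add_le_add (hC' g) (hC'' g))) (abs_nonneg _)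
        ((abs_nonneg _).trans ((abs_sub _ _).trans (add_le_add (hC g) (hC' g))))
    refine ⟨avg e f', hma, ?_, ?_, ?_, ?_⟩
    · have : (S \ Q).erase e = S \ insert e Q := by
        ext x; simp only [Finset.mem_erase, Finset.mem_sdiff, Finset.mem_insert]; tauto
      rwa [this] at hlip''
    · exact avg_indep hind e
    · have hcross : ∫ u, (f u - f' u) * (f' u - avg e f' u) ∂(iidUniform E) = 0 := by
        refine horth _ (hf'.sub hma) ⟨C' + C'', fun g =>
          (abs_sub _ _).trans (add_le_add (hC' g) (hC'' g))⟩ ?_
        intro g g' hg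
        show f' g - avg e f' g = f' g' - avg e f' g'
        rw [hind g g' hg, hindQ g g' hg]
      have hsq : ∫ u, (f' u - avg e f' u) ^ 2 ∂(iidUniform E) ≤ L e ^ 2 := by
        have hp : ∀ u, (f' u - avg e f' u) ^ 2 ≤ L e ^ 2 := by
          intro u
          have : |f' u - avg e f' u| ≤ L e := by
            have h1 : f' u = ∫ r, f' u ∂(volume : Measure unitInterval) := by simp
            have hi : Integrable (fun r => f' (Function.update u e r))
                (volume : Measure unitInterval) :=
              integrable_of_bdd (hf'.comp ((measurable_update_pair e).comp measurable_prodMk_left))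
                (fun r => hC' _)
            rw [avg, h1, ← integral_sub (integrable_const _) hi]
            have hb : ∀ r : unitInterval, ‖f' u - f' (Function.update u e r)‖ ≤ L e := by
              intro r
              refine (hlip _ _).trans ?_
              have : ∀ x ∈ S \ Q, L x * |(u x : ℝ) - (Function.update u e r) x| ≤
                  if x = e then L e else 0 := by
                intro x _
                by_cases hxe : x = e
                · subst hxe
                  simp only [Function.update_self, if_true]
                  calc L x * |(u x : ℝ) - r| ≤ L x * 1 :=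
                        mul_le_mul_of_nonneg_left (coe_abs_sub_le_one _ _) (hL x)
                    _ = L x := mul_one _
                · rw [Function.update_of_ne hxe]; simp [hxe]
              refine (Finset.sum_le_sum this).trans ?_
              rw [Finset.sum_ite_eq']
              split_ifs
              · exact le_rfl
              · exact hL e
            have := norm_integral_le_of_norm_le_const (μ := (volume : Measure unitInterval))
              (Filter.Eventually.of_forall hb)
            simpa using this
          exact sq_le_sq' (by linarith [abs_le.1 this]) (abs_le.1 this).2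
        calc ∫ u, (f' u - avg e f' u) ^ 2 ∂(iidUniform E) ≤ ∫ u, L e ^ 2 ∂(iidUniform E) :=
              integral_mono i2 (integrable_const _) hp
          _ = L e ^ 2 := by simp
      have hdecomp : ∀ u, (f u - avg e f' u) ^ 2 = (f u - f' u) ^ 2 +
          ((f' u - avg e f' u) ^ 2 + 2 * ((f u - f' u) * (f' u - avg e f' u))) := fun u => by ring
      simp_rw [hdecomp]
      have e1 : ∫ u, ((f u - f' u) ^ 2 + ((f' u - avg e f' u) ^ 2 +
          2 * ((f u - f' u) * (f' u - avg e f' u)))) ∂(iidUniform E) =
          ∫ u, (f u - f' u) ^ 2 ∂(iidUniform E) + ∫ u, ((f' u - avg e f' u) ^ 2 +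
          2 * ((f u - f' u) * (f' u - avg e f' u))) ∂(iidUniform E) :=
        integral_add i1 (i2.add (i3.const_mul 2))
      have e2 : ∫ u, ((f' u - avg e f' u) ^ 2 +
          2 * ((f u - f' u) * (f' u - avg e f' u))) ∂(iidUniform E) =
          ∫ u, (f' u - avg e f' u) ^ 2 ∂(iidUniform E) +
          ∫ u, 2 * ((f u - f' u) * (f' u - avg e f' u)) ∂(iidUniform E) :=
        integral_add i2 (i3.const_mul 2)
      rw [e1, e2, integral_const_mul, hcross, Finset.sum_insert heQ]
      linarith
    · intro k hk ⟨Ck, hCk⟩ hindk
      have hkQ : IndepOf Q k := fun g g' hg => hindk _ _ fun x hx => hg x fun hxQ =>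
        hx (Finset.mem_insert_of_mem hxQ)
      have hke : IndepOf {e} k := fun g g' hg => hindk _ _ fun x hx => hg x fun hxe =>
        hx (by rw [Finset.mem_singleton] at hxe; simp [hxe])
      have h1 := horth k hk ⟨Ck, hCk⟩ hkQ
      have h2 := integral_avg_mul e hf' hk hC' hCk hke
      have b1 : Integrable (fun u => (f u - f' u) * k u) (iidUniform E) := by
        refine integrable_of_bdd (C := (C + C') * Ck) ((hf.sub hf').mul hk) fun g => ?_
        rw [abs_mul]
        exact mul_le_mul ((abs_sub _ _).trans (add_le_add (hC g) (hC' g))) (hCk g)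
          (abs_nonneg _) ((abs_nonneg _).trans ((abs_sub _ _).trans (add_le_add (hC g) (hC' g))))
      have b2 : Integrable (fun u => f' u * k u) (iidUniform E) := by
        refine integrable_of_bdd (C := C' * Ck) (hf'.mul hk) fun g => ?_
        rw [abs_mul]
        exact mul_le_mul (hC' g) (hCk g) (abs_nonneg _) ((abs_nonneg _).trans (hC' g))
      have b3 : Integrable (fun u => avg e f' u * k u) (iidUniform E) := by
        refine integrable_of_bdd (C := C'' * Ck) (hma.mul hk) fun g => ?_
        rw [abs_mul]
        exact mul_le_mul (hC'' g) (hCk g) (abs_nonneg _) ((abs_nonneg _).trans (hC'' g))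
      have hdec : ∀ u, (f u - avg e f' u) * k u =
          (f u - f' u) * k u + (f' u * k u - avg e f' u * k u) := fun u => by ring
      simp_rw [hdec]
      have e1 : ∫ u, ((f u - f' u) * k u + (f' u * k u - avg e f' u * k u)) ∂(iidUniform E) =
          ∫ u, (f u - f' u) * k u ∂(iidUniform E) +
          ∫ u, (f' u * k u - avg e f' u * k u) ∂(iidUniform E) := integral_add b1 (b2.sub b3)
      have e2 : ∫ u, (f' u * k u - avg e f' u * k u) ∂(iidUniform E) =
          ∫ u, f' u * k u ∂(iidUniform E) - ∫ u, avg e f' u * k u ∂(iidUniform E) :=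
        integral_sub b2 b3
      rw [e1, e2, h1, h2]
      ring

end resample

end Vale.Agent.P161
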