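import Vale.Agent.P161.Order

/-! Deterministic stability of the reconstruction map, causality, equivariance. -/

open MeasureTheory Set

namespace Vale.Agent.P161

variable {V : Type*}

/-- standing assumptions on the measure `μ`, the channel parameter `ε` and the kernels -/
structure Good (μ : Measure (V → Bool)) (ε : ℝ) (κ ρ : V → V → ℝ) (M : ℝ) : Prop where
  eps_pos : 0 < ε
  eps_le : ε ≤ 1 / 2
  lip : ∀ (Q : Finset (V × ℕ)) (v : V) (u u' : V × ℕ → unitInterval),
    |mg μ ε Q v u - mg μ ε Q v u'| ≤ 3 * ε * ∑ f ∈ Q, κ v f.1 * |(u f : ℝ) - u' f|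
  κ_nonneg : ∀ v w, 0 ≤ κ v w
  ρ_nonneg : ∀ v w, 0 ≤ ρ v w
  ρ_self : ∀ v, 1 ≤ ρ v v
  kernel : ∀ (D : Finset V) (v w : V), ∑ x ∈ D, κ v x * ρ x w ≤ M * ρ v w
  small : 6 * ε ^ 2 * M ≤ 1
  summ : ∀ v, Summable fun w => ρ v w ^ 2

section stab

variable {μ : Measure (V → Bool)} {ε : ℝ} {κ ρ : V → V → ℝ} {M : ℝ}

lemma Good.abs_eps (h : Good μ ε κ ρ M) : |ε| ≤ 1 / 2 := by
  rw [abs_of_pos h.eps_pos]; exact h.eps_le

variable [IsProbabilityMeasure μ]

lemma IsSol.diff_le (h : Good μ ε κ ρ M) {t : V → unitInterval} {S : Finset (V × ℕ)}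
    {g g' u u' : V × ℕ → unitInterval} (hu : IsSol μ ε t S g u) (hu' : IsSol μ ε t S g' u')
    {e : V × ℕ} (he : e ∈ S) :
    |(u e : ℝ) - u' e| ≤ 2 * |(g e : ℝ) - g' e| +
      3 / 2 * ε ^ 2 * ∑ f ∈ past t S e, κ e.1 f.1 * |(u f : ℝ) - u' f| := by
  have h1 := kap_stab (abs_eps_mm μ h.abs_eps t S e u) (abs_eps_mm μ h.abs_eps t S e u')
    (u e) (u' e)
  rw [hu.kap_eq μ h.abs_eps he, hu'.kap_eq μ h.abs_eps he] at h1
  have h2 := h.lip (past t S e) e.1 u u'
  have h3 : |ε * mm μ ε t S e u - ε * mm μ ε t S e u'| =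
      ε * |mg μ ε (past t S e) e.1 u - mg μ ε (past t S e) e.1 u'| := by
    rw [← mul_sub, abs_mul, abs_of_pos h.eps_pos]; rfl
  rw [h3] at h1
  have h4 := mul_le_mul_of_nonneg_left h2 h.eps_pos.le
  nlinarith [h1, h4]

lemma stab (h : Good μ ε κ ρ M) {t : V → unitInterval} {B : Finset V} {N : ℕ}
    {g g' u u' : V × ℕ → unitInterval} (hu : IsSol μ ε t (B ×ˢ Finset.range N) g u)
    (hu' : IsSol μ ε t (B ×ˢ Finset.range N) g' u') {R : V → ℝ} (hR0 : ∀ v, 0 ≤ R v)
    (hR : ∀ e ∈ B ×ˢ Finset.range N, 2 * |(g e : ℝ) - g' e| ≤ R e.1)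
    (hRκ : ∀ v, ∑ x ∈ B, κ v x * R x ≤ M * R v) :
    ∀ e ∈ B ×ˢ Finset.range N,
      ∑ i ∈ Finset.range (e.2 + 1), |(u (e.1, i) : ℝ) - u' (e.1, i)| ≤ 4 ^ (e.2 + 1) * R e.1 := by
  classical
  set S := B ×ˢ Finset.range N with hS
  set Dd : V × ℕ → ℝ := fun f => |(u f : ℝ) - u' f| with hDd
  have hD0 : ∀ f, 0 ≤ Dd f := fun f => abs_nonneg _
  have main : ∀ n : ℕ, ∀ e ∈ S, (past t S e).card = n →
      ∑ i ∈ Finset.range (e.2 + 1), Dd (e.1, i) ≤ 4 ^ (e.2 + 1) * R e.1 := by
    intro n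
    induction n using Nat.strong_induction_on with
    | _ n ih =>
    rintro ⟨v, j⟩ he hcard
    simp only at hcard ⊢
    have hvB : v ∈ B := (Finset.mem_product.1 he).1
    have hjN : j < N := Finset.mem_range.1 (Finset.mem_product.1 he).2
    have ih' : ∀ f ∈ past t S (v, j),
        ∑ i ∈ Finset.range (f.2 + 1), Dd (f.1, i) ≤ 4 ^ (f.2 + 1) * R f.1 := by
      intro f hf
      exact ih _ (by rw [← hcard]; exact card_past_lt hf) f (past_subset t S _ hf) rfl
    have h1 := hu.diff_le h hu' he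
    simp only at h1
    have hsum : ∑ f ∈ past t S (v, j), κ v f.1 * Dd f ≤ 4 ^ (j + 1) * (M * R v) := by
      have e1 : ∑ f ∈ past t S (v, j), κ v f.1 * Dd f =
          ∑ x ∈ B, κ v x * ∑ i ∈ (Finset.range N).filter (fun i => prec t (x, i) (v, j)),
            Dd (x, i) := by
        unfold past
        rw [Finset.sum_filter, hS, Finset.sum_product]
        refine Finset.sum_congr rfl fun x _ => ?_
        rw [Finset.mul_sum, Finset.sum_filter]
      rw [e1]
      have e2 : ∀ x ∈ B, κ v x * ∑ i ∈ (Finset.range N).filter (fun i => prec t (x, i) (v, j)),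
            Dd (x, i) ≤ 4 ^ (j + 1) * (κ v x * R x) := by
        intro x hx
        have e3 : ∑ i ∈ (Finset.range N).filter (fun i => prec t (x, i) (v, j)),
            Dd (x, i) ≤ 4 ^ (j + 1) * R x := by
          set J := (Finset.range N).filter (fun i => prec t (x, i) (v, j)) with hJ
          rcases J.eq_empty_or_nonempty with hJe | hJn
          · rw [hJe, Finset.sum_empty]
            exact mul_nonneg (by positivity) (hR0 x)
          · obtain ⟨i0, hi0, hmax⟩ := J.exists_max_image id hJn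
            have hi0' := Finset.mem_filter.1 hi0
            have hmem : (x, i0) ∈ past t S (v, j) := by
              rw [mem_past]
              exact ⟨Finset.mem_product.2 ⟨hx, hi0'.1⟩, hi0'.2⟩
            have hle : i0 ≤ j := by
              rcases hi0'.2 with h | ⟨h, _⟩
              · exact le_of_lt h
              · exact le_of_eq h
            have hsub : J ⊆ Finset.range (i0 + 1) := by
              intro i hi
              rw [Finset.mem_range]
              have := hmax i hi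
              simp only [id] at this
              omega
            calc ∑ i ∈ J, Dd (x, i) ≤ ∑ i ∈ Finset.range (i0 + 1), Dd (x, i) :=
                  Finset.sum_le_sum_of_subset_of_nonneg hsub fun _ _ _ => hD0 _
              _ ≤ 4 ^ (i0 + 1) * R x := ih' _ hmem
              _ ≤ 4 ^ (j + 1) * R x :=
                  mul_le_mul_of_nonneg_right (pow_le_pow_right₀ (by norm_num) (by omega)) (hR0 x)
        calc κ v x * _ ≤ κ v x * (4 ^ (j + 1) * R x) :=
              mul_le_mul_of_nonneg_left e3 (h.κ_nonneg v x)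
          _ = _ := by ring
      calc _ ≤ ∑ x ∈ B, 4 ^ (j + 1) * (κ v x * R x) := Finset.sum_le_sum e2
        _ = 4 ^ (j + 1) * ∑ x ∈ B, κ v x * R x := by rw [Finset.mul_sum]
        _ ≤ _ := mul_le_mul_of_nonneg_left (hRκ v) (by positivity)
    have hprev : ∑ i ∈ Finset.range j, Dd (v, i) ≤ 4 ^ j * R v := by
      cases j with
      | zero => simpa using hR0 v
      | succ j =>
        refine ih' (v, j) ?_
        rw [mem_past]
        exact ⟨Finset.mem_product.2 ⟨hvB, Finset.mem_range.2 (by omega)⟩, Or.inl (by simp)⟩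
    rw [Finset.sum_range_succ]
    have h2 := hR (v, j) he
    simp only at h2
    have h3 : 3 / 2 * ε ^ 2 * ∑ f ∈ past t S (v, j), κ v f.1 * Dd f ≤ 4 ^ j * R v := by
      have hε2 : 0 ≤ 3 / 2 * ε ^ 2 := by positivity
      calc 3 / 2 * ε ^ 2 * ∑ f ∈ past t S (v, j), κ v f.1 * Dd f
          ≤ 3 / 2 * ε ^ 2 * (4 ^ (j + 1) * (M * R v)) := mul_le_mul_of_nonneg_left hsum hε2
        _ = (6 * ε ^ 2 * M) * (4 ^ j * R v) := by rw [pow_succ]; ring
        _ ≤ 1 * (4 ^ j * R v) :=
            mul_le_mul_of_nonneg_right h.small (mul_nonneg (by positivity) (hR0 v))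
        _ = _ := one_mul _
    have h4 : Dd (v, j) ≤ R v + 4 ^ j * R v := by
      calc Dd (v, j) ≤ _ := h1
        _ ≤ R v + 4 ^ j * R v := add_le_add h2 h3
    have h5 : R v ≤ 4 ^ j * R v := by
      have : (1:ℝ) ≤ 4 ^ j := one_le_pow₀ (by norm_num)
      nlinarith [hR0 v]
    have h6 : (4:ℝ) ^ (j + 1) * R v = 4 * (4 ^ j * R v) := by rw [pow_succ]; ring
    rw [h6]
    linarith [mul_nonneg (by positivity : (0:ℝ) ≤ 4 ^ j) (hR0 v)]
  intro e he
  exact main _ e he rfl

lemma IsSol.unique (h : Good μ ε κ ρ M) {t : V → unitInterval} {B : Finset V} {N : ℕ}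
    {g u u' : V × ℕ → unitInterval} (hu : IsSol μ ε t (B ×ˢ Finset.range N) g u)
    (hu' : IsSol μ ε t (B ×ˢ Finset.range N) g u') :
    ∀ e ∈ B ×ˢ Finset.range N, u e = u' e := by
  intro e he
  have h1 := stab h hu hu' (R := fun _ => 0) (fun _ => le_rfl) (by simp) (by simp) e he
  simp only [mul_zero] at h1
  have h2 : |(u (e.1, e.2) : ℝ) - u' (e.1, e.2)| ≤
      ∑ i ∈ Finset.range (e.2 + 1), |(u (e.1, i) : ℝ) - u' (e.1, i)| :=
    Finset.single_le_sum (f := fun i => |(u (e.1, i) : ℝ) - u' (e.1, i)|)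
      (fun _ _ => abs_nonneg _) (Finset.mem_range.2 (Nat.lt_succ_self _))
  have h3 := abs_nonpos_iff.1 (h2.trans h1)
  apply Subtype.ext
  simpa using sub_eq_zero.1 h3

/-- estimator of the spin at `v` from the first `N` observations -/
noncomputable def hat (ε : ℝ) (N : ℕ) (v : V) (u : V × ℕ → unitInterval) : ℝ :=
  3 / (ε * N) * ∑ j ∈ Finset.range N, (2 * (u (v, j) : ℝ) - 1)

omit [IsProbabilityMeasure μ] in
lemma hat_le (h : Good μ ε κ ρ M) (N : ℕ) (v : V) (u : V × ℕ → unitInterval) :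
    |hat ε N v u| ≤ 3 / ε := by
  unfold hat
  rcases Nat.eq_zero_or_pos N with rfl | hN
  · simpa using (div_pos (by norm_num : (0:ℝ) < 3) h.eps_pos).le
  have hN' : (0:ℝ) < N := by exact_mod_cast hN
  have hεN : 0 < ε * N := mul_pos h.eps_pos hN'
  rw [abs_mul, abs_of_pos (div_pos (by norm_num) hεN)]
  have h1 : |∑ j ∈ Finset.range N, (2 * (u (v, j) : ℝ) - 1)| ≤ N := by
    refine (Finset.abs_sum_le_sum_abs _ _).trans ?_
    calc ∑ j ∈ Finset.range N, |2 * (u (v, j) : ℝ) - 1| ≤ ∑ j ∈ Finset.range N, (1:ℝ) :=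
          Finset.sum_le_sum fun j _ => abs_y_le _
      _ = N := by simp
  calc 3 / (ε * N) * _ ≤ 3 / (ε * N) * N := mul_le_mul_of_nonneg_left h1 (by positivity)
    _ = 3 / ε := by have := h.eps_pos; field_simp

/-- the reconstructed estimator as a function of the labels and the innovations -/
noncomputable def FF (μ : Measure (V → Bool)) (ε : ℝ) (B : Finset V) (N : ℕ) (v : V)
    (t : V → unitInterval) (g : V × ℕ → unitInterval) : ℝ :=
  hat ε N v (sol μ ε t (B ×ˢ Finset.range N) g)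

omit [IsProbabilityMeasure μ] in
lemma FF_le (h : Good μ ε κ ρ M) (B : Finset V) (N : ℕ) (v : V) (t : V → unitInterval)
    (g : V × ℕ → unitInterval) : |FF μ ε B N v t g| ≤ 3 / ε := hat_le h N v _

/-- the Lipschitz vector of the reconstructed estimator -/
lemma FF_lip (h : Good μ ε κ ρ M) (B : Finset V) {N : ℕ} (hN : 0 < N) {v : V} (hv : v ∈ B)
    (t : V → unitInterval) :
    LipVec (B ×ˢ Finset.range N) (fun e => 12 * 4 ^ N / (ε * N) * ρ v e.1) (FF μ ε B N v t) := by
  intro g g'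
  have hu := sol_isSol μ (ε := ε) t (B ×ˢ Finset.range N) g
  have hu' := sol_isSol μ (ε := ε) t (B ×ˢ Finset.range N) g'
  set S := B ×ˢ Finset.range N with hS
  set u := sol μ ε t S g
  set u' := sol μ ε t S g'
  have h1 := stab h hu hu' (R := fun w => ∑ e ∈ S, 2 * |(g e : ℝ) - g' e| * ρ w e.1)
    (fun w => Finset.sum_nonneg fun e _ => mul_nonneg (by positivity) (h.ρ_nonneg _ _))
    (by
      intro e he
      calc 2 * |(g e : ℝ) - g' e| ≤ 2 * |(g e : ℝ) - g' e| * ρ e.1 e.1 :=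
            le_mul_of_one_le_right (by positivity) (h.ρ_self _)
        _ ≤ _ := Finset.single_le_sum
            (f := fun f => 2 * |(g f : ℝ) - g' f| * ρ e.1 f.1)
            (fun f _ => mul_nonneg (by positivity) (h.ρ_nonneg _ _)) he)
    (by
      intro w
      calc ∑ x ∈ B, κ w x * ∑ e ∈ S, 2 * |(g e : ℝ) - g' e| * ρ x e.1
          = ∑ e ∈ S, 2 * |(g e : ℝ) - g' e| * ∑ x ∈ B, κ w x * ρ x e.1 := by
            simp_rw [Finset.mul_sum]
            rw [Finset.sum_comm]
            refine Finset.sum_congr rfl fun e _ => Finset.sum_congr rfl fun x _ => by ring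
        _ ≤ ∑ e ∈ S, 2 * |(g e : ℝ) - g' e| * (M * ρ w e.1) :=
            Finset.sum_le_sum fun e _ =>
              mul_le_mul_of_nonneg_left (h.kernel B w e.1) (by positivity)
        _ = _ := by rw [Finset.mul_sum]; exact Finset.sum_congr rfl fun e _ => by ring)
    (v, N - 1) (Finset.mem_product.2 ⟨hv, Finset.mem_range.2 (by simp; omega)⟩)
  simp only at h1
  have hN1 : N - 1 + 1 = N := by omega
  rw [hN1] at h1
  unfold FF hat
  rw [← mul_sub, ← Finset.sum_sub_distrib]
  have hN' : (0:ℝ) < N := by exact_mod_cast hN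
  have hεN : 0 < ε * N := mul_pos h.eps_pos hN'
  rw [abs_mul, abs_of_pos (div_pos (by norm_num) hεN)]
  have h2 : |∑ j ∈ Finset.range N, ((2 * (u (v, j) : ℝ) - 1) - (2 * (u' (v, j) : ℝ) - 1))| ≤
      2 * ∑ j ∈ Finset.range N, |(u (v, j) : ℝ) - u' (v, j)| := by
    refine (Finset.abs_sum_le_sum_abs _ _).trans ?_
    rw [Finset.mul_sum]
    refine Finset.sum_le_sum fun j _ => ?_
    have : (2 * (u (v, j) : ℝ) - 1) - (2 * (u' (v, j) : ℝ) - 1) =
      2 * ((u (v, j) : ℝ) - u' (v, j)) := by ring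
    rw [this, abs_mul, abs_two]
  calc 3 / (ε * N) * |∑ j ∈ Finset.range N,
        ((2 * (u (v, j) : ℝ) - 1) - (2 * (u' (v, j) : ℝ) - 1))|
      ≤ 3 / (ε * N) * (2 * (4 ^ N * ∑ e ∈ S, 2 * |(g e : ℝ) - g' e| * ρ v e.1)) :=
        mul_le_mul_of_nonneg_left (h2.trans (by linarith)) (by positivity)
    _ = ∑ e ∈ S, 12 * 4 ^ N / (ε * N) * ρ v e.1 * |(g e : ℝ) - g' e| := by
        simp_rw [Finset.mul_sum]
        refine Finset.sum_congr rfl fun e _ => ?_
        field_simp
        ring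

/-- causality: later rounds do not influence earlier ones -/
lemma past_range {t : V → unitInterval} {B : Finset V} {N N' : ℕ} (hN : N ≤ N') {e : V × ℕ}
    (he : e ∈ B ×ˢ Finset.range N) :
    past t (B ×ˢ Finset.range N') e = past t (B ×ˢ Finset.range N) e := by
  ext f
  rw [mem_past, mem_past, Finset.mem_product, Finset.mem_product, Finset.mem_range,
    Finset.mem_range]
  have he2 : e.2 < N := Finset.mem_range.1 (Finset.mem_product.1 he).2
  constructor
  · rintro ⟨⟨h1, h2⟩, hp⟩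
    refine ⟨⟨h1, ?_⟩, hp⟩
    rcases hp with hp | ⟨hp, _⟩ <;> omega
  · rintro ⟨⟨h1, h2⟩, hp⟩
    exact ⟨⟨h1, by omega⟩, hp⟩

omit [IsProbabilityMeasure μ] in
lemma IsSol.mono {t : V → unitInterval} {B : Finset V} {N N' : ℕ} (hN : N ≤ N')
    {g u : V × ℕ → unitInterval} (hu : IsSol μ ε t (B ×ˢ Finset.range N') g u) :
    IsSol μ ε t (B ×ˢ Finset.range N) g u := by
  intro e he
  have he' : e ∈ B ×ˢ Finset.range N' := by
    rw [Finset.mem_product, Finset.mem_range] at he ⊢
    exact ⟨he.1, by omega⟩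
  have := hu e he'
  unfold mm at this ⊢
  rw [past_range hN he] at this
  exact this

/-- the reconstructed estimator, evaluated at the innovations of `u`, is the estimator at `u` -/
lemma FF_innov (h : Good μ ε κ ρ M) (B : Finset V) {N N' : ℕ} (hN : N ≤ N') {v : V}
    (hv : v ∈ B) (t : V → unitInterval) (u : V × ℕ → unitInterval) :
    FF μ ε B N v t (innov μ ε t (B ×ˢ Finset.range N') u) = hat ε N v u := by
  unfold FF hat
  congr 1
  refine Finset.sum_congr rfl fun j hj => ?_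
  have h1 : IsSol μ ε t (B ×ˢ Finset.range N) (innov μ ε t (B ×ˢ Finset.range N') u) u :=
    (innov_isSol μ h.abs_eps t _ u).mono hN
  have h2 := (sol_isSol μ (ε := ε) t (B ×ˢ Finset.range N)
    (innov μ ε t (B ×ˢ Finset.range N') u)).unique h h1 (v, j)
    (Finset.mem_product.2 ⟨hv, hj⟩)
  rw [h2]

end stab

section equivariance

variable (γ : V ≃ V)

/-- action on configurations -/
def act {α : Type*} (x : V → α) : V → α := fun v => x (γ.symm v)

/-- action on families indexed by events -/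
def actE {α : Type*} (x : V × ℕ → α) : V × ℕ → α := fun e => x (γ.symm e.1, e.2)

/-- action on finite sets of events -/
def mapQ (Q : Finset (V × ℕ)) : Finset (V × ℕ) :=
  Q.map (γ.prodCongr (Equiv.refl ℕ)).toEmbedding

variable {μ : Measure (V → Bool)} (hγ : μ.map (act γ) = μ)

lemma measurable_act {α : Type*} [MeasurableSpace α] : Measurable (act γ : (V → α) → (V → α)) :=
  measurable_pi_lambda _ fun _ => measurable_pi_apply _

lemma integral_act {f : (V → Bool) → ℝ} (hf : Measurable f) (hγ : μ.map (act γ) = μ) :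
    ∫ τ, f (act γ τ) ∂μ = ∫ τ, f τ ∂μ := by
  conv_rhs => rw [← hγ]
  rw [integral_map (measurable_act γ).aemeasurable hf.aestronglyMeasurable]

lemma wt_act (ε : ℝ) (τ : V → Bool) (Q : Finset (V × ℕ)) (u : V × ℕ → unitInterval) :
    wt ε (act γ τ) (mapQ γ Q) (actE γ u) = wt ε τ Q u := by
  unfold wt pw mapQ
  rw [Finset.prod_map]
  refine Finset.prod_congr rfl fun f _ => ?_
  simp [act, actE]

include hγ

lemma den_act (ε : ℝ) (Q : Finset (V × ℕ)) (u : V × ℕ → unitInterval) :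
    den μ ε (mapQ γ Q) (actE γ u) = den μ ε Q u := by
  unfold den
  rw [← integral_act γ (measurable_wt_left ε (mapQ γ Q) (actE γ u)) hγ]
  congr 1; ext τ; exact wt_act γ ε τ Q u

lemma num_act (ε : ℝ) (Q : Finset (V × ℕ)) (v : V) (u : V × ℕ → unitInterval) :
    num μ ε (mapQ γ Q) (γ v) (actE γ u) = num μ ε Q v u := by
  unfold num
  rw [← integral_act γ (f := fun τ => spin (τ (γ v)) * wt ε τ (mapQ γ Q) (actE γ u))
    ((measurable_spin_apply (γ v)).mul (measurable_wt_left ε (mapQ γ Q) (actE γ u))) hγ]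
  congr 1; ext τ
  rw [wt_act γ ε τ Q u]
  simp [act]

lemma mg_act (ε : ℝ) (Q : Finset (V × ℕ)) (v : V) (u : V × ℕ → unitInterval) :
    mg μ ε (mapQ γ Q) (γ v) (actE γ u) = mg μ ε Q v u := by
  unfold mg
  rw [num_act γ hγ, den_act γ hγ]

omit hγ in
lemma past_act (t : V → unitInterval) (S : Finset (V × ℕ)) (e : V × ℕ) :
    past (act γ t) (mapQ γ S) (γ e.1, e.2) = mapQ γ (past t S e) := by
  ext f
  unfold mapQ
  rw [mem_past, Finset.mem_map, Finset.mem_map]
  constructor
  · rintro ⟨⟨f', hf', rfl⟩, hp⟩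
    refine ⟨f', mem_past.2 ⟨hf', ?_⟩, rfl⟩
    simpa [prec, act] using hp
  · rintro ⟨f', hf', rfl⟩
    refine ⟨⟨f', (mem_past.1 hf').1, rfl⟩, ?_⟩
    simpa [prec, act] using (mem_past.1 hf').2

lemma mm_act (ε : ℝ) (t : V → unitInterval) (S : Finset (V × ℕ)) (e : V × ℕ)
    (u : V × ℕ → unitInterval) :
    mm μ ε (act γ t) (mapQ γ S) (γ e.1, e.2) (actE γ u) = mm μ ε t S e u := by
  unfold mm
  rw [past_act]
  exact mg_act γ hγ ε _ e.1 u

lemma step_act (ε : ℝ) (t : V → unitInterval) (S : Finset (V × ℕ))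
    (g u : V × ℕ → unitInterval) :
    step μ ε (act γ t) (mapQ γ S) (actE γ g) (actE γ u) = actE γ (step μ ε t S g u) := by
  ext e
  congr 1
  obtain ⟨v, j⟩ := e
  obtain ⟨w, rfl⟩ := γ.surjective v
  have hmem : ((γ w, j) ∈ mapQ γ S) ↔ (w, j) ∈ S := by
    unfold mapQ
    rw [Finset.mem_map]
    constructor
    · rintro ⟨⟨a, b⟩, hab, h⟩
      simp only [Equiv.coe_toEmbedding, Equiv.prodCongr_apply, Prod.map_apply, Equiv.refl_apply,
        Prod.mk.injEq, EmbeddingLike.apply_eq_iff_eq] at h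
      rw [← h.1, ← h.2]; exact hab
    · intro h
      exact ⟨(w, j), h, by simp⟩
  have h1 := mm_act γ hγ ε t S (w, j) u
  simp only at h1
  unfold step
  rw [h1]
  simp only [actE]
  by_cases hw : (w, j) ∈ S
  · have hw' : (γ.symm (γ w), j) ∈ S := by simpa using hw
    rw [if_pos (hmem.2 hw), if_pos hw', Equiv.symm_apply_apply]
  · have hw' : (γ.symm (γ w), j) ∉ S := by simpa using hw
    rw [if_neg (fun h => hw (hmem.1 h)), if_neg hw', Equiv.symm_apply_apply]

lemma sol_act (ε : ℝ) (t : V → unitInterval) (S : Finset (V × ℕ)) (g : V × ℕ → unitInterval) :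
    sol μ ε (act γ t) (mapQ γ S) (actE γ g) = actE γ (sol μ ε t S g) := by
  unfold sol
  have hc : (mapQ γ S).card = S.card := by unfold mapQ; rw [Finset.card_map]
  rw [hc]
  generalize S.card = n
  induction n with
  | zero => rfl
  | succ n ih =>
    rw [Function.iterate_succ_apply', Function.iterate_succ_apply', ih, step_act γ hγ]

omit hγ in
lemma mapQ_product (B : Finset V) (N : ℕ) :
    mapQ γ (B ×ˢ Finset.range N) = (B.map γ.toEmbedding) ×ˢ Finset.range N := by
  ext ⟨v, j⟩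
  unfold mapQ
  simp only [Finset.mem_map, Finset.mem_product, Equiv.coe_toEmbedding, Equiv.prodCongr_apply,
    Prod.exists, Prod.map_apply, Equiv.refl_apply, Prod.mk.injEq]
  constructor
  · rintro ⟨a, b, ⟨h1, h2⟩, h3, h4⟩
    exact ⟨⟨a, h1, h3⟩, h4 ▸ h2⟩
  · rintro ⟨⟨a, h1, h3⟩, h2⟩
    exact ⟨a, j, ⟨h1, h2⟩, h3, rfl⟩

lemma FF_act (ε : ℝ) (B : Finset V) (N : ℕ) (v : V) (t : V → unitInterval)
    (g : V × ℕ → unitInterval) :
    FF μ ε (B.map γ.toEmbedding) N (γ v) (act γ t) (actE γ g) = FF μ ε B N v t g := by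
  unfold FF
  rw [← mapQ_product, sol_act γ hγ]
  unfold hat
  congr 1
  refine Finset.sum_congr rfl fun j _ => ?_
  simp [actE]

end equivariance

end Vale.Agent.P161
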