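import Mathlib

/-! Counting spheres in graphs of bounded degree. -/

set_option autoImplicit false

namespace Vale.Agent.P161.Tree

universe u

variable {V : Type u} {G : SimpleGraph V} {d : ℕ}

/-- the sphere of radius `k` -/
def sphere (G : SimpleGraph V) (v : V) (k : ℕ) : Set V := {w | G.dist v w = k}

lemma sphere_zero (hG : G.Connected) (v : V) : sphere G v 0 = {v} := by
  ext w
  simp only [sphere, Set.mem_ofPred_eq, Set.mem_singleton_iff]
  rw [hG.dist_eq_zero_iff]
  exact eq_comm

/-- every vertex at distance `k + 1` has a neighbour at distance `k` -/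
lemma exists_pred (hG : G.Connected) {v w : V} {k : ℕ} (h : G.dist v w = k + 1) :
    ∃ u, G.dist v u = k ∧ G.Adj u w := by
  obtain ⟨p, hp⟩ := (hG v w).exists_walk_length_eq_dist
  rw [h] at hp
  have hlen : ¬ p.Nil := by
    intro hn
    have := SimpleGraph.Walk.length_eq_zero_iff.2 hn
    omega
  refine ⟨p.penultimate, ?_, p.adj_penultimate hlen⟩
  have h1 : G.dist v p.penultimate ≤ k := by
    have := SimpleGraph.dist_le p.dropLast
    rw [SimpleGraph.Walk.length_dropLast] at this
    omega
  have h2 : G.dist v w ≤ G.dist v p.penultimate + 1 := by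
    have h3 := hG.dist_triangle (u := v) (v := p.penultimate) (w := w)
    have h4 : G.dist p.penultimate w = 1 :=
      SimpleGraph.dist_eq_one_iff_adj.2 (p.adj_penultimate hlen)
    omega
  omega

/-- all degrees are finite and at most `d` -/
def DegLe (G : SimpleGraph V) (d : ℕ) : Prop :=
  ∀ v, (G.neighborSet v).Finite ∧ (G.neighborSet v).ncard ≤ d

lemma children_ncard_le (hG : G.Connected) (hd : DegLe G d) {v u : V} {k : ℕ}
    (hu : u ∈ sphere G v (k + 1)) :
    (G.neighborSet u ∩ sphere G v (k + 2)).ncard ≤ d - 1 := by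
  obtain ⟨x, hx1, hx2⟩ := exists_pred hG hu
  have h1 : G.neighborSet u ∩ sphere G v (k + 2) ⊆ G.neighborSet u \ {x} := by
    rintro y ⟨hy1, hy2⟩
    refine ⟨hy1, ?_⟩
    rintro rfl
    have h3 : G.dist v y = k + 2 := hy2
    omega
  have hfin := (hd u).1
  have h2 := Set.ncard_le_ncard h1 hfin.sdiff
  rw [Set.ncard_sdiff_singleton_of_mem (show x ∈ G.neighborSet u from hx2.symm)] at h2
  have := (hd u).2
  omega

lemma sphere_finite (hG : G.Connected) (hd : DegLe G d) (v : V) (k : ℕ) :
    (sphere G v k).Finite := by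
  induction k with
  | zero => rw [sphere_zero hG]; exact Set.finite_singleton v
  | succ k ih =>
    refine (ih.biUnion fun u _ => (hd u).1).subset ?_
    intro w hw
    obtain ⟨u, hu1, hu2⟩ := exists_pred hG (show G.dist v w = k + 1 from hw)
    exact Set.mem_biUnion (show u ∈ sphere G v k from hu1) hu2

lemma ncard_biUnion_le' {α β : Type*} {s : Set α} (hs : s.Finite) (t : α → Set β) (n : ℕ)
    (ht : ∀ a ∈ s, (t a).Finite ∧ (t a).ncard ≤ n) : (⋃ a ∈ s, t a).ncard ≤ s.ncard * n := by
  classical
  induction s, hs using Set.Finite.induction_on with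
  | empty => simp
  | @insert a s ha hs ih =>
    rw [Set.biUnion_insert, Set.ncard_insert_of_notMem ha hs]
    have h1 := Set.ncard_union_le (t a) (⋃ x ∈ s, t x)
    have h2 := ih fun b hb => ht b (Set.mem_insert_of_mem _ hb)
    have h3 := (ht a (Set.mem_insert _ _)).2
    calc _ ≤ _ := h1
      _ ≤ n + s.ncard * n := by omega
      _ = (s.ncard + 1) * n := by ring

theorem sphere_ncard_le (hG : G.Connected) (hd : DegLe G d) (v : V) (k : ℕ) :
    (sphere G v (k + 1)).ncard ≤ d * (d - 1) ^ k := by
  induction k with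
  | zero =>
    have h1 : sphere G v 1 ⊆ G.neighborSet v := by
      intro w hw
      exact SimpleGraph.dist_eq_one_iff_adj.1 hw
    have := Set.ncard_le_ncard h1 (hd v).1
    have := (hd v).2
    simp only [zero_add, pow_zero, mul_one]
    omega
  | succ k ih =>
    have h1 : sphere G v (k + 2) ⊆ ⋃ u ∈ sphere G v (k + 1),
        (G.neighborSet u ∩ sphere G v (k + 2)) := by
      intro w hw
      obtain ⟨u, hu1, hu2⟩ := exists_pred hG (show G.dist v w = (k + 1) + 1 from hw)
      exact Set.mem_biUnion (show u ∈ sphere G v (k + 1) from hu1) ⟨hu2, hw⟩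
    have hfin : (⋃ u ∈ sphere G v (k + 1), (G.neighborSet u ∩ sphere G v (k + 2))).Finite :=
      (sphere_finite hG hd v (k + 1)).biUnion fun u _ => (hd u).1.inter_of_left _
    calc (sphere G v (k + 1 + 1)).ncard ≤ _ := Set.ncard_le_ncard h1 hfin
      _ ≤ (sphere G v (k + 1)).ncard * (d - 1) :=
          ncard_biUnion_le' (sphere_finite hG hd v (k + 1)) _ _ fun u hu =>
            ⟨(hd u).1.inter_of_left _, children_ncard_le hG hd hu⟩
      _ ≤ d * (d - 1) ^ k * (d - 1) := Nat.mul_le_mul_right _ ih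
      _ = d * (d - 1) ^ (k + 1) := by ring

/-- exponential weights are summable -/
theorem summable_pow_dist (hG : G.Connected) (hd : DegLe G d) {r : ℝ} (hr0 : 0 ≤ r)
    (hr : ((d - 1 : ℕ) : ℝ) * r < 1) (v : V) : Summable fun w => r ^ G.dist v w := by
  classical
  -- partial sums over finite sets are bounded
  have hq0 : 0 ≤ ((d - 1 : ℕ) : ℝ) * r := by positivity
  have hgeo := summable_geometric_of_lt_one hq0 hr
  set B : ℝ := 1 + d * r * ∑' k : ℕ, (((d - 1 : ℕ) : ℝ) * r) ^ k with hB
  refine summable_of_sum_le (c := B) (fun w => by positivity) fun s => ?_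
  -- group by the distance
  obtain ⟨N, hN⟩ : ∃ N, ∀ w ∈ s, G.dist v w < N + 1 :=
    ⟨s.sup fun w => G.dist v w, fun w hw => Nat.lt_succ_of_le (Finset.le_sup (f := fun w =>
      G.dist v w) hw)⟩
  have h1 : ∑ w ∈ s, r ^ G.dist v w = ∑ k ∈ Finset.range (N + 1),
      ∑ w ∈ s with G.dist v w = k, r ^ G.dist v w := by
    rw [Finset.sum_fiberwise_of_maps_to]
    intro w hw
    exact Finset.mem_range.2 (hN w hw)
  have hcard : ∀ k, ((s.filter fun w => G.dist v w = k).card : ℝ) ≤ (sphere G v k).ncard := by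
    intro k
    have h2 : ((s.filter fun w => G.dist v w = k : Finset V) : Set V) ⊆ sphere G v k := by
      intro w hw
      exact (Finset.mem_filter.1 hw).2
    have := Set.ncard_le_ncard h2 (sphere_finite hG hd v k)
    rw [Set.ncard_coe_finset] at this
    exact_mod_cast this
  have h3 : ∀ k, ∑ w ∈ s with G.dist v w = k, r ^ G.dist v w ≤ (sphere G v k).ncard * r ^ k := by
    intro k
    rw [Finset.sum_congr rfl (g := fun _ => r ^ k) fun w hw => by rw [(Finset.mem_filter.1 hw).2]]
    rw [Finset.sum_const, nsmul_eq_mul]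
    exact mul_le_mul_of_nonneg_right (hcard k) (by positivity)
  rw [h1, Finset.sum_range_succ']
  have h4 : ∑ w ∈ s with G.dist v w = 0, r ^ G.dist v w ≤ 1 := by
    refine (h3 0).trans ?_
    rw [sphere_zero hG, Set.ncard_singleton]
    simp
  have h5 : ∑ k ∈ Finset.range N, ∑ w ∈ s with G.dist v w = k + 1, r ^ G.dist v w ≤
      d * r * ∑' k : ℕ, (((d - 1 : ℕ) : ℝ) * r) ^ k := by
    calc _ ≤ ∑ k ∈ Finset.range N, d * r * (((d - 1 : ℕ) : ℝ) * r) ^ k := by
          refine Finset.sum_le_sum fun k _ => ?_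
          refine (h3 (k + 1)).trans ?_
          have h6 : ((sphere G v (k + 1)).ncard : ℝ) ≤ d * ((d - 1 : ℕ) : ℝ) ^ k := by
            exact_mod_cast sphere_ncard_le hG hd v k
          calc _ ≤ (d * ((d - 1 : ℕ) : ℝ) ^ k) * r ^ (k + 1) :=
                mul_le_mul_of_nonneg_right h6 (by positivity)
            _ = d * r * (((d - 1 : ℕ) : ℝ) * r) ^ k := by rw [mul_pow]; ring
      _ = d * r * ∑ k ∈ Finset.range N, (((d - 1 : ℕ) : ℝ) * r) ^ k := by rw [Finset.mul_sum]
      _ ≤ _ := by
          refine mul_le_mul_of_nonneg_left ?_ (by positivity)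
          exact hgeo.sum_le_tsum _ fun k _ => by positivity
  linarith

end Vale.Agent.P161.Tree
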