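import Vale.Agent.P161.Defs
import Vale.Agent.P161.TreeCount

/-! Parents in trees, sets closed under parents. -/

set_option autoImplicit false

namespace Vale.Agent.P161.Tree

variable {V : Type*} {G : SimpleGraph V}

lemma parent_unique (hT : G.IsTree) {r w p q : V} (hp : G.Adj p w) (hq : G.Adj q w)
    (hp' : G.dist r p + 1 = G.dist r w) (hq' : G.dist r q + 1 = G.dist r w) : p = q := by
  obtain ⟨P, hP⟩ := (hT.connected r p).exists_walk_length_eq_dist
  obtain ⟨Q, hQ⟩ := (hT.connected r q).exists_walk_length_eq_dist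
  have h1 : (P.concat hp).IsPath := SimpleGraph.Walk.isPath_of_length_eq_dist _ (by
    rw [SimpleGraph.Walk.length_concat, hP, hp'])
  have h2 : (Q.concat hq).IsPath := SimpleGraph.Walk.isPath_of_length_eq_dist _ (by
    rw [SimpleGraph.Walk.length_concat, hQ, hq'])
  have h3 := (hT.isAcyclic.subsingleton_path r w).elim ⟨_, h1⟩ ⟨_, h2⟩
  have h4 : P.concat hp = Q.concat hq := congrArg Subtype.val h3
  have h5 := congrArg SimpleGraph.Walk.penultimate h4
  simpa using h5

open Classical in
/-- the parent of `w` with respect to the root `r` -/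
noncomputable def par (G : SimpleGraph V) (r w : V) : V :=
  if h : ∃ p, G.Adj p w ∧ G.dist r p + 1 = G.dist r w then h.choose else w

lemma par_spec (hG : G.Connected) {r w : V} (hw : w ≠ r) :
    G.Adj (par G r w) w ∧ G.dist r (par G r w) + 1 = G.dist r w := by
  have h : ∃ p, G.Adj p w ∧ G.dist r p + 1 = G.dist r w := by
    have hpos := hG.pos_dist_of_ne (Ne.symm hw)
    obtain ⟨k, hk⟩ : ∃ k, G.dist r w = k + 1 := ⟨G.dist r w - 1, by omega⟩
    obtain ⟨u, hu1, hu2⟩ := exists_pred hG hk
    exact ⟨u, hu2, by omega⟩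
  unfold par
  rw [dif_pos h]
  exact h.choose_spec

lemma dist_adj (hT : G.IsTree) {r x y : V} (h : G.Adj x y) :
    G.dist r x = G.dist r y + 1 ∨ G.dist r y = G.dist r x + 1 := by
  have h1 := hT.dist_ne_of_adj r h
  have h2 := hT.connected.dist_triangle (u := r) (v := x) (w := y)
  have h3 := hT.connected.dist_triangle (u := r) (v := y) (w := x)
  rw [SimpleGraph.dist_comm (u := y) (v := x)] at h3
  rw [SimpleGraph.dist_eq_one_iff_adj.2 h] at h2 h3
  omega

/-- a neighbour which is not farther is the parent -/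
lemma eq_par (hT : G.IsTree) {r x w : V} (h : G.Adj x w) (hle : G.dist r x ≤ G.dist r w) :
    x = par G r w := by
  have h1 : G.dist r x + 1 = G.dist r w := by
    rcases dist_adj hT (r := r) h with h2 | h2 <;> omega
  have hw : w ≠ r := by
    rintro rfl
    rw [SimpleGraph.dist_self] at h1
    omega
  obtain ⟨h2, h3⟩ := par_spec hT.connected hw
  exact parent_unique hT h h2 h1 h3

/-- finite sets containing the root and closed under parents -/
def Closed (G : SimpleGraph V) (r : V) (D : Finset V) : Prop :=
  r ∈ D ∧ ∀ w ∈ D, w ≠ r → par G r w ∈ D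

lemma Closed.connected (hG : G.Connected) {r : V} {D : Finset V} (h : Closed G r D) :
    (G.induce (D : Set V)).Connected := by
  have key : ∀ n : ℕ, ∀ w (hw : w ∈ D), G.dist r w = n →
      (G.induce (D : Set V)).Reachable ⟨w, hw⟩ ⟨r, h.1⟩ := by
    intro n
    induction n with
    | zero =>
      intro w hw h0
      have : r = w := hG.dist_eq_zero_iff.1 h0
      subst this
      exact SimpleGraph.Reachable.refl _
    | succ n ih =>
      intro w hw hn
      have hne : w ≠ r := by
        rintro rfl
        rw [SimpleGraph.dist_self] at hn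
        omega
      obtain ⟨h1, h2⟩ := par_spec hG hne
      have h3 := ih (par G r w) (h.2 w hw hne) (by omega)
      have h4 : (G.induce (D : Set V)).Adj ⟨w, hw⟩ ⟨par G r w, h.2 w hw hne⟩ := by
        simpa using h1.symm
      exact h4.reachable.trans h3
  have : Nonempty (D : Set V) := ⟨⟨r, h.1⟩⟩
  refine SimpleGraph.Connected.mk ?_
  intro a b
  have ha := key _ a.1 a.2 rfl
  have hb := key _ b.1 b.2 rfl
  exact ha.trans hb.symm

/-- closure of a finite set: add all ancestors -/
lemma exists_closed (hG : G.Connected) (r : V) (D : Finset V) :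
    ∃ D' : Finset V, D ⊆ D' ∧ Closed G r D' := by
  classical
  -- first for a single vertex
  have key : ∀ n : ℕ, ∀ w, G.dist r w = n → ∃ D' : Finset V, w ∈ D' ∧ Closed G r D' := by
    intro n
    induction n with
    | zero =>
      intro w h0
      have : r = w := hG.dist_eq_zero_iff.1 h0
      subst this
      refine ⟨{r}, Finset.mem_singleton_self _, Finset.mem_singleton_self _, ?_⟩
      intro w hw hne
      exact absurd (Finset.mem_singleton.1 hw) hne
    | succ n ih =>
      intro w hn
      have hne : w ≠ r := by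
        rintro rfl
        rw [SimpleGraph.dist_self] at hn
        omega
      obtain ⟨h1, h2⟩ := par_spec hG hne
      obtain ⟨D', hD1, hD2⟩ := ih (par G r w) (by omega)
      refine ⟨insert w D', Finset.mem_insert_self _ _, Finset.mem_insert_of_mem hD2.1, ?_⟩
      intro x hx hxr
      rcases Finset.mem_insert.1 hx with rfl | hx
      · exact Finset.mem_insert_of_mem hD1
      · exact Finset.mem_insert_of_mem (hD2.2 x hx hxr)
  induction D using Finset.induction_on with
  | empty =>
    refine ⟨{r}, Finset.empty_subset _, Finset.mem_singleton_self _, ?_⟩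
    intro w hw hne
    exact absurd (Finset.mem_singleton.1 hw) hne
  | insert a D _ ih =>
    obtain ⟨D1, h1, h2⟩ := ih
    obtain ⟨D2, h3, h4⟩ := key _ a rfl
    refine ⟨D1 ∪ D2, ?_, Finset.mem_union_left _ h2.1, ?_⟩
    · intro x hx
      rcases Finset.mem_insert.1 hx with rfl | hx
      · exact Finset.mem_union_right _ h3
      · exact Finset.mem_union_left _ (h1 hx)
    · intro x hx hxr
      rcases Finset.mem_union.1 hx with hx | hx
      · exact Finset.mem_union_left _ (h2.2 x hx hxr)
      · exact Finset.mem_union_right _ (h4.2 x hx hxr)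

open Classical in
/-- removing a farthest vertex -/
lemma Closed.exists_remove (hT : G.IsTree) {r : V} {D : Finset V} (h : Closed G r D)
    (hne : D ≠ {r}) : ∃ l D₁, l ∉ D₁ ∧ D = insert l D₁ ∧ Closed G r D₁ ∧ l ≠ r ∧
      par G r l ∈ D₁ ∧ (∀ w ∈ D₁, G.dist r w ≤ G.dist r l) ∧
      ∀ w ∈ D₁, G.Adj w l → w = par G r l := by
  classical
  obtain ⟨l, hl, hmax⟩ := D.exists_max_image (fun w => G.dist r w) ⟨r, h.1⟩
  have hlr : l ≠ r := by
    rintro rfl
    apply hne
    ext w
    rw [Finset.mem_singleton]
    constructor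
    · intro hw
      have := hmax w hw
      rw [SimpleGraph.dist_self] at this
      exact (hT.connected.dist_eq_zero_iff.1 (Nat.le_zero.1 this)).symm
    · rintro rfl; exact hl
  obtain ⟨h1, h2⟩ := par_spec hT.connected hlr
  have hpl : par G r l ≠ l := fun h3 => h1.ne h3
  refine ⟨l, D.erase l, Finset.notMem_erase _ _, (Finset.insert_erase hl).symm, ⟨?_, ?_⟩, hlr,
    Finset.mem_erase.2 ⟨hpl, h.2 l hl hlr⟩, ?_, ?_⟩
  · exact Finset.mem_erase.2 ⟨hlr.symm, h.1⟩
  · intro w hw hwr
    obtain ⟨hw1, hw2⟩ := Finset.mem_erase.1 hw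
    refine Finset.mem_erase.2 ⟨?_, h.2 w hw2 hwr⟩
    intro h3
    have h4 := (par_spec hT.connected hwr).2
    rw [h3] at h4
    have := hmax w hw2
    omega
  · intro w hw
    exact hmax w (Finset.mem_erase.1 hw).2
  · intro w hw hadj
    exact eq_par hT hadj (hmax w (Finset.mem_erase.1 hw).2)

lemma mem_edgesIn {D : Finset V} {e : Sym2 V} :
    e ∈ edgesIn G D ↔ e ∈ G.edgeSet ∧ ∀ v ∈ e, v ∈ D := by
  classical
  unfold edgesIn
  rw [Finset.mem_filter, Finset.mem_sym2_iff]
  tauto

lemma edgesIn_singleton (r : V) : edgesIn G {r} = ∅ := by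
  rw [Finset.eq_empty_iff_forall_notMem]
  intro e he
  rw [mem_edgesIn] at he
  induction e with
  | _ a b =>
    obtain ⟨h1, h2⟩ := he
    have ha := Finset.mem_singleton.1 (h2 a (by simp))
    have hb := Finset.mem_singleton.1 (h2 b (by simp))
    rw [SimpleGraph.mem_edgeSet] at h1
    exact h1.ne (ha.trans hb.symm)

open Classical in
lemma edgesIn_insert {l p : V} {D : Finset V} (hl : l ∉ D) (hp : p ∈ D) (hadj : G.Adj p l)
    (h : ∀ w ∈ D, G.Adj w l → w = p) :
    edgesIn G (insert l D) = insert s(l, p) (edgesIn G D) ∧ s(l, p) ∉ edgesIn G D := by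
  constructor
  · ext e
    rw [Finset.mem_insert, mem_edgesIn, mem_edgesIn]
    induction e with
    | _ a b =>
      simp only [SimpleGraph.mem_edgeSet, Sym2.mem_iff, forall_eq_or_imp, forall_eq,
        Finset.mem_insert]
      constructor
      · rintro ⟨h1, ha, hb⟩
        rcases ha with rfl | ha
        · rcases hb with rfl | hb
          · exact absurd rfl h1.ne
          · left
            rw [h b hb h1.symm]
        · rcases hb with rfl | hb
          · left
            rw [h a ha h1]
            exact Sym2.eq_swap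
          · exact Or.inr ⟨h1, ha, hb⟩
      · rintro (h1 | ⟨h1, ha, hb⟩)
        · rcases Sym2.eq_iff.1 h1 with ⟨rfl, rfl⟩ | ⟨rfl, rfl⟩
          · exact ⟨hadj.symm, Or.inl rfl, Or.inr hp⟩
          · exact ⟨hadj, Or.inr hp, Or.inl rfl⟩
        · exact ⟨h1, Or.inr ha, Or.inr hb⟩
  · intro h1
    rw [mem_edgesIn] at h1
    exact hl (h1.2 l (by simp))

end Vale.Agent.P161.Tree
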