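import Vale.Agent.P161.TreeBasic

/-! Sums over trees with exponential weights. -/

set_option autoImplicit false

open MeasureTheory

namespace Vale.Agent.P161

variable {V : Type*}

namespace Tree

variable {G : SimpleGraph V}

lemma sphere_finite' (hG : G.Connected) (hd : ∀ v, (G.neighborSet v).Finite) (v : V) (k : ℕ) :
    (sphere G v k).Finite := by
  induction k with
  | zero => rw [sphere_zero hG]; exact Set.finite_singleton v
  | succ k ih =>
    refine (ih.biUnion fun u _ => hd u).subset ?_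
    intro w hw
    obtain ⟨u, hu1, hu2⟩ := exists_pred hG (show G.dist v w = k + 1 from hw)
    exact Set.mem_biUnion (show u ∈ sphere G v k from hu1) hu2

/-- uniform bound for the sums -/
theorem sum_pow_dist_le {d : ℕ} (hG : G.Connected) (hd : DegLe G d) {r : ℝ} (hr0 : 0 ≤ r)
    (hr : ((d - 1 : ℕ) : ℝ) * r < 1) :
    ∃ C : ℝ, 0 ≤ C ∧ ∀ (v : V) (s : Finset V), ∑ w ∈ s, r ^ G.dist v w ≤ C := by
  classical
  have hq0 : 0 ≤ ((d - 1 : ℕ) : ℝ) * r := by positivity
  have hgeo := summable_geometric_of_lt_one hq0 hr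
  refine ⟨1 + d * r * ∑' k : ℕ, (((d - 1 : ℕ) : ℝ) * r) ^ k, ?_, fun v s => ?_⟩
  · have : 0 ≤ ∑' k : ℕ, (((d - 1 : ℕ) : ℝ) * r) ^ k := tsum_nonneg fun k => by positivity
    positivity
  -- group by the distance
  obtain ⟨N, hN⟩ : ∃ N, ∀ w ∈ s, G.dist v w < N + 1 :=
    ⟨s.sup fun w => G.dist v w, fun w hw => Nat.lt_succ_of_le (Finset.le_sup (f := fun w =>
      G.dist v w) hw)⟩
  have h1 : ∑ w ∈ s, r ^ G.dist v w = ∑ k ∈ Finset.range (N + 1),
      ∑ w ∈ s with G.dist v w = k, r ^ G.dist v w := by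
    rw [Finset.sum_fiberwise_of_maps_to]
    intro w hw
    exact Finset.mem_range.2 (hN w hw)
  have hcard : ∀ k, ((s.filter fun w => G.dist v w = k).card : ℝ) ≤ (sphere G v k).ncard := by
    intro k
    have h2 : ((s.filter fun w => G.dist v w = k : Finset V) : Set V) ⊆ sphere G v k := by
      intro w hw
      exact (Finset.mem_filter.1 hw).2
    have := Set.ncard_le_ncard h2 (sphere_finite hG hd v k)
    rw [Set.ncard_coe_finset] at this
    exact_mod_cast this
  have h3 : ∀ k, ∑ w ∈ s with G.dist v w = k, r ^ G.dist v w ≤ (sphere G v k).ncard * r ^ k := by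
    intro k
    rw [Finset.sum_congr rfl (g := fun _ => r ^ k) fun w hw => by rw [(Finset.mem_filter.1 hw).2]]
    rw [Finset.sum_const, nsmul_eq_mul]
    exact mul_le_mul_of_nonneg_right (hcard k) (by positivity)
  rw [h1, Finset.sum_range_succ']
  have h4 : ∑ w ∈ s with G.dist v w = 0, r ^ G.dist v w ≤ 1 := by
    refine (h3 0).trans ?_
    rw [sphere_zero hG, Set.ncard_singleton]
    simp
  have h5 : ∑ k ∈ Finset.range N, ∑ w ∈ s with G.dist v w = k + 1, r ^ G.dist v w ≤
      d * r * ∑' k : ℕ, (((d - 1 : ℕ) : ℝ) * r) ^ k := by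
    calc _ ≤ ∑ k ∈ Finset.range N, d * r * (((d - 1 : ℕ) : ℝ) * r) ^ k := by
          refine Finset.sum_le_sum fun k _ => ?_
          refine (h3 (k + 1)).trans ?_
          have h6 : ((sphere G v (k + 1)).ncard : ℝ) ≤ d * ((d - 1 : ℕ) : ℝ) ^ k := by
            exact_mod_cast sphere_ncard_le hG hd v k
          calc _ ≤ (d * ((d - 1 : ℕ) : ℝ) ^ k) * r ^ (k + 1) :=
                mul_le_mul_of_nonneg_right h6 (by positivity)
            _ = d * r * (((d - 1 : ℕ) : ℝ) * r) ^ k := by rw [mul_pow]; ring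
      _ = d * r * ∑ k ∈ Finset.range N, (((d - 1 : ℕ) : ℝ) * r) ^ k := by rw [Finset.mul_sum]
      _ ≤ _ := by
          refine mul_le_mul_of_nonneg_left ?_ (by positivity)
          exact hgeo.sum_le_tsum _ fun k _ => by positivity
  linarith

/-- if the parent of `v` (towards `u`) is farther from `w` than `v`, then `v` lies between `w`
and `u` -/
lemma between (hT : G.IsTree) (u w : V) : ∀ (n : ℕ) (v : V), G.dist u v = n + 1 →
    G.dist w (par G u v) = G.dist w v + 1 → G.dist w u = G.dist w v + G.dist u v := by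
  intro n
  induction n with
  | zero =>
    intro v hv h
    have hvu : v ≠ u := by
      rintro rfl
      rw [SimpleGraph.dist_self] at hv
      omega
    have h1 := (par_spec hT.connected hvu).2
    have h2 : u = par G u v := hT.connected.dist_eq_zero_iff.1 (by omega)
    rw [← h2] at h
    omega
  | succ n ih =>
    intro v hv h
    have hvu : v ≠ u := by
      rintro rfl
      rw [SimpleGraph.dist_self] at hv
      omega
    obtain ⟨h1, h2⟩ := par_spec hT.connected hvu
    set p := par G u v with hp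
    have hpu : p ≠ u := by
      intro h3
      rw [h3, SimpleGraph.dist_self] at h2
      omega
    obtain ⟨h3, h4⟩ := par_spec hT.connected hpu
    set q := par G u p with hq
    rcases dist_adj hT (r := w) h3 with h5 | h5
    · have := ih p (by omega) h5
      omega
    · -- `q` and `v` are both parents of `p` with respect to `w`
      have h6 : q = v := parent_unique hT h3 h1.symm h5.symm h.symm
      rw [h6] at h4
      omega

end Tree

theorem B1 (G : SimpleGraph V) [G.LocallyFinite] (hG : G.Connected) : Countable V := by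
  obtain ⟨v⟩ := hG.nonempty
  have h1 : (Set.univ : Set V) = ⋃ k : ℕ, Tree.sphere G v k := by
    ext w
    simp [Tree.sphere]
  have h2 : (Set.univ : Set V).Countable := by
    rw [h1]
    exact Set.countable_iUnion fun k =>
      (Tree.sphere_finite' hG (fun v => Set.toFinite _) v k).countable
  exact Set.countable_univ_iff.1 h2

lemma Tree.degLe_of_regular {d : ℕ} {G : SimpleGraph V} [G.LocallyFinite]
    (hreg : G.IsRegularOfDegree d) : Tree.DegLe G d := by
  intro v
  refine ⟨Set.toFinite _, ?_⟩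
  have := hreg v
  rw [← this, ← SimpleGraph.card_neighborSet_eq_degree, Set.ncard_eq_toFinset_card',
    Set.toFinset_card]

theorem B3 (d : ℕ) (hd : 3 ≤ d) (G : SimpleGraph V) [G.LocallyFinite] (hT : G.IsTree)
    (hreg : G.IsRegularOfDegree d) (ρ : ℝ) (hρ0 : 0 ≤ ρ)
    (hρ : ((d : ℝ) - 1) * ρ ^ 2 < 1) (v : V) :
    Summable fun u => (ρ ^ (G.dist v u)) ^ 2 := by
  have h1 : ((d - 1 : ℕ) : ℝ) = (d : ℝ) - 1 := by
    rw [Nat.cast_sub (by omega), Nat.cast_one]
  have h2 := Tree.summable_pow_dist hT.connected (Tree.degLe_of_regular hreg)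
    (r := ρ ^ 2) (by positivity) (by rw [h1]; exact hρ) v
  refine h2.congr fun u => ?_
  rw [← pow_mul, ← pow_mul, mul_comm]

theorem B2 (d : ℕ) (hd : 3 ≤ d) (G : SimpleGraph V) [G.LocallyFinite] (hT : G.IsTree)
    (hreg : G.IsRegularOfDegree d) (θ ρ : ℝ) (hθ0 : 0 ≤ θ) (hθρ : θ < ρ)
    (hρ : ((d : ℝ) - 1) * ρ ^ 2 < 1) :
    ∃ M : ℝ, ∀ (D : Finset V) (v u : V),
      ∑ w ∈ D, θ ^ (G.dist v w) * ρ ^ (G.dist w u) ≤ M * ρ ^ (G.dist v u) := by
  classical
  have hρ0 : 0 < ρ := lt_of_le_of_lt hθ0 hθρ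
  have h1 : ((d - 1 : ℕ) : ℝ) = (d : ℝ) - 1 := by
    rw [Nat.cast_sub (by omega), Nat.cast_one]
  have hd1 : 0 ≤ (d : ℝ) - 1 := by rw [← h1]; positivity
  have h2 : ((d - 1 : ℕ) : ℝ) * (θ * ρ) < 1 := by
    rw [h1]
    have : θ * ρ ≤ ρ ^ 2 := by nlinarith
    have := mul_le_mul_of_nonneg_left this hd1
    linarith
  obtain ⟨C, hC0, hC⟩ := Tree.sum_pow_dist_le hT.connected (Tree.degLe_of_regular hreg)
    (r := θ * ρ) (by positivity) h2
  have hden : 0 < 1 - θ / ρ := by
    rw [sub_pos, div_lt_one hρ0]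
    exact hθρ
  refine ⟨C / (1 - θ / ρ), fun D => ?_⟩
  set M := C / (1 - θ / ρ) with hM
  have hM0 : 0 ≤ M := by positivity
  have hMeq : θ * M + C * ρ = M * ρ := by
    have : M * (1 - θ / ρ) = C := by rw [hM]; exact div_mul_cancel₀ _ hden.ne'
    have h3 : C * ρ = M * (ρ - θ) := by
      rw [← this]; field_simp
    rw [h3]; ring
  have hCM : C ≤ M := by
    rw [hM, le_div_iff₀ hden]
    have : 0 ≤ θ / ρ := by positivity
    nlinarith
  have key : ∀ (n : ℕ) (v u : V), G.dist u v = n →
      ∑ w ∈ D, θ ^ (G.dist v w) * ρ ^ (G.dist w u) ≤ M * ρ ^ n := by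
    intro n
    induction n with
    | zero =>
      intro v u hn
      have huv : u = v := hT.connected.dist_eq_zero_iff.1 hn
      subst huv
      rw [pow_zero, mul_one]
      refine le_trans (le_of_eq ?_) ((hC u D).trans hCM)
      refine Finset.sum_congr rfl fun w _ => ?_
      rw [SimpleGraph.dist_comm (u := w), mul_pow]
    | succ n ih =>
      intro v u hn
      have hvu : v ≠ u := by
        rintro rfl
        rw [SimpleGraph.dist_self] at hn
        omega
      obtain ⟨h3, h4⟩ := Tree.par_spec hT.connected hvu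
      set p := Tree.par G u v with hp
      have h5 := ih p u (by omega)
      have h6 : ∀ w ∈ D, θ ^ (G.dist v w) * ρ ^ (G.dist w u) ≤
          θ * (θ ^ (G.dist p w) * ρ ^ (G.dist w u)) + ρ ^ (n + 1) * (θ * ρ) ^ (G.dist v w) := by
        intro w _
        rcases Tree.dist_adj hT (r := w) h3 with h7 | h7
        · -- `v` between `w` and `u`
          have h8 := Tree.between hT u w n v hn h7
          have h9 : θ ^ (G.dist v w) * ρ ^ (G.dist w u) =
              ρ ^ (n + 1) * (θ * ρ) ^ (G.dist v w) := by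
            rw [h8, hn, SimpleGraph.dist_comm (u := w) (v := v), pow_add, mul_pow]
            ring
          rw [h9]
          have : 0 ≤ θ * (θ ^ (G.dist p w) * ρ ^ (G.dist w u)) := by positivity
          linarith
        · have h9 : θ ^ (G.dist v w) * ρ ^ (G.dist w u) =
              θ * (θ ^ (G.dist p w) * ρ ^ (G.dist w u)) := by
            rw [SimpleGraph.dist_comm (u := v) (v := w), h7, SimpleGraph.dist_comm (u := p) (v := w),
              pow_succ]
            ring
          rw [h9]
          have : 0 ≤ ρ ^ (n + 1) * (θ * ρ) ^ (G.dist v w) := by positivity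
          linarith
      refine (Finset.sum_le_sum h6).trans ?_
      rw [Finset.sum_add_distrib, ← Finset.mul_sum, ← Finset.mul_sum]
      have h7 := mul_le_mul_of_nonneg_left h5 hθ0
      have h8 := mul_le_mul_of_nonneg_left (hC v D) (show 0 ≤ ρ ^ (n + 1) by positivity)
      calc _ ≤ θ * (M * ρ ^ n) + ρ ^ (n + 1) * C := add_le_add h7 h8
        _ = (θ * M + C * ρ) * ρ ^ n := by ring
        _ = M * ρ ^ (n + 1) := by rw [hMeq]; ring
  intro v u
  rw [SimpleGraph.dist_comm (u := v) (v := u)]
  exact key _ v u rfl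

end Vale.Agent.P161
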