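import Vale.Agent.P161.TreeUniq
import Vale.Agent.P161.TreeSum

/-! Existence of the free Ising measure on a tree. -/

set_option autoImplicit false

open MeasureTheory

namespace Vale.Agent.P161

variable {V : Type*} {G : SimpleGraph V} {β : ℝ}

namespace Tree

/-- finite sets with a top vertex `t`: closed under parents except at `t` -/
def Good (G : SimpleGraph V) (o t : V) (D : Finset V) : Prop :=
  t ∈ D ∧ (∀ w ∈ D, w ≠ t → par G o w ∈ D) ∧ ∀ w ∈ D, G.dist o t ≤ G.dist o w

/-- `x` lies below `w` -/
def Below (G : SimpleGraph V) (o w x : V) : Prop := G.dist o x = G.dist o w + G.dist w x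

lemma below_par (hT : G.IsTree) {o w x : V} (h : Below G o w x) (hx : x ≠ w) :
    Below G o w (par G o x) := by
  obtain ⟨h1, h2⟩ := par_spec (r := w) hT.connected hx
  set u := par G w x with hu
  have h3 := hT.connected.dist_triangle (u := o) (v := w) (w := u)
  unfold Below at h
  have h4 : G.dist o u + 1 = G.dist o x := by
    rcases dist_adj hT (r := o) h1 with h5 | h5 <;> omega
  have h5 : u = par G o x := eq_par hT h1 (by omega)
  rw [← h5]
  unfold Below
  omega

lemma below_child (hT : G.IsTree) {o w x y : V} (h : Below G o w x) (hxy : G.Adj x y)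
    (hy : G.dist o y = G.dist o x + 1) : Below G o w y := by
  have h3 := hT.connected.dist_triangle (u := o) (v := w) (w := y)
  have h4 := hT.connected.dist_triangle (u := w) (v := x) (w := y)
  rw [SimpleGraph.dist_eq_one_iff_adj.2 hxy] at h4
  unfold Below at h ⊢
  omega

lemma reachable_induction {W : Type*} {H : SimpleGraph W} {a b : W} (h : H.Reachable a b)
    (Q : W → Prop) (hQ : ∀ x y, H.Adj x y → Q x → Q y) (ha : Q a) : Q b := by
  obtain ⟨p⟩ := h
  induction p with
  | nil => exact ha
  | cons hadj _ ih => exact ih (hQ _ _ hadj ha)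

lemma good_of_connected (hT : G.IsTree) (o : V) {D : Finset V}
    (hD : (G.induce (D : Set V)).Connected) : ∃ t, Good G o t D := by
  classical
  obtain ⟨⟨v0, hv0⟩⟩ := hD.nonempty
  obtain ⟨t, ht, hmin⟩ := D.exists_min_image (fun w => G.dist o w) ⟨v0, hv0⟩
  refine ⟨t, ht, fun w hw hwt => ?_, hmin⟩
  by_contra hcon
  have h1 : (G.induce (D : Set V)).Reachable ⟨w, hw⟩ ⟨t, ht⟩ := hD.preconnected _ _
  have h2 := reachable_induction h1 (fun x => Below G o w x.1) (by
    rintro ⟨x, hx⟩ ⟨y, hy⟩ hadj hB
    have hadj' : G.Adj x y := by simpa using hadj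
    rcases dist_adj hT (r := o) hadj' with h3 | h3
    · -- `y` is the parent of `x`
      have h4 : y = par G o x := eq_par hT hadj'.symm (by omega)
      by_cases hxw : x = w
      · subst hxw
        rw [← h4] at hcon
        exact absurd hy hcon
      · show Below G o w y
        rw [h4]
        exact below_par hT hB hxw
    · exact below_child hT hB hadj' h3) (by
    show Below G o w w
    unfold Below
    rw [SimpleGraph.dist_self, add_zero])
  have h3 : G.dist o t = G.dist o w + G.dist w t := h2
  have h4 := hmin w hw
  have h5 : G.dist w t = 0 := by omega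
  exact hwt (hT.connected.dist_eq_zero_iff.1 h5)

open Classical in
lemma Good.exists_remove (hT : G.IsTree) {o t : V} {D : Finset V} (h : Good G o t D)
    (hne : D ≠ {t}) : ∃ l D₁, l ∉ D₁ ∧ D = insert l D₁ ∧ Good G o t D₁ ∧ l ≠ o ∧
      par G o l ∈ D₁ ∧ (∀ w ∈ D₁, G.dist o w ≤ G.dist o l) ∧
      ∀ w ∈ D₁, G.Adj w l → w = par G o l := by
  obtain ⟨ht, hpar, hmin⟩ := h
  -- choose the farthest vertex different from `t`
  have hne' : (D.erase t).Nonempty := by
    rw [Finset.nonempty_iff_ne_empty]
    intro h0
    apply hne
    rw [Finset.erase_eq_empty_iff] at h0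
    rcases h0 with h0 | h0
    · rw [h0] at ht; exact absurd ht (Finset.notMem_empty _)
    · exact h0
  obtain ⟨l, hl, hmax⟩ := (D.erase t).exists_max_image (fun w => G.dist o w) hne'
  obtain ⟨hlt, hlD⟩ := Finset.mem_erase.1 hl
  have hmax' : ∀ w ∈ D, G.dist o w ≤ G.dist o l := by
    intro w hw
    by_cases hwt : w = t
    · rw [hwt]; exact hmin l hlD
    · exact hmax w (Finset.mem_erase.2 ⟨hwt, hw⟩)
  have hlo : l ≠ o := by
    rintro rfl
    have h1 := hmin l hlD
    rw [SimpleGraph.dist_self] at h1
    exact hlt (hT.connected.dist_eq_zero_iff.1 (Nat.le_zero.1 h1))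
  obtain ⟨h1, h2⟩ := par_spec hT.connected hlo
  have hpl : par G o l ≠ l := fun h3 => h1.ne h3
  refine ⟨l, D.erase l, Finset.notMem_erase _ _, (Finset.insert_erase hlD).symm, ⟨?_, ?_, ?_⟩, hlo,
    Finset.mem_erase.2 ⟨hpl, hpar l hlD hlt⟩, ?_, ?_⟩
  · exact Finset.mem_erase.2 ⟨hlt.symm, ht⟩
  · intro w hw hwt
    obtain ⟨hw1, hw2⟩ := Finset.mem_erase.1 hw
    refine Finset.mem_erase.2 ⟨?_, hpar w hw2 hwt⟩
    intro h3
    have hwo : w ≠ o := by
      rintro rfl
      have h4 := hmin w hw2
      rw [SimpleGraph.dist_self] at h4
      exact hwt (hT.connected.dist_eq_zero_iff.1 (Nat.le_zero.1 h4)).symm.symm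
    have h4 := (par_spec hT.connected hwo).2
    rw [h3] at h4
    have := hmax' w hw2
    omega
  · intro w hw
    exact hmin w (Finset.mem_erase.1 hw).2
  · intro w hw
    exact hmax' w (Finset.mem_erase.1 hw).2
  · intro w hw hadj
    exact eq_par hT hadj (hmax' w (Finset.mem_erase.1 hw).2)

/-- the spins built from the bits: `n` steps up -/
noncomputable def spn (G : SimpleGraph V) (o : V) (ξ : V → Bool) : ℕ → V → Bool
  | 0, v => ξ v
  | n + 1, v => ξ v == spn G o ξ n (par G o v)

/-- the spins built from the bits -/
noncomputable def sp (G : SimpleGraph V) (o : V) (ξ : V → Bool) (v : V) : Bool :=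
  spn G o ξ (G.dist o v) v

lemma sp_root (o : V) (ξ : V → Bool) : sp G o ξ o = ξ o := by
  unfold sp
  rw [SimpleGraph.dist_self]
  rfl

lemma sp_step (hG : G.Connected) {o : V} (ξ : V → Bool) {v : V} (hv : v ≠ o) :
    sp G o ξ v = (ξ v == sp G o ξ (par G o v)) := by
  unfold sp
  rw [← (par_spec hG hv).2]
  rfl

lemma measurable_spn (o : V) (n : ℕ) (v : V) :
    Measurable fun ξ : V → Bool => spn G o ξ n v := by
  induction n generalizing v with
  | zero => exact measurable_pi_apply v
  | succ n ih =>
    have h1 : Measurable fun q : Bool × Bool => q.1 == q.2 := measurable_of_countable _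
    exact h1.comp ((measurable_pi_apply v).prodMk (ih (par G o v)))

lemma measurable_sp (o : V) : Measurable fun ξ : V → Bool => sp G o ξ :=
  measurable_pi_lambda _ fun v => measurable_spn o _ v

open Classical in
lemma spn_update (hG : G.Connected) {o l : V} (ξ : V → Bool) (b : Bool) :
    ∀ (n : ℕ) (v : V), G.dist o v = n → v ≠ l → G.dist o v ≤ G.dist o l →
      spn G o (Function.update ξ l b) n v = spn G o ξ n v := by
  intro n
  induction n with
  | zero =>
    intro v _ hvl _
    exact Function.update_of_ne hvl _ _
  | succ n ih =>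
    intro v hv hvl hle
    have hvo : v ≠ o := by
      rintro rfl
      rw [SimpleGraph.dist_self] at hv
      omega
    have h1 := (par_spec hG hvo).2
    show (Function.update ξ l b v == spn G o (Function.update ξ l b) n (par G o v)) =
      (ξ v == spn G o ξ n (par G o v))
    rw [Function.update_of_ne hvl, ih (par G o v) (by omega) (by
      intro h2
      rw [h2] at h1
      omega) (by omega)]

open Classical in
lemma sp_update (hG : G.Connected) {o l : V} (ξ : V → Bool) (b : Bool) {v : V} (hvl : v ≠ l)
    (hle : G.dist o v ≤ G.dist o l) : sp G o (Function.update ξ l b) v = sp G o ξ v :=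
  spn_update hG ξ b _ v rfl hvl hle

/-- a coin with bias `q` -/
noncomputable def coin (q : unitInterval) : Measure Bool :=
  ENNReal.ofReal q • Measure.dirac true + ENNReal.ofReal (1 - q) • Measure.dirac false

instance (q : unitInterval) : IsProbabilityMeasure (coin q) := by
  constructor
  unfold coin
  rw [Measure.add_apply, Measure.smul_apply, Measure.smul_apply, measure_univ, measure_univ,
    smul_eq_mul, smul_eq_mul, mul_one, mul_one, ← ENNReal.ofReal_add q.2.1 (by
      have := q.2.2; linarith)]
  simp

lemma coin_real (q : unitInterval) (b : Bool) :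
    (coin q).real {b} = if b then (q : ℝ) else 1 - q := by
  have h0 := q.2.1
  have h1 := q.2.2
  unfold coin Measure.real
  rw [Measure.add_apply, Measure.smul_apply, Measure.smul_apply,
    Measure.dirac_apply' _ (measurableSet_singleton _),
    Measure.dirac_apply' _ (measurableSet_singleton _)]
  cases b
  · simp [h1]
  · simp [h0]

lemma infinitePi_update (m : V → Measure Bool) [∀ v, IsProbabilityMeasure (m v)] (l : V) :
    haveI := Classical.decEq V
    ((Measure.infinitePi m).prod (m l)).map (fun q => Function.update q.1 l q.2) =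
      Measure.infinitePi m := by
  classical
  have hm : Measurable fun q : (V → Bool) × Bool => Function.update q.1 l q.2 := by
    refine measurable_pi_lambda _ fun v => ?_
    by_cases hv : v = l
    · subst hv
      simpa using measurable_snd
    · simp only [Function.update_of_ne hv]
      exact (measurable_pi_apply v).comp measurable_fst
  refine Measure.eq_infinitePi _ fun s t ht => ?_
  have hdec : (fun q : (V → Bool) × Bool => @Function.update V (fun _ => Bool)
      (Classical.decEq V) q.1 l q.2) = fun q => Function.update q.1 l q.2 := by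
    funext q
    congr 1
  rw [hdec, Measure.map_apply hm (MeasurableSet.pi s.countable_toSet fun _ _ => ht _)]
  by_cases hl : l ∈ s
  · have e1 : (fun q : (V → Bool) × Bool => Function.update q.1 l q.2) ⁻¹'
        (Set.pi (s : Set V) t) = (Set.pi ((s.erase l : Finset V) : Set V) t) ×ˢ (t l) := by
      ext q
      simp only [Set.mem_preimage, Set.mem_pi, Set.mem_prod, Finset.mem_coe, Finset.mem_erase]
      constructor
      · intro h
        refine ⟨fun v hv => ?_, ?_⟩
        · have := h v hv.2
          rwa [Function.update_of_ne hv.1] at this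
        · have := h l hl
          rwa [Function.update_self] at this
      · rintro ⟨h1, h2⟩ v hv
        by_cases hvl : v = l
        · subst hvl
          rw [Function.update_self]
          exact h2
        · rw [Function.update_of_ne hvl]
          exact h1 v ⟨hvl, hv⟩
    rw [e1, Measure.prod_prod, Measure.infinitePi_pi _ fun v _ => ht v]
    rw [mul_comm, Finset.mul_prod_erase s (fun v => m v (t v)) hl]
  · have e1 : (fun q : (V → Bool) × Bool => Function.update q.1 l q.2) ⁻¹'
        (Set.pi (s : Set V) t) = (Set.pi (s : Set V) t) ×ˢ Set.univ := by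
      ext q
      simp only [Set.mem_preimage, Set.mem_pi, Set.mem_prod, Finset.mem_coe, Set.mem_univ,
        and_true]
      refine forall₂_congr fun v hv => ?_
      rw [Function.update_of_ne (fun h : v = l => hl (h ▸ hv))]
    rw [e1, Measure.prod_prod, Measure.infinitePi_pi _ fun v _ => ht v, measure_univ, mul_one]

open Classical in
lemma indep_coord (m : V → Measure Bool) [∀ v, IsProbabilityMeasure (m v)] (l : V)
    {A : Set (V → Bool)} (hA : MeasurableSet A)
    (hdep : ∀ (ξ : V → Bool) (b : Bool), Function.update ξ l b ∈ A ↔ ξ ∈ A) (b : Bool) :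
    (Measure.infinitePi m).real (A ∩ {ξ | ξ l = b}) =
      (Measure.infinitePi m).real A * (m l).real {b} := by
  have hm : Measurable fun q : (V → Bool) × Bool => Function.update q.1 l q.2 := by
    refine measurable_pi_lambda _ fun v => ?_
    by_cases hv : v = l
    · subst hv
      simpa using measurable_snd
    · simp only [Function.update_of_ne hv]
      exact (measurable_pi_apply v).comp measurable_fst
  have h1 := infinitePi_update m l
  have hdec : (fun q : (V → Bool) × Bool => @Function.update V (fun _ => Bool)
      (Classical.decEq V) q.1 l q.2) = fun q => Function.update q.1 l q.2 := by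
    funext q
    congr 1
  rw [hdec] at h1
  have h2 : MeasurableSet (A ∩ {ξ | ξ l = b}) := by
    have : MeasurableSet ((fun ξ : V → Bool => ξ l) ⁻¹' {b}) :=
      (measurable_pi_apply l) (measurableSet_singleton b)
    exact hA.inter this
  unfold Measure.real
  conv_lhs => rw [← h1]
  rw [Measure.map_apply hm h2]
  have e1 : (fun q : (V → Bool) × Bool => Function.update q.1 l q.2) ⁻¹'
      (A ∩ {ξ | ξ l = b}) = A ×ˢ {b} := by
    ext q
    simp only [Set.mem_preimage, Set.mem_inter_iff, hdep, Set.mem_ofPred_eq, Function.update_self,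
      Set.mem_prod, Set.mem_singleton_iff]
  rw [e1, Measure.prod_prod, ENNReal.toReal_mul]

section Construction

variable (o : V) (q : unitInterval)

open Classical in
/-- the biases -/
noncomputable def bias (v : V) : Measure Bool :=
  if v = o then coin ⟨1 / 2, by norm_num, by norm_num⟩ else coin q

instance (v : V) : IsProbabilityMeasure (bias o q v) := by
  unfold bias
  split_ifs <;> infer_instance

/-- the law of the bits -/
noncomputable def PP : Measure (V → Bool) := Measure.infinitePi (bias o q)

instance : IsProbabilityMeasure (PP o q) := by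
  unfold PP; infer_instance

lemma bias_root (b : Bool) : (bias o q o).real {b} = 1 / 2 := by
  unfold bias
  rw [if_pos rfl, coin_real]
  split_ifs
  · rfl
  · norm_num

lemma bias_ne {v : V} (hv : v ≠ o) (b : Bool) :
    (bias o q v).real {b} = if b then (q : ℝ) else 1 - q := by
  unfold bias
  rw [if_neg hv, coin_real]

variable {o} in
lemma real_sp (hG : G.Connected) : ∀ (n : ℕ) (t : V), G.dist o t = n → ∀ b : Bool,
    (PP o q).real {ξ | sp G o ξ t = b} = 1 / 2 := by
  classical
  intro n
  induction n with
  | zero =>
    intro t ht b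
    have h1 : o = t := hG.dist_eq_zero_iff.1 ht
    subst h1
    simp only [sp_root]
    have h2 := indep_coord (bias o q) o MeasurableSet.univ (fun _ _ => by simp) b
    rw [Set.univ_inter] at h2
    unfold PP
    rw [h2, bias_root]
    simp
  | succ n ih =>
    intro t ht b
    have hto : t ≠ o := by
      rintro rfl
      rw [SimpleGraph.dist_self] at ht
      omega
    obtain ⟨h1, h2⟩ := par_spec hG hto
    have hpt : par G o t ≠ t := h1.ne
    have hmeas : ∀ c : Bool, MeasurableSet {ξ : V → Bool | sp G o ξ (par G o t) = c} := by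
      intro c
      have : MeasurableSet ((fun ξ : V → Bool => sp G o ξ (par G o t)) ⁻¹' {c}) :=
        ((measurable_pi_apply _).comp (measurable_sp o)) (measurableSet_singleton c)
      exact this
    have hmeas' : ∀ c : Bool, MeasurableSet {ξ : V → Bool | ξ t = c} := by
      intro c
      have : MeasurableSet ((fun ξ : V → Bool => ξ t) ⁻¹' {c}) :=
        (measurable_pi_apply _) (measurableSet_singleton c)
      exact this
    have h3 : ∀ c d : Bool, (PP o q).real ({ξ | sp G o ξ (par G o t) = c} ∩ {ξ | ξ t = d}) =
        1 / 2 * (bias o q t).real {d} := by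
      intro c d
      have h4 := indep_coord (bias o q) t (hmeas c) (fun ξ b => by
        simp only [Set.mem_ofPred_eq]
        rw [sp_update hG ξ b hpt (by omega)]) d
      unfold PP
      rw [h4]
      congr 1
      exact ih (par G o t) (by omega) c
    have e1 : {ξ : V → Bool | sp G o ξ t = b} =
        ({ξ | sp G o ξ (par G o t) = true} ∩ {ξ | ξ t = b}) ∪
          ({ξ | sp G o ξ (par G o t) = false} ∩ {ξ | ξ t = !b}) := by
      ext ξ
      simp only [Set.mem_ofPred_eq, Set.mem_union, Set.mem_inter_iff]
      rw [sp_step hG ξ hto]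
      cases sp G o ξ (par G o t) <;> cases ξ t <;> cases b <;> simp
    rw [e1, measureReal_union _ ((hmeas _).inter (hmeas' _)), h3, h3, bias_ne o q hto,
      bias_ne o q hto]
    · cases b
      · simp
        ring
      · simp
        ring
    · rw [Set.disjoint_left]
      rintro ξ ⟨h5, _⟩ ⟨h6, _⟩
      have h5' : sp G o ξ (par G o t) = true := h5
      have h6' : sp G o ξ (par G o t) = false := h6
      rw [h5'] at h6'
      exact Bool.noConfusion h6'

variable {o} in
lemma real_cyl (hT : G.IsTree) {θ : ℝ} (hq : (q : ℝ) = (1 + θ) / 2) (η : V → Bool) {t : V} :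
    ∀ (n : ℕ) (D : Finset V), D.card = n → Good G o t D →
      (PP o q).real {ξ | ∀ v ∈ D, sp G o ξ v = η v} =
        (1 / 2) * ∏ e ∈ edgesIn G D, edgeWeight θ η e := by
  classical
  have hG := hT.connected
  intro n
  induction n with
  | zero =>
    intro D hD h
    rw [Finset.card_eq_zero.1 hD] at h
    exact absurd h.1 (Finset.notMem_empty _)
  | succ n ih =>
    intro D hD h
    by_cases hne : D = {t}
    · subst hne
      rw [edgesIn_singleton, Finset.prod_empty, mul_one]
      have := real_sp q hG (o := o) _ t rfl (η t)
      rw [← this]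
      congr 1
      ext ξ
      simp
    · obtain ⟨l, D₁, hl, rfl, hD₁, hlo, hp, hmax, hadj⟩ := h.exists_remove hT hne
      have hcard : D₁.card = n := by
        rw [Finset.card_insert_of_notMem hl] at hD
        omega
      have h1 := ih D₁ hcard hD₁
      have hmeas : MeasurableSet {ξ : V → Bool | ∀ v ∈ D₁, sp G o ξ v = η v} :=
        (measurable_sp o) (measurableSet_cyl D₁ η)
      have h2 := indep_coord (bias o q) l hmeas (fun ξ b => by
        simp only [Set.mem_ofPred_eq]
        refine forall₂_congr fun v hv => ?_
        rw [sp_update hG ξ b (fun h : v = l => hl (h ▸ hv)) (hmax v hv)])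
        (η l == η (par G o l))
      have e1 : {ξ : V → Bool | ∀ v ∈ insert l D₁, sp G o ξ v = η v} =
          {ξ | ∀ v ∈ D₁, sp G o ξ v = η v} ∩ {ξ | ξ l = (η l == η (par G o l))} := by
        ext ξ
        simp only [Set.mem_ofPred_eq, Set.mem_inter_iff, Finset.mem_insert, forall_eq_or_imp]
        constructor
        · rintro ⟨h3, h4⟩
          refine ⟨h4, ?_⟩
          rw [sp_step hG ξ hlo, h4 _ hp] at h3
          revert h3
          cases ξ l <;> cases η l <;> cases η (par G o l) <;> simp
        · rintro ⟨h3, h4⟩
          refine ⟨?_, h3⟩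
          rw [sp_step hG ξ hlo, h3 _ hp, h4]
          cases η l <;> cases η (par G o l) <;> simp
      obtain ⟨e2, e3⟩ := edgesIn_insert hl hp (par_spec hG hlo).1 hadj
      rw [e1, e2, Finset.prod_insert e3]
      unfold PP at h1 ⊢
      rw [h2, h1, bias_ne o q hlo, edgeWeight_mk, hq]
      have e4 : (if (η l == η (par G o l)) = true then (1 + θ) / 2 else 1 - (1 + θ) / 2) =
          (1 + θ * spin (η l) * spin (η (par G o l))) / 2 := by
        cases η l <;> cases η (par G o l) <;> simp [spin] <;> ring
      rw [e4]
      ring

end Construction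

theorem ising_exists (hT : G.IsTree) (hβ : 0 ≤ β) :
    ∃ μ : Measure (V → Bool), IsFreeIsing G β μ := by
  obtain ⟨o⟩ := hT.connected.nonempty
  have hθ0 := tanh_nonneg' hβ
  have hθ1 := tanh_le_one' (β := β)
  let q : unitInterval := ⟨(1 + Real.tanh β) / 2, by linarith, by linarith⟩
  refine ⟨(PP o q).map (fun ξ => sp G o ξ), ?_, ?_⟩
  · exact Measure.isProbabilityMeasure_map (measurable_sp o).aemeasurable
  · intro D hD η
    obtain ⟨t, ht⟩ := good_of_connected hT o hD
    have h1 := real_cyl q hT (θ := Real.tanh β) rfl η D.card D rfl ht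
    have hs : MeasurableSet {σ : V → Bool | ∀ v ∈ D, σ v = η v} := measurableSet_cyl D η
    rw [Measure.map_apply (measurable_sp o) hs, ← h1]
    exact (ofReal_measureReal (measure_ne_top _ _)).symm

end Tree

theorem B4 (G : SimpleGraph V) [G.LocallyFinite] (hT : G.IsTree) (β : ℝ) (hβ : 0 ≤ β) :
    ∃! μ : Measure (V → Bool), IsFreeIsing G β μ := by
  obtain ⟨μ, hμ⟩ := Tree.ising_exists (β := β) hT hβ
  exact ⟨μ, hμ, fun ν hν => Tree.ising_unique hT.connected hν hμ⟩

end Vale.Agent.P161
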