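import Vale.Agent.P161.TreeBasic
import Vale.Agent.P161.BP

/-! Magnetisations of the tilted Ising measure on a tree and their Lipschitz dependence on the
fields. -/

set_option autoImplicit false

open MeasureTheory

namespace Vale.Agent.P161

variable {V : Type*}

/-- magnetisation at `v` in the tilted measure with field `x` on `D` -/
noncomputable def mag (μ : Measure (V → Bool)) (D : Finset V) (x : V → ℝ) (v : V) : ℝ :=
  (∫ σ, spin (σ v) * Real.exp (∑ w ∈ D, x w * spin (σ w)) ∂μ) /
    ∫ σ, Real.exp (∑ w ∈ D, x w * spin (σ w)) ∂μ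

namespace Tree

/-- cylinder sets -/
def cyl (D : Finset V) (η : V → Bool) : Set (V → Bool) := {σ | ∀ v ∈ D, σ v = η v}

lemma measurableSet_cyl (D : Finset V) (η : V → Bool) : MeasurableSet (cyl D η) := by
  have : cyl D η = ⋂ v ∈ D, (fun σ : V → Bool => σ v) ⁻¹' {η v} := by
    ext σ; simp [cyl]
  rw [this]
  exact Finset.measurableSet_biInter D fun v _ => (measurable_pi_apply v) (measurableSet_singleton _)

/-- extension by `false` -/
noncomputable def ext (D : Finset V) (η : D → Bool) : V → Bool := by
  classical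
  exact fun v => if h : v ∈ D then η ⟨v, h⟩ else false

lemma ext_apply (D : Finset V) (η : D → Bool) {v : V} (hv : v ∈ D) : ext D η v = η ⟨v, hv⟩ := by
  unfold ext
  rw [dif_pos hv]

/-- the function depends only on the coordinates in `D` -/
def Dep (D : Finset V) (F : (V → Bool) → ℝ) : Prop :=
  ∀ σ τ : V → Bool, (∀ v ∈ D, σ v = τ v) → F σ = F τ

open Classical in
lemma dep_sum (D : Finset V) {F : (V → Bool) → ℝ} (hF : Dep D F) (σ : V → Bool) :
    F σ = ∑ η : D → Bool, F (ext D η) * (cyl D (ext D η)).indicator 1 σ := by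
  rw [Finset.sum_eq_single (fun v : D => σ v)]
  · have h1 : σ ∈ cyl D (ext D fun v : D => σ v) := by
      intro v hv
      rw [ext_apply D _ hv]
    rw [Set.indicator_of_mem h1, Pi.one_apply, mul_one]
    exact hF _ _ h1
  · intro η _ hne
    have h1 : σ ∉ cyl D (ext D η) := by
      intro h
      apply hne
      funext v
      have := h v.1 v.2
      rw [ext_apply D η v.2] at this
      exact this.symm
    rw [Set.indicator_of_notMem h1, mul_zero]
  · intro h
    exact absurd (Finset.mem_univ _) h

variable (μ : Measure (V → Bool)) [IsProbabilityMeasure μ]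

open Classical in
lemma integral_dep (D : Finset V) {F : (V → Bool) → ℝ} (hF : Dep D F) :
    ∫ σ, F σ ∂μ = ∑ η : D → Bool, F (ext D η) * μ.real (cyl D (ext D η)) := by
  classical
  have h1 : F = fun σ => ∑ η : D → Bool, F (ext D η) * (cyl D (ext D η)).indicator 1 σ :=
    funext fun σ => dep_sum D hF σ
  conv_lhs => rw [h1]
  rw [integral_finsetSum]
  · refine Finset.sum_congr rfl fun η _ => ?_
    rw [integral_const_mul, integral_indicator_one (measurableSet_cyl _ _)]
  · intro η _
    exact ((integrable_const (1 : ℝ)).indicator (measurableSet_cyl _ _)).const_mul _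

lemma integrable_dep (D : Finset V) {F : (V → Bool) → ℝ} (hF : Dep D F) : Integrable F μ := by
  classical
  have h1 : F = fun σ => ∑ η : D → Bool, F (ext D η) * (cyl D (ext D η)).indicator 1 σ :=
    funext fun σ => dep_sum D hF σ
  rw [h1]
  refine integrable_finsetSum _ fun η _ => ?_
  exact ((integrable_const (1 : ℝ)).indicator (measurableSet_cyl _ _)).const_mul _

open Classical in
lemma integral_dep_mul (D : Finset V) {F : (V → Bool) → ℝ} (hF : Dep D F) (l : V)
    (g : Bool → ℝ) : ∫ σ, F σ * g (σ l) ∂μ =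
      ∑ η : D → Bool, ∑ b : Bool, F (ext D η) * (g b * μ.real
        (cyl D (ext D η) ∩ {σ | σ l = b})) := by
  classical
  have hm : ∀ b : Bool, MeasurableSet {σ : V → Bool | σ l = b} := fun b => by
    have : MeasurableSet ((fun σ : V → Bool => σ l) ⁻¹' {b}) :=
      (measurable_pi_apply l) (measurableSet_singleton b)
    exact this
  have h1 : (fun σ => F σ * g (σ l)) = fun σ => ∑ η : D → Bool, ∑ b : Bool,
      F (ext D η) * (g b * (cyl D (ext D η) ∩ {σ | σ l = b}).indicator 1 σ) := by
    funext σ
    rw [dep_sum D hF σ, Finset.sum_mul]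
    refine Finset.sum_congr rfl fun η _ => ?_
    rw [mul_assoc, ← Finset.mul_sum]
    congr 1
    by_cases hσ : σ ∈ cyl D (ext D η)
    · rw [Set.indicator_of_mem hσ, Pi.one_apply, one_mul, Finset.sum_eq_single (σ l)]
      · have h2 : σ ∈ cyl D (ext D η) ∩ {σ' | σ' l = σ l} := ⟨hσ, rfl⟩
        rw [Set.indicator_of_mem h2, Pi.one_apply, mul_one]
      · intro b _ hb
        rw [Set.indicator_of_notMem (fun h => hb h.2.symm), mul_zero]
      · intro h; exact absurd (Finset.mem_univ _) h
    · rw [Set.indicator_of_notMem hσ, zero_mul]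
      refine (Finset.sum_eq_zero fun b _ => ?_).symm
      rw [Set.indicator_of_notMem (fun h => hσ h.1), mul_zero]
  rw [h1, integral_finsetSum]
  · refine Finset.sum_congr rfl fun η _ => ?_
    rw [integral_finsetSum]
    · refine Finset.sum_congr rfl fun b _ => ?_
      rw [integral_const_mul, integral_const_mul,
        integral_indicator_one ((measurableSet_cyl _ _).inter (hm b))]
    · intro b _
      exact (((integrable_const (1 : ℝ)).indicator
        ((measurableSet_cyl _ _).inter (hm b))).const_mul _).const_mul _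
  · intro η _
    refine integrable_finsetSum _ fun b _ => ?_
    exact (((integrable_const (1 : ℝ)).indicator
        ((measurableSet_cyl _ _).inter (hm b))).const_mul _).const_mul _

variable {μ} {G : SimpleGraph V} {β : ℝ}

lemma spin_eq (b : Bool) : spin b = 1 ∨ spin b = -1 := by
  cases b <;> simp [spin]

lemma tanh_nonneg' (hβ : 0 ≤ β) : 0 ≤ Real.tanh β := by
  rw [Real.tanh_eq_sinh_div_cosh]
  exact div_nonneg (Real.sinh_nonneg_iff.2 hβ) (Real.cosh_pos β).le

lemma tanh_le_one' : Real.tanh β ≤ 1 := by
  rw [Real.tanh_eq_sinh_div_cosh, div_le_one (Real.cosh_pos β)]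
  exact (Real.sinh_lt_cosh β).le

lemma edgeWeight_mk (θ : ℝ) (η : V → Bool) (a b : V) :
    edgeWeight θ η s(a, b) = (1 + θ * spin (η a) * spin (η b)) / 2 := rfl

lemma edgeWeight_nonneg (hβ : 0 ≤ β) (η : V → Bool) (e : Sym2 V) :
    0 ≤ edgeWeight (Real.tanh β) η e := by
  induction e with
  | _ a b =>
    rw [edgeWeight_mk]
    have h0 := tanh_nonneg' hβ
    have h1 := tanh_le_one' (β := β)
    rcases spin_eq (η a) with h | h <;> rcases spin_eq (η b) with h' | h' <;> rw [h, h'] <;>
      linarith

omit [IsProbabilityMeasure μ] in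
lemma cyl_real (hβ : 0 ≤ β) (hG : G.Connected) (hμ : IsFreeIsing G β μ) {r : V} {D : Finset V}
    (h : Closed G r D) (η : V → Bool) :
    μ.real (cyl D η) = (1 / 2) * ∏ e ∈ edgesIn G D, edgeWeight (Real.tanh β) η e := by
  have h1 := hμ.cylinder D (h.connected hG) η
  unfold Measure.real cyl
  rw [h1, ENNReal.toReal_ofReal]
  exact mul_nonneg (by norm_num) (Finset.prod_nonneg fun e _ => edgeWeight_nonneg hβ η e)

open Classical in
omit [IsProbabilityMeasure μ] in
lemma cyl_step (hβ : 0 ≤ β) (hT : G.IsTree) (hμ : IsFreeIsing G β μ) {r l : V} {D : Finset V}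
    (h : Closed G r D) (h' : Closed G r (insert l D)) (hl : l ∉ D) (hlr : l ≠ r)
    (hp : par G r l ∈ D) (hadj : ∀ w ∈ D, G.Adj w l → w = par G r l)
    (η : V → Bool) (b : Bool) :
    μ.real (cyl D η ∩ {σ | σ l = b}) = μ.real (cyl D η) *
      ((1 + Real.tanh β * spin b * spin (η (par G r l))) / 2) := by
  have e1 : cyl D η ∩ {σ | σ l = b} = cyl (insert l D) (Function.update η l b) := by
    ext σ
    simp only [cyl, Set.mem_inter_iff, Set.mem_ofPred_eq, Finset.mem_insert, forall_eq_or_imp,
      Function.update_self]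
    constructor
    · rintro ⟨h1, h2⟩
      refine ⟨h2, fun v hv => ?_⟩
      rw [Function.update_of_ne (fun h3 : v = l => hl (h3 ▸ hv))]
      exact h1 v hv
    · rintro ⟨h1, h2⟩
      refine ⟨fun v hv => ?_, h1⟩
      have := h2 v hv
      rwa [Function.update_of_ne (fun h3 : v = l => hl (h3 ▸ hv))] at this
  obtain ⟨e2, e3⟩ := edgesIn_insert hl hp (par_spec hT.connected hlr).1 hadj
  rw [e1, cyl_real hβ hT.connected hμ h', cyl_real hβ hT.connected hμ h, e2,
    Finset.prod_insert e3]
  have e4 : edgeWeight (Real.tanh β) (Function.update η l b) s(l, par G r l) =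
      (1 + Real.tanh β * spin b * spin (η (par G r l))) / 2 := by
    rw [edgeWeight_mk]
    simp only [Function.update_self]
    rw [Function.update_of_ne (fun h3 : par G r l = l => hl (h3 ▸ hp))]
  have e5 : ∏ e ∈ edgesIn G D, edgeWeight (Real.tanh β) (Function.update η l b) e =
      ∏ e ∈ edgesIn G D, edgeWeight (Real.tanh β) η e := by
    refine Finset.prod_congr rfl fun e he => ?_
    rw [mem_edgesIn] at he
    induction e with
    | _ a c =>
      rw [edgeWeight_mk, edgeWeight_mk]
      have ha : a ≠ l := fun h3 => hl (h3 ▸ he.2 a (by simp))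
      have hc : c ≠ l := fun h3 => hl (h3 ▸ he.2 c (by simp))
      simp only [Function.update_of_ne ha, Function.update_of_ne hc]
  rw [e4, e5]
  ring

open Classical in
/-- summing out a leaf -/
lemma integral_leaf (hβ : 0 ≤ β) (hT : G.IsTree) (hμ : IsFreeIsing G β μ) {r l : V}
    {D : Finset V} (h : Closed G r D) (h' : Closed G r (insert l D)) (hl : l ∉ D) (hlr : l ≠ r)
    (hp : par G r l ∈ D) (hadj : ∀ w ∈ D, G.Adj w l → w = par G r l)
    (x : ℝ) :
    ∃ c : ℝ, 0 < c ∧ ∀ F : (V → Bool) → ℝ, Dep D F → ∫ σ, F σ * Real.exp (x * spin (σ l)) ∂μ =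
      c * ∫ σ, F σ * Real.exp (bp (Real.tanh β) x * spin (σ (par G r l))) ∂μ := by
  obtain ⟨c, hc, hc1, hc2⟩ := bp_spec (tanh_nonneg' hβ) (tanh_le_one' (β := β)) x
  refine ⟨c / 2, by positivity, fun F hF => ?_⟩
  have hF' : Dep D fun σ => F σ * Real.exp (bp (Real.tanh β) x * spin (σ (par G r l))) := by
    intro σ τ h1
    show F σ * _ = F τ * _
    rw [hF σ τ h1, h1 _ hp]
  rw [integral_dep_mul μ D hF l (fun b => Real.exp (x * spin b)), integral_dep μ D hF',
    Finset.mul_sum]
  refine Finset.sum_congr rfl fun η _ => ?_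
  rw [Fintype.sum_bool, cyl_step hβ hT hμ h h' hl hlr hp hadj,
    cyl_step hβ hT hμ h h' hl hlr hp hadj]
  set q := spin (ext D η (par G r l)) with hq
  have ht : spin true = 1 := rfl
  have hf : spin false = -1 := rfl
  rw [ht, hf]
  rcases spin_eq (ext D η (par G r l)) with h1 | h1
  · rw [hq, h1]
    have e1 : Real.exp (bp (Real.tanh β) x * 1) = Real.exp (bp (Real.tanh β) x) := by rw [mul_one]
    have e2 : Real.exp (x * 1) = Real.exp x := by rw [mul_one]
    have e3 : Real.exp (x * -1) = Real.exp (-x) := by rw [mul_neg_one]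
    rw [e1, e2, e3]
    linear_combination (F (ext D η) * μ.real (cyl D (ext D η)) / 2) * hc1
  · rw [hq, h1]
    have e1 : Real.exp (bp (Real.tanh β) x * -1) = Real.exp (-bp (Real.tanh β) x) := by
      rw [mul_neg_one]
    have e2 : Real.exp (x * 1) = Real.exp x := by rw [mul_one]
    have e3 : Real.exp (x * -1) = Real.exp (-x) := by rw [mul_neg_one]
    rw [e1, e2, e3]
    linear_combination (F (ext D η) * μ.real (cyl D (ext D η)) / 2) * hc2

lemma dep_mono {D D' : Finset V} (h : D ⊆ D') {F : (V → Bool) → ℝ} (hF : Dep D F) :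
    Dep D' F := fun σ τ h1 => hF σ τ fun v hv => h1 v (h hv)

lemma dep_exp (D : Finset V) (x : V → ℝ) :
    Dep D fun σ => Real.exp (∑ w ∈ D, x w * spin (σ w)) := by
  intro σ τ h
  show Real.exp _ = Real.exp _
  congr 1
  exact Finset.sum_congr rfl fun w hw => by rw [h w hw]

lemma dep_spin_exp (D : Finset V) (x : V → ℝ) {v : V} (hv : v ∈ D) :
    Dep D fun σ => spin (σ v) * Real.exp (∑ w ∈ D, x w * spin (σ w)) := by
  intro σ τ h
  show spin (σ v) * Real.exp _ = spin (τ v) * Real.exp _
  rw [h v hv]
  congr 2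
  exact Finset.sum_congr rfl fun w hw => by rw [h w hw]

open Classical in
/-- the magnetisation after summing out a leaf -/
lemma mag_leaf (hβ : 0 ≤ β) (hT : G.IsTree) (hμ : IsFreeIsing G β μ) {r l : V}
    {D : Finset V} (h : Closed G r D) (h' : Closed G r (insert l D)) (hl : l ∉ D) (hlr : l ≠ r)
    (hp : par G r l ∈ D) (hadj : ∀ w ∈ D, G.Adj w l → w = par G r l) (x : V → ℝ) :
    mag μ (insert l D) x r = mag μ D
      (Function.update x (par G r l) (x (par G r l) + bp (Real.tanh β) (x l))) r := by
  obtain ⟨c, hc, hc1⟩ := integral_leaf hβ hT hμ h h' hl hlr hp hadj (x l)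
  have h1 := hc1 _ (dep_spin_exp D x h.1)
  have h2 := hc1 _ (dep_exp D x)
  have e1 : ∀ σ : V → Bool, Real.exp (∑ w ∈ insert l D, x w * spin (σ w)) =
      Real.exp (∑ w ∈ D, x w * spin (σ w)) * Real.exp (x l * spin (σ l)) := by
    intro σ
    rw [Finset.sum_insert hl, add_comm, Real.exp_add]
  have e2 : ∀ σ : V → Bool, Real.exp (∑ w ∈ D, (Function.update x (par G r l)
      (x (par G r l) + bp (Real.tanh β) (x l))) w * spin (σ w)) =
      Real.exp (∑ w ∈ D, x w * spin (σ w)) *
        Real.exp (bp (Real.tanh β) (x l) * spin (σ (par G r l))) := by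
    intro σ
    rw [← Real.exp_add]
    congr 1
    have e3 : ∀ w ∈ D, (Function.update x (par G r l)
        (x (par G r l) + bp (Real.tanh β) (x l))) w * spin (σ w) = x w * spin (σ w) +
          if w = par G r l then bp (Real.tanh β) (x l) * spin (σ (par G r l)) else 0 := by
      intro w _
      by_cases hw : w = par G r l
      · subst hw
        rw [Function.update_self, if_pos rfl]
        ring
      · rw [Function.update_of_ne hw, if_neg hw, add_zero]
    rw [Finset.sum_congr rfl e3, Finset.sum_add_distrib, Finset.sum_ite_eq', if_pos hp]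
  unfold mag
  simp only [e1, e2]
  simp only [mul_assoc] at h1 ⊢
  rw [h1, h2, mul_div_mul_left _ _ hc.ne']

lemma closed_singleton (r : V) : Closed G r {r} :=
  ⟨Finset.mem_singleton_self _, fun _ hw hne => absurd (Finset.mem_singleton.1 hw) hne⟩

omit [IsProbabilityMeasure μ] in
lemma real_site (hβ : 0 ≤ β) (hG : G.Connected) (hμ : IsFreeIsing G β μ) (r : V) (b : Bool) :
    μ.real {σ | σ r = b} = 1 / 2 := by
  have h1 := cyl_real hβ hG hμ (closed_singleton r) (fun _ => b)
  rw [edgesIn_singleton, Finset.prod_empty, mul_one] at h1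
  rw [← h1]
  congr 1
  ext σ
  simp [cyl]

open Classical in
lemma integral_site (hβ : 0 ≤ β) (hG : G.Connected) (hμ : IsFreeIsing G β μ) (r : V)
    (g : Bool → ℝ) : ∫ σ, g (σ r) ∂μ = (g true + g false) / 2 := by
  have hF : Dep (∅ : Finset V) fun _ => (1 : ℝ) := fun _ _ _ => rfl
  have h1 := integral_dep_mul μ ∅ hF r g
  simp only [one_mul] at h1
  rw [h1, Fintype.sum_unique, Fintype.sum_bool]
  have h2 : ∀ η b, cyl (∅ : Finset V) η ∩ {σ | σ r = b} = {σ | σ r = b} := by
    intro η b
    ext σ
    simp [cyl]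
  rw [h2, h2, real_site hβ hG hμ, real_site hβ hG hμ]
  ring

theorem lipschitz_closed (hβ : 0 ≤ β) (hT : G.IsTree) (hμ : IsFreeIsing G β μ) (r : V) :
    ∀ (n : ℕ) (D : Finset V), D.card = n → Closed G r D → ∀ x x' : V → ℝ,
      |mag μ D x r - mag μ D x' r| ≤
        ∑ w ∈ D, (Real.tanh β) ^ (G.dist r w) * |x w - x' w| := by
  classical
  intro n
  induction n with
  | zero =>
    intro D hD h
    rw [Finset.card_eq_zero.1 hD] at h
    exact absurd h.1 (Finset.notMem_empty _)
  | succ n ih =>
    intro D hD h x x'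
    by_cases hne : D = {r}
    · subst hne
      have e1 : ∀ x : V → ℝ, mag μ {r} x r = Real.tanh (x r) := by
        intro x
        unfold mag
        simp only [Finset.sum_singleton]
        rw [integral_site hβ hT.connected hμ r (fun b => spin b * Real.exp (x r * spin b)),
          integral_site hβ hT.connected hμ r (fun b => Real.exp (x r * spin b)),
          Real.tanh_eq_sinh_div_cosh, Real.sinh_eq, Real.cosh_eq]
        have ht : spin true = 1 := rfl
        have hf : spin false = -1 := rfl
        rw [ht, hf, mul_one, mul_neg_one]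
        congr 1
        ring
      rw [e1, e1, Finset.sum_singleton, SimpleGraph.dist_self, pow_zero, one_mul]
      exact tanh_lipschitz _ _
    · obtain ⟨l, D₁, hl, rfl, hD₁, hlr, hp, hmax, hadj⟩ := h.exists_remove hT hne
      rw [mag_leaf hβ hT hμ hD₁ h hl hlr hp hadj, mag_leaf hβ hT hμ hD₁ h hl hlr hp hadj]
      have hcard : D₁.card = n := by
        rw [Finset.card_insert_of_notMem hl] at hD
        omega
      refine (ih D₁ hcard hD₁ _ _).trans ?_
      rw [Finset.sum_insert hl]
      have hθ0 := tanh_nonneg' hβ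
      have hθ1 := tanh_le_one' (β := β)
      have key : ∀ w ∈ D₁, (Real.tanh β) ^ (G.dist r w) *
          |(Function.update x (par G r l) (x (par G r l) + bp (Real.tanh β) (x l))) w -
            (Function.update x' (par G r l) (x' (par G r l) + bp (Real.tanh β) (x' l))) w| ≤
          (Real.tanh β) ^ (G.dist r w) * |x w - x' w| +
            if w = par G r l then (Real.tanh β) ^ (G.dist r l) * |x l - x' l| else 0 := by
        intro w _
        by_cases hw : w = par G r l
        · subst hw
          rw [Function.update_self, Function.update_self, if_pos rfl,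
            ← (par_spec hT.connected hlr).2, pow_succ, mul_assoc, ← mul_add]
          refine mul_le_mul_of_nonneg_left ?_ (by positivity)
          have h1 := bp_lipschitz hθ0 hθ1 (x l) (x' l)
          have h2 : x (par G r l) + bp (Real.tanh β) (x l) -
              (x' (par G r l) + bp (Real.tanh β) (x' l)) =
              (x (par G r l) - x' (par G r l)) +
                (bp (Real.tanh β) (x l) - bp (Real.tanh β) (x' l)) := by ring
          rw [h2]
          exact (abs_add_le _ _).trans (by linarith)
        · rw [Function.update_of_ne hw, Function.update_of_ne hw, if_neg hw, add_zero]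
      refine (Finset.sum_le_sum key).trans ?_
      rw [Finset.sum_add_distrib, Finset.sum_ite_eq', if_pos hp]
      linarith

end Tree

theorem B6 (G : SimpleGraph V) [G.LocallyFinite] (hT : G.IsTree) (β : ℝ) (hβ : 0 ≤ β)
    (μ : Measure (V → Bool)) (hμ : IsFreeIsing G β μ) (D : Finset V) (x x' : V → ℝ) (v : V) :
    |mag μ D x v - mag μ D x' v| ≤ ∑ w ∈ D, (Real.tanh β) ^ (G.dist v w) * |x w - x' w| := by
  classical
  have := hμ.prob
  obtain ⟨D', hD, hD'⟩ := Tree.exists_closed hT.connected v D
  have e1 : ∀ x : V → ℝ, mag μ D x v = mag μ D' (fun w => if w ∈ D then x w else 0) v := by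
    intro x
    have e2 : ∀ σ : V → Bool, ∑ w ∈ D, x w * spin (σ w) =
        ∑ w ∈ D', (if w ∈ D then x w else 0) * spin (σ w) := by
      intro σ
      rw [← Finset.sum_subset hD]
      · exact Finset.sum_congr rfl fun w hw => by rw [if_pos hw]
      · intro w _ hw
        rw [if_neg hw, zero_mul]
    unfold mag
    simp only [e2]
  rw [e1, e1]
  refine (Tree.lipschitz_closed hβ hT hμ v _ D' rfl hD' _ _).trans (le_of_eq ?_)
  rw [← Finset.sum_subset hD]
  · exact Finset.sum_congr rfl fun w hw => by rw [if_pos hw, if_pos hw]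
  · intro w _ hw
    rw [if_neg hw, if_neg hw, sub_self, abs_zero, mul_zero]

end Vale.Agent.P161
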