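import Vale.Agent.P161.TreeMag

/-! Uniqueness and invariance of the free Ising measure. -/

set_option autoImplicit false

open MeasureTheory

namespace Vale.Agent.P161

variable {V : Type*} {G : SimpleGraph V} {β : ℝ}

namespace Tree

theorem ising_unique (hG : G.Connected) {μ ν : Measure (V → Bool)}
    (hμ : IsFreeIsing G β μ) (hν : IsFreeIsing G β ν) : μ = ν := by
  classical
  have := hμ.prob
  have := hν.prob
  obtain ⟨o⟩ := hG.nonempty
  have hD : ∀ D : Finset V, Closed G o D → μ.map D.restrict = ν.map D.restrict := by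
    intro D hD
    refine Measure.ext_of_singleton fun η => ?_
    have e1 : (D.restrict (π := fun _ => Bool)) ⁻¹' {η} = {σ | ∀ v ∈ D, σ v = ext D η v} := by
      ext σ
      simp only [Set.mem_preimage, Set.mem_singleton_iff, Set.mem_ofPred_eq]
      constructor
      · rintro rfl v hv
        rw [ext_apply D _ hv]
        rfl
      · intro h
        funext v
        have := h v.1 v.2
        rw [ext_apply D _ v.2] at this
        exact this
    rw [Measure.map_apply (by fun_prop) (measurableSet_singleton _),
      Measure.map_apply (by fun_prop) (measurableSet_singleton _), e1,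
      hμ.cylinder D (hD.connected hG), hν.cylinder D (hD.connected hG)]
  have h2 : IsProjectiveLimit μ (fun I : Finset V => μ.map I.restrict) := fun I => rfl
  have h3 : IsProjectiveLimit ν (fun I : Finset V => μ.map I.restrict) := by
    intro I
    obtain ⟨D, hD1, hD2⟩ := exists_closed hG o I
    have e2 : (I.restrict (π := fun _ : V => Bool)) =
        (Finset.restrict₂ (π := fun _ : V => Bool) hD1) ∘ (D.restrict (π := fun _ : V => Bool)) := rfl
    rw [e2, ← Measure.map_map (by fun_prop) (by fun_prop), ← hD D hD2,
      Measure.map_map (by fun_prop) (by fun_prop)]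
    rfl
  exact h2.unique h3

lemma edgesIn_map (g : G ≃g G) (D : Finset V) :
    edgesIn G (D.map g.toEquiv.toEmbedding) =
      (edgesIn G D).map ⟨Sym2.map g, Sym2.map.injective g.injective⟩ := by
  classical
  ext e
  rw [mem_edgesIn, Finset.mem_map]
  constructor
  · rintro ⟨h1, h2⟩
    refine ⟨e.map g.symm, ?_, ?_⟩
    · rw [mem_edgesIn]
      induction e with
      | _ a b =>
        rw [Sym2.map_mk, SimpleGraph.mem_edgeSet]
        rw [SimpleGraph.mem_edgeSet] at h1
        refine ⟨g.symm.map_adj_iff.2 h1, ?_⟩
        intro v hv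
        have ha := h2 a (by simp)
        have hb := h2 b (by simp)
        rw [Finset.mem_map] at ha hb
        obtain ⟨x, hx, rfl⟩ := ha
        obtain ⟨y, hy, rfl⟩ := hb
        rcases Sym2.mem_iff.1 hv with rfl | rfl
        · simpa using hx
        · simpa using hy
    · induction e with
      | _ a b => simp
  · rintro ⟨e', he', rfl⟩
    rw [mem_edgesIn] at he'
    obtain ⟨h1, h2⟩ := he'
    induction e' with
    | _ a b =>
      simp only [Function.Embedding.coeFn_mk, Sym2.map_mk]
      rw [SimpleGraph.mem_edgeSet] at h1 ⊢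
      refine ⟨g.map_adj_iff.2 h1, ?_⟩
      intro v hv
      rcases Sym2.mem_iff.1 hv with rfl | rfl
      · exact Finset.mem_map.2 ⟨a, h2 a (by simp), rfl⟩
      · exact Finset.mem_map.2 ⟨b, h2 b (by simp), rfl⟩

theorem ising_map {μ : Measure (V → Bool)} (hμ : IsFreeIsing G β μ) (g : G ≃g G) :
    IsFreeIsing G β (μ.map (fun σ v => σ (g.symm v))) := by
  classical
  have := hμ.prob
  have hm : Measurable (fun (σ : V → Bool) v => σ (g.symm v)) :=
    measurable_pi_lambda _ fun v => measurable_pi_apply _
  refine ⟨Measure.isProbabilityMeasure_map hm.aemeasurable, fun D hD η => ?_⟩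
  set D' : Finset V := D.map g.symm.toEquiv.toEmbedding with hD'
  have e0 : D'.map g.toEquiv.toEmbedding = D := by
    ext v
    rw [hD', Finset.mem_map]
    constructor
    · rintro ⟨w, hw, rfl⟩
      obtain ⟨x, hx, rfl⟩ := Finset.mem_map.1 hw
      simpa using hx
    · intro hv
      exact ⟨g.symm v, Finset.mem_map.2 ⟨v, hv, rfl⟩, by simp⟩
  have e1 : (fun (σ : V → Bool) v => σ (g.symm v)) ⁻¹' {σ | ∀ v ∈ D, σ v = η v} =
      {σ | ∀ v ∈ D', σ v = η (g v)} := by
    ext σ
    simp only [Set.mem_preimage, Set.mem_ofPred_eq, hD', Finset.mem_map]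
    constructor
    · rintro h v ⟨w, hw, rfl⟩
      simpa using h w hw
    · intro h v hv
      simpa using h (g.symm v) ⟨v, hv, rfl⟩
  have hconn : (G.induce (D' : Set V)).Connected := by
    have e2 : (D' : Set V) = g.symm '' (D : Set V) := by
      ext v; simp [hD']
    have iso : G.induce (D : Set V) ≃g G.induce (D' : Set V) := by
      refine ⟨(g.symm.toEquiv.image (D : Set V)).trans (Equiv.setCongr e2.symm), ?_⟩
      intro a b
      simp only [SimpleGraph.comap_adj]
      exact g.symm.map_adj_iff
    exact (SimpleGraph.Iso.connected_iff iso).1 hD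
  have hs : MeasurableSet {σ : V → Bool | ∀ v ∈ D, σ v = η v} := measurableSet_cyl D η
  rw [Measure.map_apply hm hs, e1, hμ.cylinder D' hconn]
  congr 2
  conv_rhs => rw [← e0, edgesIn_map, Finset.prod_map]
  refine Finset.prod_congr rfl fun e _ => ?_
  induction e with
  | _ a b => rfl

end Tree

theorem B5 (G : SimpleGraph V) [G.LocallyFinite] (hT : G.IsTree) (β : ℝ) (hβ : 0 ≤ β)
    (μ : Measure (V → Bool)) (hμ : IsFreeIsing G β μ) (g : G ≃g G) :
    μ.map (fun σ v => σ (g.symm v)) = μ :=
  Tree.ising_unique hT.connected (Tree.ising_map hμ g) hμ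

end Vale.Agent.P161
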